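import Crest.Agent.R236.Skel

set_option autoImplicit false
open scoped ContDiff Topology
open Set Filter MeasureTheory intervalIntegral

namespace Crest.Agent.R236

/-- averaging operator -/
noncomputable def avg (r : ℝ) (G : ℝ → ℝ) (x : ℝ) : ℝ := ∫ θ in (0:ℝ)..1, θ ^ r * G (θ * x)

theorem avg_mem {ε δ x θ : ℝ} (hδ : δ < ε) (hx : x ∈ Icc (-δ) δ) (h0 : 0 ≤ θ) (h1 : θ ≤ 1) :
    θ * x ∈ Icc (-δ) δ := by
  have hδ0 : 0 ≤ δ := by linarith [hx.1, hx.2]
  constructor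
  · nlinarith [hx.1, hx.2]
  · nlinarith [hx.1, hx.2]

theorem avg_continuousOn (ε : ℝ) (r : ℝ) (hr : 0 ≤ r) (G : ℝ → ℝ)
    (hG : ContinuousOn G (Ioo (-ε) ε)) : ContinuousOn (avg r G) (Ioo (-ε) ε) := by
  intro x hx
  apply ContinuousAt.continuousWithinAt
  obtain ⟨δ, hδ1, hδ2⟩ : ∃ δ, |x| < δ ∧ δ < ε := exists_between (abs_lt.2 hx)
  have hδ0 : 0 ≤ δ := le_trans (abs_nonneg x) hδ1.le
  have hGc : ContinuousOn G (Icc (-δ) δ) :=
    hG.mono (fun y hy => ⟨by linarith [hy.1], by linarith [hy.2]⟩)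
  let G1 : ℝ → ℝ := fun y => G (max (-δ) (min δ y))
  have hG1 : Continuous G1 := by
    apply hGc.comp_continuous (by fun_prop)
    intro y
    exact ⟨le_max_left _ _, max_le (by linarith) (min_le_left _ _)⟩
  have hc : Continuous (fun x => ∫ θ in (0:ℝ)..1, θ ^ r * G1 (θ * x)) := by
    apply intervalIntegral.continuous_parametric_intervalIntegral_of_continuous'
    apply Continuous.mul
    · exact (Real.continuous_rpow_const hr).comp continuous_snd
    · exact hG1.comp (continuous_snd.mul continuous_fst)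
  apply hc.continuousAt.congr
  have hnb : Icc (-δ) δ ∈ 𝓝 x := Icc_mem_nhds (by linarith [(abs_lt.1 hδ1).1]) (abs_lt.1 hδ1).2
  filter_upwards [hnb] with y hy
  unfold avg
  apply intervalIntegral.integral_congr
  intro θ hθ
  rw [uIcc_of_le zero_le_one] at hθ
  have hm := avg_mem hδ2 hy hθ.1 hθ.2
  simp only [G1]
  rw [min_eq_right hm.2, max_eq_right hm.1]

theorem avg_hasDerivAt (ε : ℝ) (r : ℝ) (hr : 0 ≤ r) (G : ℝ → ℝ)
    (hG : ContDiffOn ℝ 1 G (Ioo (-ε) ε)) (x : ℝ) (hx : x ∈ Ioo (-ε) ε) :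
    HasDerivAt (avg r G) (avg (r + 1) (deriv G) x) x := by
  obtain ⟨δ, hδ1, hδ2⟩ : ∃ δ, |x| < δ ∧ δ < ε := exists_between (abs_lt.2 hx)
  have hδ0 : 0 ≤ δ := le_trans (abs_nonneg x) hδ1.le
  have hsub : Icc (-δ) δ ⊆ Ioo (-ε) ε := fun y hy => ⟨by linarith [hy.1], by linarith [hy.2]⟩
  have hGc : ContinuousOn G (Icc (-δ) δ) := hG.continuousOn.mono hsub
  have hdG : ContinuousOn (deriv G) (Ioo (-ε) ε) :=
    hG.continuousOn_deriv_of_isOpen isOpen_Ioo le_rfl
  have hdGc : ContinuousOn (deriv G) (Icc (-δ) δ) := hdG.mono hsub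
  obtain ⟨C, hC⟩ := isCompact_Icc.exists_bound_of_continuousOn hdGc
  have hnb : Icc (-δ) δ ∈ 𝓝 x := Icc_mem_nhds (by linarith [(abs_lt.1 hδ1).1]) (abs_lt.1 hδ1).2
  have hθc : ∀ y ∈ Icc (-δ) δ, ∀ g : ℝ → ℝ, ContinuousOn g (Icc (-δ) δ) → ∀ q : ℝ, 0 ≤ q →
      ContinuousOn (fun θ : ℝ => θ ^ q * g (θ * y)) (uIcc 0 1) := by
    intro y hy g hg q hq
    apply ContinuousOn.mul
    · exact (Real.continuous_rpow_const hq).continuousOn
    · apply hg.comp (by fun_prop)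
      intro θ hθ
      rw [uIcc_of_le zero_le_one] at hθ
      exact avg_mem hδ2 hy hθ.1 hθ.2
  have hxI : x ∈ Icc (-δ) δ := mem_of_mem_nhds hnb
  have key := intervalIntegral.hasDerivAt_integral_of_dominated_loc_of_deriv_le
    (𝕜 := ℝ) (μ := volume) (a := 0) (b := 1) (x₀ := x) (s := Icc (-δ) δ)
    (F := fun x θ => θ ^ r * G (θ * x)) (F' := fun x θ => θ ^ (r + 1) * deriv G (θ * x))
    (bound := fun _ => C) hnb ?_ ?_ ?_ ?_ ?_ ?_
  · exact key.2
  · filter_upwards [hnb] with y hy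
    have := (hθc y hy G hGc r hr).mono (uIoc_subset_uIcc)
    exact this.aestronglyMeasurable measurableSet_uIoc
  · exact (hθc x hxI G hGc r hr).intervalIntegrable
  · have := (hθc x hxI (deriv G) hdGc (r + 1) (by linarith)).mono (uIoc_subset_uIcc)
    exact this.aestronglyMeasurable measurableSet_uIoc
  · refine Filter.Eventually.of_forall fun θ hθ y hy => ?_
    rw [uIoc_of_le zero_le_one] at hθ
    have h1 : ‖θ ^ (r + 1)‖ ≤ 1 := by
      rw [Real.norm_of_nonneg (Real.rpow_nonneg hθ.1.le _)]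
      exact Real.rpow_le_one hθ.1.le hθ.2 (by linarith)
    have h2 := hC (θ * y) (avg_mem hδ2 hy hθ.1.le hθ.2)
    rw [norm_mul]
    calc ‖θ ^ (r + 1)‖ * ‖deriv G (θ * y)‖ ≤ 1 * C :=
          mul_le_mul h1 h2 (norm_nonneg _) zero_le_one
      _ = C := one_mul _
  · exact intervalIntegrable_const
  · refine Filter.Eventually.of_forall fun θ hθ y hy => ?_
    rw [uIoc_of_le zero_le_one] at hθ
    have hm := hsub (avg_mem hδ2 hy hθ.1.le hθ.2)
    have hd : HasDerivAt G (deriv G (θ * y)) (θ * y) :=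
      ((hG.differentiableOn one_ne_zero).differentiableAt (isOpen_Ioo.mem_nhds hm)).hasDerivAt
    have h3 : HasDerivAt (fun z => G (θ * z)) (deriv G (θ * y) * (θ * 1)) y :=
      HasDerivAt.comp y hd ((hasDerivAt_id y).const_mul θ)
    have h4 := h3.const_mul (θ ^ r)
    refine h4.congr_deriv ?_
    rw [Real.rpow_add_one hθ.1.ne']
    ring

theorem avg_contDiffOn (ε : ℝ) (n : ℕ) : ∀ (r : ℝ), 0 ≤ r → ∀ (G : ℝ → ℝ),
    ContDiffOn ℝ n G (Ioo (-ε) ε) → ContDiffOn ℝ n (avg r G) (Ioo (-ε) ε) := by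
  induction n with
  | zero =>
    intro r hr G hG
    simp only [Nat.cast_zero, contDiffOn_zero] at *
    exact avg_continuousOn ε r hr G hG
  | succ n ih =>
    intro r hr G hG
    have hG1 : ContDiffOn ℝ 1 G (Ioo (-ε) ε) := hG.of_le (by exact_mod_cast Nat.le_add_left 1 n)
    have hd := avg_hasDerivAt ε r hr G hG1
    have hc : ((n + 1 : ℕ) : WithTop ℕ∞) = (n : WithTop ℕ∞) + 1 := by push_cast; rfl
    rw [hc] at hG ⊢
    rw [contDiffOn_succ_iff_deriv_of_isOpen isOpen_Ioo] at hG ⊢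
    refine ⟨fun x hx => (hd x hx).differentiableAt.differentiableWithinAt, by simp, ?_⟩
    exact (ih (r + 1) (by linarith) (deriv G) hG.2.2).congr (fun x hx => (hd x hx).deriv)

end Crest.Agent.R236
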