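import Crest.Agent.R236.Smooth29

set_option autoImplicit false
open scoped ContDiff Topology
open Set MeasureTheory intervalIntegral Filter

namespace Crest.Agent.R236.S29

/-- the smooth remainder: `2 x W' = -11 W + 7/3 P + x * HH x W P`. -/
noncomputable def HH (x W P : ℝ) : ℝ :=
  -9 * W ^ 2 + W * P + P * (108 * W + 72 * x * W ^ 2 - 8 * P) / (3 * (9 + 2 * x * P))

theorem HH_eq (x W P : ℝ) (h : 9 + 2 * x * P ≠ 0) :
    -11 * W + 7 / 3 * P + x * HH x W P = -2 * W + (1 + x * W) *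
      (-9 * W + P + 12 * P * (1 + 2 * x * W) / (9 + 2 * x * P)) := by
  unfold HH
  have hq : (9 + 2 * x * P) * (9 + 2 * x * P)⁻¹ = 1 := mul_inv_cancel₀ h
  simp only [div_eq_mul_inv, mul_inv]
  linear_combination (-(4 / 3) * P) * hq

theorem HH_contDiffOn {n : WithTop ℕ∞} {s : Set ℝ} {P W : ℝ → ℝ}
    (hP : ContDiffOn ℝ n P s) (hW : ContDiffOn ℝ n W s)
    (h : ∀ x ∈ s, 9 + 2 * x * P x ≠ 0) :
    ContDiffOn ℝ n (fun x => HH x (W x) (P x)) s := by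
  unfold HH
  have hid : ContDiffOn ℝ n (fun x : ℝ => x) s := contDiffOn_id
  refine ContDiffOn.add (ContDiffOn.add (contDiffOn_const.mul (hW.pow 2)) (hW.mul hP))
    (ContDiffOn.div (hP.mul (((contDiffOn_const.mul hW).add
      ((contDiffOn_const.mul hid).mul (hW.pow 2))).sub (contDiffOn_const.mul hP)))
      (contDiffOn_const.mul (contDiffOn_const.add ((contDiffOn_const.mul hid).mul hP)))
      (fun x hx => mul_ne_zero (by norm_num) (h x hx)))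

theorem boot {ε : ℝ} {P W : ℝ → ℝ}
    (h9 : ∀ x ∈ Ioo (-ε) ε, 9 + 2 * x * P x ≠ 0)
    (hP : ∀ x ∈ Ioo (-ε) ε, HasDerivAt P (P x * (W x - P x) / 2) x)
    (hWc : ContinuousOn W (Ioo (-ε) ε))
    (hW : ∀ x ∈ Ioo (-ε) ε, W x = 1 / 2 * (7 / 3 * avg (9 / 2) P x +
      x * avg (11 / 2) (fun u => HH u (W u) (P u)) x)) (n : ℕ) :
    ContDiffOn ℝ n P (Ioo (-ε) ε) ∧ ContDiffOn ℝ n W (Ioo (-ε) ε) := by
  induction n with
  | zero =>
    simp only [Nat.cast_zero, contDiffOn_zero]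
    exact ⟨fun x hx => (hP x hx).continuousAt.continuousWithinAt, hWc⟩
  | succ n ih =>
    obtain ⟨ihP, ihW⟩ := ih
    have hP1 : ContDiffOn ℝ (n + 1) P (Ioo (-ε) ε) := by
      rw [contDiffOn_succ_iff_deriv_of_isOpen isOpen_Ioo]
      refine ⟨fun x hx => (hP x hx).differentiableAt.differentiableWithinAt, by simp, ?_⟩
      refine ContDiffOn.congr ?_ (fun x hx => (hP x hx).deriv)
      exact (ihP.mul (ihW.sub ihP)).div_const 2
    have hP1' : ContDiffOn ℝ ((n + 1 : ℕ) : WithTop ℕ∞) P (Ioo (-ε) ε) := by exact_mod_cast hP1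
    have hA : ContDiffOn ℝ (n + 1) (avg (9 / 2) P) (Ioo (-ε) ε) := by
      exact_mod_cast avg_contDiffOn (n + 1) (s := 9 / 2) (by norm_num) hP1'
    have hG := gain_contDiffOn n (s := 11 / 2) (by norm_num) (HH_contDiffOn ihP ihW h9)
    have hW1 : ContDiffOn ℝ (n + 1) W (Ioo (-ε) ε) := by
      refine ContDiffOn.congr ?_ hW
      exact contDiffOn_const.mul ((contDiffOn_const.mul hA).add hG)
    exact ⟨hP1', by exact_mod_cast hW1⟩

theorem boot_ode {ε : ℝ} {P W : ℝ → ℝ}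
    (h9 : ∀ x ∈ Ioo (-ε) ε, 9 + 2 * x * P x ≠ 0)
    (hP : ∀ x ∈ Ioo (-ε) ε, HasDerivAt P (P x * (W x - P x) / 2) x)
    (hWc : ContinuousOn W (Ioo (-ε) ε))
    (hW : ∀ x ∈ Ioo (-ε) ε, W x = 1 / 2 * (7 / 3 * avg (9 / 2) P x +
      x * avg (11 / 2) (fun u => HH u (W u) (P u)) x)) {x : ℝ} (hx : x ∈ Ioo (-ε) ε) :
    2 * x * deriv W x = -11 * W x + 7 / 3 * P x + x * HH x (W x) (P x) := by
  obtain ⟨hP0, hW0⟩ := boot h9 hP hWc hW 0
  have hHc : ContinuousOn (fun u => HH u (W u) (P u)) (Ioo (-ε) ε) :=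
    (HH_contDiffOn hP0 hW0 h9).continuousOn
  have hP'c : ContinuousOn (fun x => P x * (W x - P x) / 2) (Ioo (-ε) ε) :=
    ((hP0.mul (hW0.sub hP0)).div_const 2).continuousOn
  have d1 := avg_hasDerivAt (s := 9 / 2) (by norm_num) hP hP'c hx
  have d2 := gain (s := 11 / 2) (by norm_num) hHc hx
  have d3 := gain (s := 9 / 2) (by norm_num) hP0.continuousOn hx
  have d4 := ((hasDerivAt_id x).mul d1).unique d3
  have d5 := ((d1.const_mul (7 / 3)).add d2).const_mul (1 / 2)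
  have hev : W =ᶠ[𝓝 x] fun x => 1 / 2 * (7 / 3 * avg (9 / 2) P x +
      x * avg (11 / 2) (fun u => HH u (W u) (P u)) x) := by
    filter_upwards [Ioo_mem_nhds hx.1 hx.2] with y hy
    exact hW y hy
  have d6 : deriv W x = _ := (d5.congr_of_eventuallyEq hev).deriv
  rw [d6]
  have hWx := hW x hx
  simp only [id] at d4
  set A := avg (9 / 2) P x
  set B := avg (11 / 2) (fun u => HH u (W u) (P u)) x
  set A' := avg (9 / 2 + 1) (fun x => P x * (W x - P x) / 2) x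
  linear_combination (7 / 3) * d4 + 11 * hWx

/-- Assembly of E1 from a continuous solution of the integral form. -/
theorem local_sol_of_integral (hex : ∃ ε : ℝ, 0 < ε ∧ ∃ P W : ℝ → ℝ, P 0 = 1 ∧ W 0 = 7 / 33 ∧
    (∀ x ∈ Ioo (-ε) ε, HasDerivAt P (P x * (W x - P x) / 2) x) ∧
    ContinuousOn W (Ioo (-ε) ε) ∧
    (∀ x ∈ Ioo (-ε) ε, W x = 1 / 2 * (7 / 3 * avg (9 / 2) P x +
      x * avg (11 / 2) (fun u => HH u (W u) (P u)) x))) :
    ∃ ε : ℝ, 0 < ε ∧ ∃ P W : ℝ → ℝ,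
    ContDiffOn ℝ ∞ P (Ioo (-ε) ε) ∧ ContDiffOn ℝ ∞ W (Ioo (-ε) ε) ∧
    (∀ x ∈ Ioo (-ε) ε, SysAt P W x) ∧
    (∀ x ∈ Ioo 0 ε, x * P x < 9 / 2 ∧ W x < 5 / 9 * P x) := by
  obtain ⟨ε, hε, P, W, P0, W0, hP, hWc, hW⟩ := hex
  have h0 : (0:ℝ) ∈ Ioo (-ε) ε := ⟨by linarith, hε⟩
  have cP : ContinuousAt P 0 := (hP 0 h0).continuousAt
  have cW : ContinuousAt W 0 := hWc.continuousAt (Ioo_mem_nhds h0.1 h0.2)
  have e1 : ∀ᶠ x in 𝓝 (0:ℝ), 0 < P x := cP.eventually_const_lt (by rw [P0]; norm_num)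
  have e2 : ∀ᶠ x in 𝓝 (0:ℝ), 0 < 1 + x * W x :=
    (ContinuousAt.add continuousAt_const (continuousAt_id.mul cW)).eventually_const_lt
      (by simp)
  have e3 : ∀ᶠ x in 𝓝 (0:ℝ), 0 < 9 + 2 * x * P x :=
    (ContinuousAt.add continuousAt_const ((continuousAt_const.mul continuousAt_id).mul cP)).eventually_const_lt
      (by simp)
  have e4 : ∀ᶠ x in 𝓝 (0:ℝ), x * P x < 9 / 2 :=
    (continuousAt_id.mul cP).eventually_lt_const (by simp)
  have e5 : ∀ᶠ x in 𝓝 (0:ℝ), 0 < 5 / 9 * P x - W x :=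
    ((continuousAt_const.mul cP).sub cW).eventually_const_lt
      (by simp only [Pi.mul_apply, Pi.sub_apply, P0, W0]; norm_num)
  obtain ⟨δ, hδ, hball⟩ := Metric.eventually_nhds_iff.1 ((((e1.and e2).and e3).and e4).and e5)
  have hmin : 0 < min ε δ := lt_min hε hδ
  have hsub : Ioo (-(min ε δ)) (min ε δ) ⊆ Ioo (-ε) ε := fun y hy =>
    ⟨by linarith [hy.1, min_le_left ε δ], lt_of_lt_of_le hy.2 (min_le_left _ _)⟩
  have hall : ∀ x ∈ Ioo (-(min ε δ)) (min ε δ), (((0 < P x ∧ 0 < 1 + x * W x) ∧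
      0 < 9 + 2 * x * P x) ∧ x * P x < 9 / 2) ∧ 0 < 5 / 9 * P x - W x := by
    intro x hx
    apply hball
    rw [Real.dist_eq, sub_zero]
    exact lt_of_lt_of_le (abs_lt.2 hx) (min_le_right _ _)
  have h9 : ∀ x ∈ Ioo (-(min ε δ)) (min ε δ), 9 + 2 * x * P x ≠ 0 := fun x hx =>
    (hall x hx).1.1.2.ne'
  have hP' : ∀ x ∈ Ioo (-(min ε δ)) (min ε δ), HasDerivAt P (P x * (W x - P x) / 2) x :=
    fun x hx => hP x (hsub hx)
  have hWc' := hWc.mono hsub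
  have hW' : ∀ x ∈ Ioo (-(min ε δ)) (min ε δ), W x = 1 / 2 * (7 / 3 * avg (9 / 2) P x +
      x * avg (11 / 2) (fun u => HH u (W u) (P u)) x) := fun x hx => hW x (hsub hx)
  refine ⟨min ε δ, hmin, P, W, ?_, ?_, ?_, ?_⟩
  · exact contDiffOn_infty.2 fun n => (boot h9 hP' hWc' hW' n).1
  · exact contDiffOn_infty.2 fun n => (boot h9 hP' hWc' hW' n).2
  · intro x hx
    refine ⟨(hall x hx).1.1.1.1, (hall x hx).1.1.1.2, (hall x hx).1.1.2, hP' x hx, ?_⟩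
    rw [boot_ode h9 hP' hWc' hW' hx, HH_eq _ _ _ (h9 x hx)]
  · intro x hx
    have hx' : x ∈ Ioo (-(min ε δ)) (min ε δ) := ⟨by linarith [hx.1], hx.2⟩
    exact ⟨(hall x hx').1.2, by linarith [(hall x hx').2]⟩

end Crest.Agent.R236.S29
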