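import Crest.Agent.R236.Smooth29

set_option autoImplicit false
open scoped ContDiff Topology
open Set Filter MeasureTheory intervalIntegral

namespace Crest.Agent.R236.B71

open Crest.Agent.R236.S29

noncomputable def PP (Om La : ℝ → ℝ) (x : ℝ) : ℝ := Real.exp (Om x / 2) / (1 + La x / 2)

noncomputable def QQ (Om La W : ℝ → ℝ) (x : ℝ) : ℝ :=
  (1 + x * W x) * (PP Om La x + 12 * PP Om La x * (1 + 2 * (x * W x)) / (9 + 2 * (x * PP Om La x)))

theorem alg (e w d : ℝ) (hd : d ≠ 0) :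
    (e * (w / 2) * d - e * (e / 2)) / d ^ 2 = e / d * (w - e / d) / 2 := by
  field_simp

theorem succ_of_hasDerivAt {ε : ℝ} {n : ℕ} {F F' : ℝ → ℝ}
    (h : ∀ x ∈ Ioo (-ε) ε, HasDerivAt F (F' x) x) (hF' : ContDiffOn ℝ n F' (Ioo (-ε) ε)) :
    ContDiffOn ℝ (n + 1) F (Ioo (-ε) ε) := by
  rw [contDiffOn_succ_iff_deriv_of_isOpen isOpen_Ioo]
  exact ⟨fun x hx => (h x hx).differentiableAt.differentiableWithinAt, by simp,
    hF'.congr fun x hx => (h x hx).deriv⟩

theorem P_cd {ε : ℝ} {n : WithTop ℕ∞} {Om La : ℝ → ℝ}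
    (hOm : ContDiffOn ℝ n Om (Ioo (-ε) ε)) (hLa : ContDiffOn ℝ n La (Ioo (-ε) ε))
    (hpos : ∀ x ∈ Ioo (-ε) ε, 1 + La x / 2 ≠ 0) :
    ContDiffOn ℝ n (PP Om La) (Ioo (-ε) ε) := by
  unfold PP
  exact ((hOm.div_const 2).exp).div (contDiffOn_const.add (hLa.div_const 2)) hpos

theorem Q_cd {ε : ℝ} {n : WithTop ℕ∞} {Om La W : ℝ → ℝ}
    (hP : ContDiffOn ℝ n (PP Om La) (Ioo (-ε) ε))
    (hV : ContDiffOn ℝ n (fun x => x * W x) (Ioo (-ε) ε))
    (h9 : ∀ x ∈ Ioo (-ε) ε, 9 + 2 * (x * PP Om La x) ≠ 0) :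
    ContDiffOn ℝ n (QQ Om La W) (Ioo (-ε) ε) := by
  unfold QQ
  refine (contDiffOn_const.add hV).mul (hP.add (ContDiffOn.div ?_ ?_ h9))
  · exact (contDiffOn_const.mul hP).mul (contDiffOn_const.add (contDiffOn_const.mul hV))
  · exact contDiffOn_const.add (contDiffOn_const.mul (contDiffOn_id.mul hP))

theorem boot {ε : ℝ} {Om La W : ℝ → ℝ}
    (hW : ContinuousOn W (Ioo (-ε) ε))
    (hOm : ∀ x ∈ Ioo (-ε) ε, HasDerivAt Om (W x) x)
    (hLa : ∀ x ∈ Ioo (-ε) ε, HasDerivAt La (Real.exp (Om x / 2)) x)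
    (hpos : ∀ x ∈ Ioo (-ε) ε, 1 + La x / 2 ≠ 0)
    (h9 : ∀ x ∈ Ioo (-ε) ε, 9 + 2 * (x * PP Om La x) ≠ 0)
    (hfix : ∀ x ∈ Ioo (-ε) ε, W x = Real.exp (-(9/2) * Om x) *
      (1 / 2 * avg (9/2) (fun y => Real.exp ((9/2) * Om y) * QQ Om La W y) x)) (n : ℕ) :
    ContDiffOn ℝ n W (Ioo (-ε) ε) ∧ ContDiffOn ℝ n Om (Ioo (-ε) ε) ∧
      ContDiffOn ℝ n La (Ioo (-ε) ε) ∧ ContDiffOn ℝ n (QQ Om La W) (Ioo (-ε) ε) := by
  induction n with
  | zero =>
    have h1 : ContDiffOn ℝ 0 Om (Ioo (-ε) ε) := contDiffOn_zero.2 fun x hx => (hOm x hx).continuousAt.continuousWithinAt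
    have h2 : ContDiffOn ℝ 0 La (Ioo (-ε) ε) := contDiffOn_zero.2 fun x hx => (hLa x hx).continuousAt.continuousWithinAt
    have h3 : ContDiffOn ℝ 0 W (Ioo (-ε) ε) := contDiffOn_zero.2 hW
    refine ⟨by simpa using hW, by simpa using h1.continuousOn, by simpa using h2.continuousOn, ?_⟩
    have h4 := Q_cd (W := W) (P_cd h1 h2 hpos) (contDiffOn_id.mul h3) h9
    simpa using h4.continuousOn
  | succ n ih =>
    obtain ⟨iW, iOm, iLa, iQ⟩ := ih
    have jOm : ContDiffOn ℝ (n + 1) Om (Ioo (-ε) ε) := succ_of_hasDerivAt hOm iW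
    have jLa : ContDiffOn ℝ (n + 1) La (Ioo (-ε) ε) :=
      succ_of_hasDerivAt hLa ((iOm.div_const 2).exp)
    have iG : ContDiffOn ℝ n (fun y => Real.exp ((9/2) * Om y) * QQ Om La W y) (Ioo (-ε) ε) :=
      ((contDiffOn_const.mul iOm).exp).mul iQ
    have jg := gain_contDiffOn n (by norm_num : (0:ℝ) < 9/2) iG
    have jV : ContDiffOn ℝ (n + 1) (fun x => x * W x) (Ioo (-ε) ε) := by
      have : ContDiffOn ℝ (n + 1) (fun x => Real.exp (-(9/2) * Om x) * (1 / 2 *
          (x * avg (9/2) (fun y => Real.exp ((9/2) * Om y) * QQ Om La W y) x))) (Ioo (-ε) ε) :=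
        ((contDiffOn_const.mul jOm).exp).mul (contDiffOn_const.mul jg)
      refine this.congr fun x hx => ?_
      show x * W x = _
      rw [hfix x hx]
      ring
    have jQ : ContDiffOn ℝ (n + 1) (QQ Om La W) (Ioo (-ε) ε) := Q_cd (P_cd jOm jLa hpos) jV h9
    have jG : ContDiffOn ℝ ((n + 1 : ℕ)) (fun y => Real.exp ((9/2) * Om y) * QQ Om La W y) (Ioo (-ε) ε) := by
      push_cast
      exact ((contDiffOn_const.mul jOm).exp).mul jQ
    have ja := avg_contDiffOn (n + 1) (by norm_num : (0:ℝ) < 9/2) jG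
    push_cast at ja ⊢
    refine ⟨?_, jOm, jLa, jQ⟩
    have : ContDiffOn ℝ (n + 1) (fun x => Real.exp (-(9/2) * Om x) * (1 / 2 *
        avg (9/2) (fun y => Real.exp ((9/2) * Om y) * QQ Om La W y) x)) (Ioo (-ε) ε) :=
      ((contDiffOn_const.mul jOm).exp).mul (contDiffOn_const.mul ja)
    exact this.congr fun x hx => hfix x hx

/-- the fixed point gives a smooth solution of the system. -/
theorem sol {ε : ℝ} {Om La W : ℝ → ℝ}
    (hW : ContinuousOn W (Ioo (-ε) ε))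
    (hOm : ∀ x ∈ Ioo (-ε) ε, HasDerivAt Om (W x) x)
    (hLa : ∀ x ∈ Ioo (-ε) ε, HasDerivAt La (Real.exp (Om x / 2)) x)
    (hpos : ∀ x ∈ Ioo (-ε) ε, 1 + La x / 2 ≠ 0)
    (h9 : ∀ x ∈ Ioo (-ε) ε, 9 + 2 * (x * PP Om La x) ≠ 0)
    (hfix : ∀ x ∈ Ioo (-ε) ε, W x = Real.exp (-(9/2) * Om x) *
      (1 / 2 * avg (9/2) (fun y => Real.exp ((9/2) * Om y) * QQ Om La W y) x)) :
    ContDiffOn ℝ ∞ (PP Om La) (Ioo (-ε) ε) ∧ ContDiffOn ℝ ∞ W (Ioo (-ε) ε) ∧
    (∀ x ∈ Ioo (-ε) ε, HasDerivAt (PP Om La) (PP Om La x * (W x - PP Om La x) / 2) x ∧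
      2 * x * deriv W x = -2 * W x + (1 + x * W x) *
        (-9 * W x + PP Om La x + 12 * PP Om La x * (1 + 2 * x * W x) / (9 + 2 * x * PP Om La x))) := by
  have hb := boot hW hOm hLa hpos h9 hfix
  refine ⟨?_, ?_, ?_⟩
  · rw [contDiffOn_infty]
    intro n
    exact P_cd (hb n).2.1 (hb n).2.2.1 hpos
  · rw [contDiffOn_infty]
    exact fun n => (hb n).1
  · intro x hx
    constructor
    · have h1 := ((hOm x hx).div_const 2).exp.div (((hLa x hx).div_const 2).const_add 1) (hpos x hx)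
      have h2 : HasDerivAt (PP Om La) _ x := h1
      refine h2.congr_deriv ?_
      exact alg (Real.exp (Om x / 2)) (W x) (1 + La x / 2) (hpos x hx)
    · have hG0 := (hb 1).2.1
      have hG1 : ContDiffOn ℝ ((1:ℕ)) (fun y => Real.exp ((9/2) * Om y) * QQ Om La W y) (Ioo (-ε) ε) :=
        ((contDiffOn_const.mul (hb 1).2.1).exp).mul (hb 1).2.2.2
      have hWd : HasDerivAt W (deriv W x) x :=
        (((hb 1).1.differentiableOn (by simp)).differentiableAt (isOpen_Ioo.mem_nhds hx)).hasDerivAt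
      have hg := gain (by norm_num : (0:ℝ) < 9/2) hG1.continuousOn hx
      have h1 : HasDerivAt (fun x => x * W x) (1 * W x + x * deriv W x) x := (hasDerivAt_id x).mul hWd
      have h2 : HasDerivAt (fun x => Real.exp ((9/2) * Om x) * (x * W x))
          (Real.exp ((9/2) * Om x) * ((9/2) * W x) * (x * W x) +
            Real.exp ((9/2) * Om x) * (1 * W x + x * deriv W x)) x :=
        (((hOm x hx).const_mul (9/2)).exp).mul h1
      have h3 : HasDerivAt (fun x => Real.exp ((9/2) * Om x) * (x * W x))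
          (1/2 * (Real.exp ((9/2) * Om x) * QQ Om La W x -
            (9/2) * avg (9/2) (fun y => Real.exp ((9/2) * Om y) * QQ Om La W y) x)) x := by
        refine (hg.const_mul (1/2)).congr_of_eventuallyEq ?_
        filter_upwards [isOpen_Ioo.mem_nhds hx] with y hy
        rw [hfix y hy]
        have he : Real.exp ((9/2) * Om y) * Real.exp (-(9/2) * Om y) = 1 := by
          rw [← Real.exp_add]; simp
        linear_combination (y * (1 / 2 * avg (9/2) (fun y => Real.exp ((9/2) * Om y) * QQ Om La W y) y)) * he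
      have h4 := h2.unique h3
      have hf := hfix x hx
      have he : Real.exp ((9/2) * Om x) * Real.exp (-(9/2) * Om x) = 1 := by
        rw [← Real.exp_add]; simp
      have hA : 1 / 2 * avg (9/2) (fun y => Real.exp ((9/2) * Om y) * QQ Om La W y) x
          = Real.exp ((9/2) * Om x) * W x := by
        rw [hf]
        linear_combination (-(1 / 2 * avg (9/2) (fun y => Real.exp ((9/2) * Om y) * QQ Om La W y) x)) * he
      have hE : Real.exp ((9/2) * Om x) ≠ 0 := (Real.exp_pos _).ne'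
      have h5 : Real.exp ((9/2) * Om x) * ((9/2) * W x * (x * W x) + W x + x * deriv W x)
          = Real.exp ((9/2) * Om x) * (1/2 * QQ Om La W x - (9/2) * W x) := by
        linear_combination h4 - (9/2) * hA
      have h6 := mul_left_cancel₀ hE h5
      have h7 : QQ Om La W x = (1 + x * W x) * (PP Om La x +
          12 * PP Om La x * (1 + 2 * x * W x) / (9 + 2 * x * PP Om La x)) := by
        unfold QQ
        ring_nf
      rw [h7] at h6
      linear_combination 2 * h6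

end Crest.Agent.R236.B71
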