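import Crest.Agent.R236.Skel

set_option autoImplicit false
open scoped ContDiff Topology
open Set MeasureTheory

namespace Crest.Agent.R236.C87

abbrev J := Icc (-1:ℝ) 1
abbrev X := C(Icc (-1:ℝ) 1, ℝ)

theorem h11 : (-1:ℝ) ≤ 1 := by norm_num

noncomputable def avf (r : ℝ) (G : X) (u : J) : ℝ :=
  ∫ θ in (0:ℝ)..1, θ ^ r * G (projIcc (-1) 1 h11 (θ * u))

theorem avf_cont0 (r : ℝ) (hr : 0 ≤ r) (G : X) (u : ℝ) :
    Continuous (fun θ : ℝ => θ ^ r * G (projIcc (-1) 1 h11 (θ * u))) := by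
  apply Continuous.mul
  · exact (Real.continuous_rpow_const hr)
  · exact G.continuous.comp (continuous_projIcc.comp (by fun_prop))

theorem avf_cont (r : ℝ) (hr : 0 ≤ r) (G : X) : Continuous (avf r G) := by
  unfold avf
  apply intervalIntegral.continuous_parametric_intervalIntegral_of_continuous'
  apply Continuous.mul
  · exact (Real.continuous_rpow_const hr).comp continuous_snd
  · exact G.continuous.comp (continuous_projIcc.comp (by fun_prop))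

noncomputable def Av (r : ℝ) (hr : 0 ≤ r) : X →L[ℝ] X :=
  LinearMap.mkContinuous
    { toFun := fun G => ⟨avf r G, avf_cont r hr G⟩
      map_add' := by
        intro G H
        ext u
        show avf r (G + H) u = avf r G u + avf r H u
        unfold avf
        rw [← intervalIntegral.integral_add
          ((avf_cont0 r hr G u).intervalIntegrable _ _) ((avf_cont0 r hr H u).intervalIntegrable _ _)]
        apply intervalIntegral.integral_congr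
        intro θ _
        show θ ^ r * (G _ + H _) = _
        ring
      map_smul' := by
        intro c G
        ext u
        show avf r (c • G) u = c * avf r G u
        unfold avf
        rw [← intervalIntegral.integral_const_mul]
        apply intervalIntegral.integral_congr
        intro θ _
        show θ ^ r * (c * G _) = _
        ring } 1 (by
      intro G
      rw [one_mul, ContinuousMap.norm_le _ (norm_nonneg G)]
      intro u
      show ‖avf r G u‖ ≤ ‖G‖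
      unfold avf
      have := intervalIntegral.norm_integral_le_of_norm_le_const (a := (0:ℝ)) (b := 1) (C := ‖G‖)
        (f := fun θ : ℝ => θ ^ r * G (projIcc (-1) 1 h11 (θ * u))) ?_
      · simpa using this
      · intro θ hθ
        rw [uIoc_of_le zero_le_one] at hθ
        rw [norm_mul, Real.norm_of_nonneg (Real.rpow_nonneg hθ.1.le _)]
        calc θ ^ r * ‖G _‖ ≤ 1 * ‖G‖ := mul_le_mul (Real.rpow_le_one hθ.1.le hθ.2 hr)
              (G.norm_coe_le_norm _) (norm_nonneg _) zero_le_one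
          _ = ‖G‖ := one_mul _)

theorem Av_apply (r : ℝ) (hr : 0 ≤ r) (G : X) (u : J) : Av r hr G u =
    ∫ θ in (0:ℝ)..1, θ ^ r * G (projIcc (-1) 1 h11 (θ * u)) := rfl

noncomputable def idX : X := ⟨fun u => (u:ℝ), by fun_prop⟩

theorem h92 : (0:ℝ) ≤ 9/2 := by norm_num

noncomputable def Φ (v : ℝ × X × X × X) : ℝ × X × X × X :=
  (v.1,
   v.2.1 - 1 - v.1 • (idX * Av 0 le_rfl ((1/2:ℝ) • (v.2.1 * (v.2.2.1 - v.2.1)))),
   v.2.2.1 - (1/2:ℝ) • Av (9/2) h92 ((-9:ℝ) • (v.1 • (idX * (v.2.2.1 * v.2.2.1)))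
      + (1 + v.1 • (idX * v.2.2.1)) * (v.2.1 + (12:ℝ) • ((v.2.1 * (1 + (2:ℝ) • (v.1 • (idX * v.2.2.1)))) * v.2.2.2))),
   v.2.2.2 * ((9:ℝ) • 1 + (2:ℝ) • (v.1 • (idX * v.2.1))) - 1)

theorem Φ_contDiff : ContDiff ℝ 1 Φ := by
  unfold Φ
  fun_prop

noncomputable def W0 : X := (1/2:ℝ) • Av (9/2) h92 (1 + (12:ℝ) • ((1 * 1) * ((1/9:ℝ) • 1)))

noncomputable def a0 : ℝ × X × X × X := (0, 1, W0, (1/9:ℝ) • 1)

theorem Φ_a0 : Φ a0 = (0, 0, 0, 0) := by
  unfold Φ a0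
  refine Prod.ext rfl (Prod.ext ?_ (Prod.ext ?_ ?_))
  · simp
  · simp [W0]
  · ext u
    simp

theorem Φ_line (p w u : X) (t : ℝ) :
    Φ (a0 + t • (0, p, w, u)) = Φ a0 + t • ((0:ℝ), p, w - (1/2:ℝ) • Av (9/2) h92
      (p + (12:ℝ) • (p * ((1/9:ℝ) • 1) + u)), (9:ℝ) • u)
      + t ^ 2 • ((0:ℝ), (0:X), (-(1/2:ℝ)) • Av (9/2) h92 ((12:ℝ) • (p * u)), (0:X)) := by
  rw [Φ_a0]
  have hA : ((1 + t • p) + (12:ℝ) • (((1 + t • p) * 1) * ((1/9:ℝ) • (1:X) + t • u)))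
      = (1 + (12:ℝ) • ((1 * 1) * ((1/9:ℝ) • 1))) + t • (p + (12:ℝ) • (p * ((1/9:ℝ) • 1) + u))
        + t ^ 2 • ((12:ℝ) • (p * u)) := by
    ext z
    simp
    ring
  refine Prod.ext ?_ (Prod.ext ?_ (Prod.ext ?_ ?_))
  · simp [Φ, a0]
  · simp [Φ, a0]
  · have : (Φ (a0 + t • (0, p, w, u))).2.2.1 = (W0 + t • w) - (1/2:ℝ) • Av (9/2) h92
        ((1 + t • p) + (12:ℝ) • (((1 + t • p) * 1) * ((1/9:ℝ) • (1:X) + t • u))) := by
      simp [Φ, a0]
    rw [this, hA, map_add, map_add, map_smul (Av (9/2) h92) t, map_smul (Av (9/2) h92) (t^2)]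
    simp only [W0, Prod.snd_add, Prod.fst_add, Prod.smul_snd, Prod.smul_fst]
    module
  · ext z
    simp [Φ, a0]
    ring

theorem Φ_fderiv_line (p w u : X) :
    fderiv ℝ Φ a0 (0, p, w, u) = ((0:ℝ), p, w - (1/2:ℝ) • Av (9/2) h92
      (p + (12:ℝ) • (p * ((1/9:ℝ) • 1) + u)), (9:ℝ) • u) := by
  have h1 : HasFDerivAt Φ (fderiv ℝ Φ a0) (a0 + (0:ℝ) • ((0:ℝ), p, w, u)) := by
    rw [zero_smul, add_zero]
    exact (Φ_contDiff.differentiable one_ne_zero a0).hasFDerivAt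
  have h2 : HasDerivAt (fun t : ℝ => a0 + t • ((0:ℝ), p, w, u)) ((0:ℝ), p, w, u) 0 := by
    simpa using ((hasDerivAt_id (0:ℝ)).smul_const ((0:ℝ), p, w, u)).const_add a0
  have h3 := h1.comp_hasDerivAt (0:ℝ) h2
  have h4 : HasDerivAt (fun t : ℝ => Φ a0 + t • ((0:ℝ), p, w - (1/2:ℝ) • Av (9/2) h92
      (p + (12:ℝ) • (p * ((1/9:ℝ) • 1) + u)), (9:ℝ) • u)
      + t ^ 2 • ((0:ℝ), (0:X), (-(1/2:ℝ)) • Av (9/2) h92 ((12:ℝ) • (p * u)), (0:X)))
      ((0:ℝ), p, w - (1/2:ℝ) • Av (9/2) h92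
      (p + (12:ℝ) • (p * ((1/9:ℝ) • 1) + u)), (9:ℝ) • u) 0 := by
    have e1 := ((hasDerivAt_id (0:ℝ)).smul_const ((0:ℝ), p, w - (1/2:ℝ) • Av (9/2) h92
      (p + (12:ℝ) • (p * ((1/9:ℝ) • 1) + u)), (9:ℝ) • u)).const_add (Φ a0)
    have e2 := ((hasDerivAt_pow 2 (0:ℝ))).smul_const ((0:ℝ), (0:X), (-(1/2:ℝ)) • Av (9/2) h92 ((12:ℝ) • (p * u)), (0:X))
    have e3 := e1.fun_add e2
    refine e3.congr_deriv ?_
    simp
  refine h3.unique (h4.congr_of_eventuallyEq ?_)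
  filter_upwards with t
  exact Φ_line p w u t

theorem Φ_fst (v : ℝ × X × X × X) : (fderiv ℝ Φ a0 v).1 = v.1 := by
  have h1 : HasFDerivAt Φ (fderiv ℝ Φ a0) a0 :=
    (Φ_contDiff.differentiable one_ne_zero a0).hasFDerivAt
  have h2 : HasFDerivAt (fun v => (Φ v).1) ((ContinuousLinearMap.fst ℝ ℝ (X × X × X)).comp (fderiv ℝ Φ a0)) a0 :=
    h1.fst
  have h3 : HasFDerivAt (fun v : ℝ × X × X × X => v.1) (ContinuousLinearMap.fst ℝ ℝ (X × X × X)) a0 :=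
    hasFDerivAt_fst
  have h4 := h2.unique h3
  exact DFunLike.congr_fun h4 v

theorem Φ_surj : (fderiv ℝ Φ a0).range = ⊤ := by
  rw [LinearMap.range_eq_top]
  rintro ⟨a, b, c, d⟩
  set v := fderiv ℝ Φ a0 (a, 0, 0, 0) with hv
  have hv1 : v.1 = a := Φ_fst _
  set u := (1/9:ℝ) • (d - v.2.2.2) with hu
  set p := b - v.2.1 with hp
  set w := c - v.2.2.1 + (1/2:ℝ) • Av (9/2) h92 (p + (12:ℝ) • (p * ((1/9:ℝ) • 1) + u)) with hw
  refine ⟨(a, 0, 0, 0) + (0, p, w, u), ?_⟩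
  show fderiv ℝ Φ a0 ((a, 0, 0, 0) + (0, p, w, u)) = _
  rw [map_add, Φ_fderiv_line, ← hv]
  refine Prod.ext ?_ (Prod.ext ?_ (Prod.ext ?_ ?_))
  · simp [hv1]
  · simp [hp]
  · simp only [Prod.snd_add, Prod.fst_add, hw]
    abel
  · simp only [Prod.snd_add, hu]
    module

theorem exists_sol : ∃ ε : ℝ, 0 < ε ∧ ∃ P W U : X, Φ (ε, P, W, U) = (ε, 0, 0, 0) := by
  have h1 : HasStrictFDerivAt Φ (fderiv ℝ Φ a0) a0 :=
    Φ_contDiff.contDiffAt.hasStrictFDerivAt one_ne_zero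
  have h2 := h1.map_nhds_eq_of_surj Φ_surj
  have h3 : range Φ ∈ 𝓝 (Φ a0) := by
    rw [← h2]
    exact Filter.range_mem_map
  rw [Φ_a0] at h3
  have h4 : Filter.Tendsto (fun ε : ℝ => ((ε, 0, 0, 0) : ℝ × X × X × X)) (𝓝 0) (𝓝 (0, 0, 0, 0)) := by
    apply Continuous.tendsto'
    · fun_prop
    · rfl
  have h5 := h4.eventually h3
  obtain ⟨δ, hδ, hb⟩ := Metric.eventually_nhds_iff.1 h5
  obtain ⟨⟨e, P, W, U⟩, hv⟩ := hb (y := δ / 2) (by rw [Real.dist_eq, sub_zero, abs_of_pos (by linarith)]; linarith)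
  have he : e = δ / 2 := congrArg Prod.fst hv
  subst he
  exact ⟨δ / 2, by linarith, P, W, U, hv⟩

theorem exists_cont_sol : ∃ ε : ℝ, 0 < ε ∧ ∃ P W : ℝ → ℝ, Continuous P ∧ Continuous W ∧
    (∀ x ∈ Ioo (-ε) ε, 9 + 2 * x * P x ≠ 0) ∧
    (∀ x ∈ Ioo (-ε) ε, P x = 1 + ∫ s in (0:ℝ)..x, P s * (W s - P s) / 2) ∧
    (∀ x ∈ Ioo (-ε) ε, W x = 1 / 2 * ∫ θ in (0:ℝ)..1, θ ^ (9/2:ℝ) *
      (9 * W (θ * x) + (1 + (θ * x) * W (θ * x)) * (-9 * W (θ * x) + P (θ * x)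
        + 12 * P (θ * x) * (1 + 2 * (θ * x) * W (θ * x)) / (9 + 2 * (θ * x) * P (θ * x))))) := by
  obtain ⟨ε, hε, P, W, U, h⟩ := exists_sol
  unfold Φ at h
  have g1 := congrArg (fun v : ℝ × X × X × X => v.2.1) h
  have g2 := congrArg (fun v : ℝ × X × X × X => v.2.2.1) h
  have g3 := congrArg (fun v : ℝ × X × X × X => v.2.2.2) h
  simp only at g1 g2 g3
  have hz : ∀ y ∈ Ioo (-ε) ε, ε * ((projIcc (-1) 1 h11 (y / ε) : J) : ℝ) = y := by
    intro y hy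
    have : y / ε ∈ Icc (-1:ℝ) 1 := by
      constructor
      · rw [le_div_iff₀ hε]; linarith [hy.1]
      · rw [div_le_iff₀ hε]; linarith [hy.2]
    rw [projIcc_of_mem h11 this]
    field_simp
  have hU : ∀ y ∈ Ioo (-ε) ε, U (projIcc (-1) 1 h11 (y / ε)) * (9 + 2 * y * P (projIcc (-1) 1 h11 (y / ε))) = 1 := by
    intro y hy
    have := DFunLike.congr_fun g3 (projIcc (-1) 1 h11 (y / ε))
    simp [idX] at this
    have hzy := hz y hy
    calc U (projIcc (-1) 1 h11 (y / ε)) * (9 + 2 * y * P (projIcc (-1) 1 h11 (y / ε)))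
        = U (projIcc (-1) 1 h11 (y / ε)) * (9 + 2 * (ε * ((projIcc (-1) 1 h11 (y / ε) : J) : ℝ)) * P (projIcc (-1) 1 h11 (y / ε))) := by rw [hzy]
      _ = 1 := by linear_combination this
  refine ⟨ε, hε, fun x => P (projIcc (-1) 1 h11 (x / ε)), fun x => W (projIcc (-1) 1 h11 (x / ε)),
    P.continuous.comp (continuous_projIcc.comp (by fun_prop)),
    W.continuous.comp (continuous_projIcc.comp (by fun_prop)), ?_, ?_, ?_⟩
  · intro x hx h0
    have := hU x hx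
    simp only at h0
    rw [h0] at this
    simp at this
  · intro x hx
    have hzx := hz x hx
    have k1 := DFunLike.congr_fun g1 (projIcc (-1) 1 h11 (x / ε))
    have k2 : P (projIcc (-1) 1 h11 (x / ε)) = 1 + x * Av 0 le_rfl ((1/2:ℝ) • (P * (W - P))) (projIcc (-1) 1 h11 (x / ε)) := by
      have : P (projIcc (-1) 1 h11 (x / ε)) - 1 - ε * (((projIcc (-1) 1 h11 (x / ε) : J) : ℝ) * Av 0 le_rfl ((1/2:ℝ) • (P * (W - P))) (projIcc (-1) 1 h11 (x / ε))) = 0 := k1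
      rw [← mul_assoc, hzx] at this
      linarith
    show P (projIcc (-1) 1 h11 (x / ε)) = _
    rw [k2, Av_apply]
    congr 1
    have := intervalIntegral.mul_integral_comp_mul_right (a := (0:ℝ)) (b := 1) (c := x)
      (f := fun s => P (projIcc (-1) 1 h11 (s / ε)) * (W (projIcc (-1) 1 h11 (s / ε)) - P (projIcc (-1) 1 h11 (s / ε))) / 2)
    rw [zero_mul, one_mul] at this
    rw [← this]
    congr 1
    apply intervalIntegral.integral_congr
    intro θ _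
    have hzz : θ * ((projIcc (-1) 1 h11 (x / ε) : J) : ℝ) = θ * x / ε := by
      rw [eq_div_iff hε.ne', mul_assoc, mul_comm _ ε, hzx]
    show θ ^ (0:ℝ) * ((1/2:ℝ) * (P _ * (W _ - P _))) = _
    rw [hzz, Real.rpow_zero]
    ring
  · intro x hx
    have hzx := hz x hx
    have k1 := DFunLike.congr_fun g2 (projIcc (-1) 1 h11 (x / ε))
    have k2 : W (projIcc (-1) 1 h11 (x / ε)) = (1/2:ℝ) * Av (9/2) h92 ((-9:ℝ) • (ε • (idX * (W * W)))
      + (1 + ε • (idX * W)) * (P + (12:ℝ) • ((P * (1 + (2:ℝ) • (ε • (idX * W)))) * U))) (projIcc (-1) 1 h11 (x / ε)) := by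
      have : W (projIcc (-1) 1 h11 (x / ε)) - (1/2:ℝ) * Av (9/2) h92 ((-9:ℝ) • (ε • (idX * (W * W)))
      + (1 + ε • (idX * W)) * (P + (12:ℝ) • ((P * (1 + (2:ℝ) • (ε • (idX * W)))) * U))) (projIcc (-1) 1 h11 (x / ε)) = 0 := k1
      linarith
    show W (projIcc (-1) 1 h11 (x / ε)) = _
    rw [k2, Av_apply]
    congr 1
    apply intervalIntegral.integral_congr
    intro θ hθ
    rw [uIcc_of_le zero_le_one] at hθ
    have hzz : θ * ((projIcc (-1) 1 h11 (x / ε) : J) : ℝ) = θ * x / ε := by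
      rw [eq_div_iff hε.ne', mul_assoc, mul_comm _ ε, hzx]
    have hy : θ * x ∈ Ioo (-ε) ε := by
      have hx' := abs_lt.2 hx
      rw [mem_Ioo, ← abs_lt, abs_mul, abs_of_nonneg hθ.1]
      nlinarith [hθ.1, hθ.2, abs_nonneg x]
    have hUy := hU _ hy
    have hzy := hz _ hy
    show θ ^ (9/2:ℝ) * ((-9:ℝ) * (ε * (((projIcc (-1) 1 h11 (θ * ((projIcc (-1) 1 h11 (x / ε) : J) : ℝ)) : J) : ℝ) * (W _ * W _)))
      + (1 + ε * (((projIcc (-1) 1 h11 (θ * ((projIcc (-1) 1 h11 (x / ε) : J) : ℝ)) : J) : ℝ) * W _)) * (P _ + (12:ℝ) * ((P _ * (1 + (2:ℝ) * (ε * (((projIcc (-1) 1 h11 (θ * ((projIcc (-1) 1 h11 (x / ε) : J) : ℝ)) : J) : ℝ) * W _)))) * U _))) = _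
    rw [hzz]
    simp only
    generalize ((projIcc (-1) 1 h11 (θ * x / ε) : J)) = z at *
    have h9 : 9 + 2 * (θ * x) * P z ≠ 0 := fun h0 => by rw [h0] at hUy; simp at hUy
    have hUz : U z = 1 / (9 + 2 * (θ * x) * P z) := by
      rw [eq_div_iff h9]; exact hUy
    rw [hUz, ← mul_assoc ε, ← mul_assoc ε, hzy]
    field_simp
    ring

end Crest.Agent.R236.C87
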