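import Crest.Agent.R236.Skel

set_option autoImplicit false
open scoped ContDiff Topology
open Set MeasureTheory intervalIntegral Filter

namespace Crest.Agent.R236.S29

/-- averaging operator -/
noncomputable def avg (s : ℝ) (F : ℝ → ℝ) (x : ℝ) : ℝ := ∫ θ in (0:ℝ)..1, θ ^ s * F (θ * x)

theorem mul_mem {ε t x : ℝ} (h0 : 0 ≤ t) (h1 : t ≤ 1) (hx : x ∈ Ioo (-ε) ε) :
    t * x ∈ Ioo (-ε) ε := by
  have hxa : |x| < ε := abs_lt.2 hx
  have : |t * x| < ε := by
    rw [abs_mul, abs_of_nonneg h0]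
    nlinarith [abs_nonneg x]
  exact abs_lt.1 this

theorem avg_continuousOn {s : ℝ} (hs : 0 < s) {ε : ℝ} {F : ℝ → ℝ}
    (hF : ContinuousOn F (Ioo (-ε) ε)) : ContinuousOn (avg s F) (Ioo (-ε) ε) := by
  rw [continuousOn_iff_continuous_domRestrict]
  have key : (Set.domRestrict (Ioo (-ε) ε) (avg s F)) = fun x : Ioo (-ε) ε =>
      ∫ θ in (0:ℝ)..1, (fun (x : Ioo (-ε) ε) (θ : ℝ) =>
        (max 0 (min 1 θ)) ^ s * F (max 0 (min 1 θ) * (x : ℝ))) x θ := by
    funext x
    simp only [Set.domRestrict_apply, avg]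
    apply intervalIntegral.integral_congr
    intro θ hθ
    rw [uIcc_of_le zero_le_one] at hθ
    have e : max 0 (min 1 θ) = θ := by
      rw [min_eq_right hθ.2, max_eq_right hθ.1]
    simp only [e]
  rw [key]
  apply intervalIntegral.continuous_parametric_intervalIntegral_of_continuous'
  have hc : Continuous fun p : Ioo (-ε) ε × ℝ => max 0 (min 1 p.2) := by fun_prop
  have hc2 : Continuous fun p : Ioo (-ε) ε × ℝ =>
      (⟨max 0 (min 1 p.2) * (p.1 : ℝ), mul_mem (le_max_left _ _)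
        (max_le zero_le_one (min_le_left _ _)) p.1.2⟩ : Ioo (-ε) ε) :=
    Continuous.subtype_mk (hc.mul (continuous_subtype_val.comp continuous_fst)) _
  have hc3 : Continuous fun p : Ioo (-ε) ε × ℝ => (max 0 (min 1 p.2)) ^ s :=
    hc.rpow_const (fun _ => Or.inr hs.le)
  have hc4 := (continuousOn_iff_continuous_domRestrict.1 hF).comp hc2
  exact hc3.mul hc4

theorem contOn_theta {s : ℝ} (hs : 0 < s) {ε : ℝ} {F : ℝ → ℝ}
    (hF : ContinuousOn F (Ioo (-ε) ε)) {x : ℝ} (hx : x ∈ Ioo (-ε) ε) :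
    ContinuousOn (fun θ : ℝ => θ ^ s * F (θ * x)) (Icc 0 1) := by
  apply ContinuousOn.mul
  · exact (Real.continuous_rpow_const hs.le).continuousOn
  · exact hF.comp (by fun_prop) (fun θ hθ => mul_mem hθ.1 hθ.2 hx)

theorem avg_hasDerivAt {s : ℝ} (hs : 0 < s) {ε : ℝ} {F F' : ℝ → ℝ}
    (hF : ∀ x ∈ Ioo (-ε) ε, HasDerivAt F (F' x) x) (hF' : ContinuousOn F' (Ioo (-ε) ε))
    {x₀ : ℝ} (hx : x₀ ∈ Ioo (-ε) ε) : HasDerivAt (avg s F) (avg (s + 1) F' x₀) x₀ := by
  have hFc : ContinuousOn F (Ioo (-ε) ε) := fun x hx => (hF x hx).continuousAt.continuousWithinAt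
  obtain ⟨r, hr1, hr2⟩ := exists_between (abs_lt.2 hx)
  have hr0 : 0 < r := lt_of_le_of_lt (abs_nonneg _) hr1
  have hsub : Icc (-r) r ⊆ Ioo (-ε) ε := fun y hy => ⟨by linarith [hy.1], by linarith [hy.2]⟩
  obtain ⟨C, hC⟩ := isCompact_Icc.exists_bound_of_continuousOn (hF'.mono hsub)
  have hnb : Ioo (-r) r ∈ 𝓝 x₀ := Ioo_mem_nhds (abs_lt.1 hr1).1 (abs_lt.1 hr1).2
  have hmemr : ∀ θ ∈ Icc (0:ℝ) 1, ∀ x ∈ Ioo (-r) r, θ * x ∈ Icc (-r) r := fun θ hθ x hx =>
    Ioo_subset_Icc_self (mul_mem hθ.1 hθ.2 hx)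
  have h01 : uIoc (0:ℝ) 1 ⊆ Icc 0 1 := by
    rw [uIoc_of_le zero_le_one]; exact Ioc_subset_Icc_self
  have hmeas : ∀ {s' : ℝ} (_ : 0 < s') {G : ℝ → ℝ} (_ : ContinuousOn G (Ioo (-ε) ε)) {x : ℝ}
      (_ : x ∈ Ioo (-ε) ε), AEStronglyMeasurable (fun θ : ℝ => θ ^ s' * G (θ * x))
        (volume.restrict (uIoc (0:ℝ) 1)) := fun hs' G hG x hx =>
    ((contOn_theta hs' hG hx).mono h01).aestronglyMeasurable measurableSet_uIoc
  have main := intervalIntegral.hasDerivAt_integral_of_dominated_loc_of_deriv_le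
    (μ := volume) (a := (0:ℝ)) (b := 1) (F := fun x θ => θ ^ s * F (θ * x))
    (F' := fun x θ => θ ^ (s + 1) * F' (θ * x)) (x₀ := x₀) (s := Ioo (-r) r)
    (bound := fun _ => C) hnb ?_ ?_ ?_ ?_ ?_ ?_
  · exact main.2
  · filter_upwards [hnb] with x hx'
    exact hmeas hs hFc (hsub (Ioo_subset_Icc_self hx'))
  · apply ContinuousOn.intervalIntegrable
    rw [uIcc_of_le zero_le_one]
    exact contOn_theta hs hFc hx
  · exact hmeas (by linarith) hF' hx
  · refine Eventually.of_forall fun θ hθ x hx' => ?_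
    have hθ' := h01 hθ
    rw [norm_mul, Real.norm_of_nonneg (Real.rpow_nonneg hθ'.1 _)]
    have h1 := hC _ (hmemr θ hθ' x hx')
    have h2 : θ ^ (s + 1) ≤ 1 := Real.rpow_le_one hθ'.1 hθ'.2 (by linarith)
    have h3 : 0 ≤ θ ^ (s + 1) := Real.rpow_nonneg hθ'.1 _
    nlinarith [norm_nonneg (F' (θ * x))]
  · exact intervalIntegrable_const
  · refine Eventually.of_forall fun θ hθ x hx' => ?_
    have hθ' := h01 hθ
    have h1 := hF (θ * x) (hsub (hmemr θ hθ' x hx'))
    have h2 : HasDerivAt (fun x : ℝ => θ * x) θ x := by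
      simpa using (hasDerivAt_id x).const_mul θ
    have h3 := (h1.comp x h2).const_mul (θ ^ s)
    have h4 : θ ^ s * (F' (θ * x) * θ) = θ ^ (s + 1) * F' (θ * x) := by
      rcases eq_or_lt_of_le hθ'.1 with h | h
      · rw [← h, Real.zero_rpow hs.ne', Real.zero_rpow (by linarith)]; ring
      · rw [Real.rpow_add h, Real.rpow_one]; ring
    rw [h4] at h3
    exact h3

theorem avg_contDiffOn {ε : ℝ} (n : ℕ) : ∀ {s : ℝ} (_ : 0 < s) {F : ℝ → ℝ}
    (_ : ContDiffOn ℝ n F (Ioo (-ε) ε)), ContDiffOn ℝ n (avg s F) (Ioo (-ε) ε) := by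
  induction n with
  | zero =>
    intro s hs F hF
    simp only [Nat.cast_zero] at *
    rw [contDiffOn_zero] at *
    exact avg_continuousOn hs hF
  | succ n ih =>
    intro s hs F hF
    have hF2 : ContDiffOn ℝ (n + 1) F (Ioo (-ε) ε) := by exact_mod_cast hF
    rw [contDiffOn_succ_iff_deriv_of_isOpen isOpen_Ioo] at hF2
    obtain ⟨hd, -, hd'⟩ := hF2
    have hder : ∀ x ∈ Ioo (-ε) ε, HasDerivAt F (deriv F x) x := fun x hx =>
      (hd.differentiableAt (Ioo_mem_nhds hx.1 hx.2)).hasDerivAt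
    have h1 : ∀ x ∈ Ioo (-ε) ε, HasDerivAt (avg s F) (avg (s + 1) (deriv F) x) x := fun x hx =>
      avg_hasDerivAt hs hder hd'.continuousOn hx
    have goal : ContDiffOn ℝ (n + 1) (avg s F) (Ioo (-ε) ε) := by
      rw [contDiffOn_succ_iff_deriv_of_isOpen isOpen_Ioo]
      refine ⟨fun x hx => (h1 x hx).differentiableAt.differentiableWithinAt, by simp, ?_⟩
      exact (ih (by linarith) hd').congr (fun x hx => (h1 x hx).deriv)
    exact_mod_cast goal

theorem gain_pos {s : ℝ} (hs : 0 < s) {ε : ℝ} {h : ℝ → ℝ} (hh : ContinuousOn h (Ioo (-ε) ε))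
    {x : ℝ} (hx : x ∈ Ioo (-ε) ε) (hx0 : 0 < x) :
    HasDerivAt (fun x => x * avg s h x) (h x - s * avg s h x) x := by
  set G : ℝ → ℝ := fun y => ∫ u in (0:ℝ)..y, u ^ s * h u with hG
  have hB : ∀ y : ℝ, 0 < y → avg s h y = y ^ (-s) * y⁻¹ * G y := by
    intro y hy
    have e1 := intervalIntegral.integral_comp_mul_right (a := (0:ℝ)) (b := 1)
      (fun u => (u / y) ^ s * h u) hy.ne'
    have e2 : avg s h y = ∫ θ in (0:ℝ)..1, (fun u => (u / y) ^ s * h u) (θ * y) := by
      unfold avg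
      apply intervalIntegral.integral_congr
      intro θ hθ
      simp only [mul_div_cancel_right₀ _ hy.ne']
    rw [e2, e1, zero_mul, one_mul, smul_eq_mul]
    have e3 : ∫ u in (0:ℝ)..y, (u / y) ^ s * h u = y ^ (-s) * G y := by
      rw [hG]
      simp only
      rw [← intervalIntegral.integral_const_mul]
      apply intervalIntegral.integral_congr
      intro u hu
      rw [uIcc_of_le hy.le] at hu
      simp only
      rw [Real.div_rpow hu.1 hy.le, Real.rpow_neg hy.le]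
      ring
    rw [e3]; ring
  have hcont : ContinuousOn (fun u : ℝ => u ^ s * h u) (Ioo (-ε) ε) :=
    (Real.continuous_rpow_const hs.le).continuousOn.mul hh
  have hGd : HasDerivAt G (x ^ s * h x) x := by
    apply intervalIntegral.integral_hasDerivAt_right
    · apply ContinuousOn.intervalIntegrable
      rw [uIcc_of_le hx0.le]
      exact hcont.mono (fun u hu => ⟨by linarith [hu.1, hx.2], by linarith [hu.2, hx.2]⟩)
    · exact hcont.stronglyMeasurableAtFilter isOpen_Ioo x hx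
    · exact hcont.continuousAt (Ioo_mem_nhds hx.1 hx.2)
  have hpow : HasDerivAt (fun y : ℝ => y ^ (-s)) (-s * x ^ (-s - 1)) x := by
    exact Real.hasDerivAt_rpow_const (Or.inl hx0.ne')
  have hprod := hpow.mul hGd
  have hev : (fun x => x * avg s h x) =ᶠ[𝓝 x] fun y => y ^ (-s) * G y := by
    filter_upwards [Ioi_mem_nhds hx0] with y hy
    have hy' : (0:ℝ) < y := hy
    rw [hB y hy']
    field_simp
  have e5 : -s * x ^ (-s - 1) * G x + x ^ (-s) * (x ^ s * h x) = h x - s * avg s h x := by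
    rw [hB x hx0, Real.rpow_sub hx0, Real.rpow_one, ← mul_assoc (x ^ (-s)), ← Real.rpow_add hx0]
    simp only [neg_add_cancel, Real.rpow_zero]
    field_simp
    ring
  rw [← e5]
  exact hprod.congr_of_eventuallyEq hev

theorem avg_neg (s : ℝ) (h : ℝ → ℝ) (x : ℝ) : avg s (fun u => h (-u)) (-x) = avg s h x := by
  unfold avg
  simp

theorem gain {s : ℝ} (hs : 0 < s) {ε : ℝ} {h : ℝ → ℝ} (hh : ContinuousOn h (Ioo (-ε) ε))
    {x : ℝ} (hx : x ∈ Ioo (-ε) ε) :
    HasDerivAt (fun x => x * avg s h x) (h x - s * avg s h x) x := by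
  rcases lt_trichotomy x 0 with hx0 | hx0 | hx0
  · have hh' : ContinuousOn (fun u => h (-u)) (Ioo (-ε) ε) :=
      hh.comp (by fun_prop) (fun u hu => ⟨by linarith [hu.2], by linarith [hu.1]⟩)
    have h1 := gain_pos hs hh' (x := -x) ⟨by linarith [hx.2], by linarith [hx.1]⟩ (by linarith)
    have h2 := (h1.comp x (hasDerivAt_neg x)).neg
    rw [avg_neg] at h2
    simp only [neg_neg] at h2
    have e' : -((h x - s * avg s h x) * -1) = h x - s * avg s h x := by ring
    rw [e'] at h2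
    refine h2.congr_of_eventuallyEq (Eventually.of_forall fun y => ?_)
    simp only [Pi.neg_apply, Function.comp_apply, avg_neg]
    ring
  · subst hx0
    have hc : ContinuousAt (avg s h) 0 :=
      (avg_continuousOn hs hh).continuousAt (Ioo_mem_nhds hx.1 hx.2)
    have h0 : avg s h 0 = h 0 / (s + 1) := by
      unfold avg
      simp only [mul_zero]
      rw [intervalIntegral.integral_mul_const, integral_rpow (Or.inl (by linarith))]
      rw [Real.one_rpow, Real.zero_rpow (by linarith)]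
      ring
    have e : h 0 - s * avg s h 0 = avg s h 0 := by
      rw [h0]
      field_simp
      ring
    rw [e]
    rw [hasDerivAt_iff_tendsto_slope]
    have : Tendsto (avg s h) (𝓝[≠] 0) (𝓝 (avg s h 0)) := hc.tendsto.mono_left nhdsWithin_le_nhds
    refine this.congr' ?_
    filter_upwards [self_mem_nhdsWithin] with y hy
    have hy' : y ≠ 0 := hy
    rw [slope_def_field]
    field_simp
    ring
  · exact gain_pos hs hh hx hx0

/-- one more derivative for `x * avg s h`. -/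
theorem gain_contDiffOn {ε : ℝ} (n : ℕ) {s : ℝ} (hs : 0 < s) {h : ℝ → ℝ}
    (hh : ContDiffOn ℝ n h (Ioo (-ε) ε)) :
    ContDiffOn ℝ (n + 1) (fun x => x * avg s h x) (Ioo (-ε) ε) := by
  rw [contDiffOn_succ_iff_deriv_of_isOpen isOpen_Ioo]
  refine ⟨fun x hx => (gain hs hh.continuousOn hx).differentiableAt.differentiableWithinAt,
    by simp, ?_⟩
  refine ContDiffOn.congr ?_ (fun x hx => (gain hs hh.continuousOn hx).deriv)
  exact hh.sub (contDiffOn_const.mul (avg_contDiffOn n hs hh))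

end Crest.Agent.R236.S29
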