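import Crest.Agent.R236.LocD45
import Crest.Agent.R236.Smooth29
import Crest.Agent.R236.Contr87

set_option autoImplicit false
open scoped ContDiff Topology
open Set MeasureTheory Filter

namespace Crest.Agent.R236.B87

theorem mulW {ε : ℝ} {W y' : ℝ → ℝ} (hW : ContinuousOn W (Ioo (-ε) ε))
    (hy : ∀ x ∈ Ioo (-ε) ε, HasDerivAt (fun x => x * W x) (y' x) x) {x : ℝ} (hx : x ∈ Ioo (-ε) ε) :
    HasDerivAt (fun x => (x * W x) * W x) (2 * W x * y' x - W x ^ 2) x := by
  rcases eq_or_ne x 0 with h0 | h0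
  · subst h0
    have hc : ContinuousAt W 0 := hW.continuousAt (Ioo_mem_nhds hx.1 hx.2)
    have e1 : HasDerivAt (fun x => x * W x) (W 0) 0 := by
      rw [hasDerivAt_iff_tendsto_slope]
      have : Tendsto W (𝓝[≠] 0) (𝓝 (W 0)) := hc.tendsto.mono_left nhdsWithin_le_nhds
      refine this.congr' ?_
      filter_upwards [self_mem_nhdsWithin] with y hy
      have hy' : y ≠ 0 := hy
      rw [slope_def_field]
      field_simp
      ring
    have e2 : y' 0 = W 0 := (hy 0 hx).unique e1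
    have e3 : HasDerivAt (fun x => (x * W x) * W x) (W 0 * W 0) 0 := by
      rw [hasDerivAt_iff_tendsto_slope]
      have : Tendsto (fun x => W x * W x) (𝓝[≠] 0) (𝓝 (W 0 * W 0)) :=
        (hc.mul hc).tendsto.mono_left nhdsWithin_le_nhds
      refine this.congr' ?_
      filter_upwards [self_mem_nhdsWithin] with y hy
      have hy' : y ≠ 0 := hy
      rw [slope_def_field]
      field_simp
      ring
    rw [e2]
    refine e3.congr_deriv ?_
    ring
  · have h1 := hy x hx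
    have h2 : HasDerivAt (fun z => (z * W z) * (z * W z) / z)
        (((y' x * (x * W x) + (x * W x) * y' x) * x - (x * W x) * (x * W x) * 1) / x ^ 2) x :=
      (h1.mul h1).div (hasDerivAt_id x) h0
    refine (h2.congr_deriv ?_).congr_of_eventuallyEq ?_
    · field_simp
      ring
    · filter_upwards [isOpen_ne.mem_nhds h0] with z hz
      have hz' : z ≠ 0 := hz
      field_simp

theorem step {ε : ℝ} (hε : 0 < ε) {P W : ℝ → ℝ}
    (h9 : ∀ x ∈ Ioo (-ε) ε, 9 + 2 * x * P x ≠ 0)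
    (h1 : ∀ x ∈ Ioo (-ε) ε, P x = 1 + ∫ s in (0:ℝ)..x, P s * (W s - P s) / 2)
    (h2 : ∀ x ∈ Ioo (-ε) ε, W x = 1 / 2 * ∫ θ in (0:ℝ)..1, θ ^ (9/2:ℝ) * D45.gg P W (θ * x))
    (n : ℕ) (hP : ContDiffOn ℝ n P (Ioo (-ε) ε)) (hW : ContDiffOn ℝ n W (Ioo (-ε) ε)) :
    ContDiffOn ℝ (n + 1) P (Ioo (-ε) ε) ∧ ContDiffOn ℝ (n + 1) W (Ioo (-ε) ε) := by
  have h0 : (0:ℝ) ∈ Ioo (-ε) ε := ⟨by linarith, hε⟩
  have hPd : ∀ x ∈ Ioo (-ε) ε, HasDerivAt P (P x * (W x - P x) / 2) x := by
    intro x hxs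
    have hc : ContinuousOn (fun s => P s * (W s - P s) / 2) (Ioo (-ε) ε) :=
      (hP.continuousOn.mul (hW.continuousOn.sub hP.continuousOn)).div_const 2
    have hd : HasDerivAt (fun x => 1 + ∫ s in (0:ℝ)..x, P s * (W s - P s) / 2)
        (P x * (W x - P x) / 2) x := by
      refine HasDerivAt.const_add 1 ?_
      refine intervalIntegral.integral_hasDerivAt_right ?_ ?_
        (hc.continuousAt (isOpen_Ioo.mem_nhds hxs))
      · apply ContinuousOn.intervalIntegrable
        exact hc.mono (ordConnected_Ioo.uIcc_subset h0 hxs)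
      · exact hc.stronglyMeasurableAtFilter isOpen_Ioo x hxs
    refine hd.congr_of_eventuallyEq ?_
    filter_upwards [isOpen_Ioo.mem_nhds hxs] with y hy using h1 y hy
  have hP1 : ContDiffOn ℝ (n + 1) P (Ioo (-ε) ε) := by
    rw [contDiffOn_succ_iff_deriv_of_isOpen isOpen_Ioo]
    refine ⟨fun x hx => (hPd x hx).differentiableAt.differentiableWithinAt, by simp, ?_⟩
    refine ContDiffOn.congr ?_ (fun x hx => (hPd x hx).deriv)
    exact (hP.mul (hW.sub hP)).div_const 2
  refine ⟨hP1, ?_⟩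
  -- gg is C^n
  have hg : ContDiffOn ℝ n (D45.gg P W) (Ioo (-ε) ε) := by
    unfold D45.gg
    refine (contDiffOn_const.mul hW).add ((contDiffOn_const.add (contDiffOn_id.mul hW)).mul
      (((contDiffOn_const.mul hW).add hP).add (ContDiffOn.div ((contDiffOn_const.mul hP).mul
        (contDiffOn_const.add ((contDiffOn_const.mul contDiffOn_id).mul hW)))
        (contDiffOn_const.add ((contDiffOn_const.mul contDiffOn_id).mul hP)) ?_)))
    exact h9
  have hWe : ∀ x ∈ Ioo (-ε) ε, W x = 1 / 2 * S29.avg (9/2) (D45.gg P W) x := h2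
  -- y = x W is C^(n+1)
  have hy : ContDiffOn ℝ (n + 1) (fun x => x * W x) (Ioo (-ε) ε) := by
    have := S29.gain_contDiffOn n (s := 9/2) (by norm_num) hg
    refine ((contDiffOn_const (c := (1/2:ℝ))).mul this).congr ?_
    intro x hx
    show x * W x = 1 / 2 * (x * S29.avg (9/2) (D45.gg P W) x)
    have := hWe x hx
    rw [← mul_assoc, mul_comm (1/2:ℝ) x, mul_assoc, ← this]
  have hy2 := hy
  rw [contDiffOn_succ_iff_deriv_of_isOpen isOpen_Ioo] at hy2
  have hyd : ∀ x ∈ Ioo (-ε) ε, HasDerivAt (fun x => x * W x) (deriv (fun x => x * W x) x) x :=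
    fun x hx => (hy2.1.differentiableAt (Ioo_mem_nhds hx.1 hx.2)).hasDerivAt
  have hyW : ContDiffOn ℝ (n + 1) (fun x => (x * W x) * W x) (Ioo (-ε) ε) := by
    rw [contDiffOn_succ_iff_deriv_of_isOpen isOpen_Ioo]
    refine ⟨fun x hx => (mulW hW.continuousOn hyd hx).differentiableAt.differentiableWithinAt, by simp, ?_⟩
    refine ContDiffOn.congr ?_ (fun x hx => (mulW hW.continuousOn hyd hx).deriv)
    exact ((contDiffOn_const.mul hW).mul hy2.2.2).sub (hW.pow 2)
  have hg1 : ContDiffOn ℝ (n + 1) (D45.gg P W) (Ioo (-ε) ε) := by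
    have : ContDiffOn ℝ (n + 1) (fun x => (-9) * ((x * W x) * W x) + (1 + x * W x) *
        (P x + (12 * P x) * (1 + 2 * (x * W x)) / (9 + (2 * x) * P x))) (Ioo (-ε) ε) := by
      refine (contDiffOn_const.mul hyW).add ((contDiffOn_const.add hy).mul
        (hP1.add (ContDiffOn.div ((contDiffOn_const.mul hP1).mul
          (contDiffOn_const.add (contDiffOn_const.mul hy)))
          (contDiffOn_const.add ((contDiffOn_const.mul contDiffOn_id).mul hP1)) ?_)))
      exact h9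
    refine this.congr ?_
    intro x hx
    unfold D45.gg
    have := h9 x hx
    field_simp
    ring
  have hg2 : ContDiffOn ℝ ((n + 1 : ℕ)) (D45.gg P W) (Ioo (-ε) ε) := by exact_mod_cast hg1
  have h5 := S29.avg_contDiffOn (n + 1) (s := 9/2) (by norm_num) hg2
  have h6 : ContDiffOn ℝ (n + 1) (S29.avg (9/2) (D45.gg P W)) (Ioo (-ε) ε) := by exact_mod_cast h5
  exact ((contDiffOn_const (c := (1/2:ℝ))).mul h6).congr hWe

theorem local_sol' : ∃ ε : ℝ, 0 < ε ∧ ∃ P W : ℝ → ℝ,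
    ContDiffOn ℝ ∞ P (Ioo (-ε) ε) ∧ ContDiffOn ℝ ∞ W (Ioo (-ε) ε) ∧
    (∀ x ∈ Ioo (-ε) ε, SysAt P W x) ∧
    (∀ x ∈ Ioo 0 ε, x * P x < 9 / 2 ∧ W x < 5 / 9 * P x) := by
  obtain ⟨ε, hε, P, W, hP, hW, h9, h1, h2⟩ := C87.exists_cont_sol
  have hall : ∀ n : ℕ, ContDiffOn ℝ n P (Ioo (-ε) ε) ∧ ContDiffOn ℝ n W (Ioo (-ε) ε) := by
    intro n
    induction n with
    | zero =>
      simp only [Nat.cast_zero]
      rw [contDiffOn_zero, contDiffOn_zero]
      exact ⟨hP.continuousOn, hW.continuousOn⟩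
    | succ n ih =>
      have := step hε h9 h1 h2 n ih.1 ih.2
      exact_mod_cast this
  exact D45.assemble ε hε P W (contDiffOn_infty.2 fun n => (hall n).1)
    (contDiffOn_infty.2 fun n => (hall n).2) h1 h2

end Crest.Agent.R236.B87
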