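import Crest.Agent.R236.Skel

-- det_blk', trace_blk', blk_posDef' (helper85)
set_option autoImplicit false
open Set
namespace Crest.Agent.R236

/-- y extended by 0 -/
def yv (z : EuclideanSpace ℝ (Fin 10)) : Fin 10 → ℝ := fun i => if i = 9 then 0 else z i

theorem yv_sq (z : EuclideanSpace ℝ (Fin 10)) : ∑ i, yv z i * yv z i = xx z := by
  unfold yv xx
  rw [Fin.sum_univ_castSucc]
  have h9 : (Fin.last 9 : Fin 10) = 9 := rfl
  simp only [h9, if_true, mul_zero, add_zero]
  refine Finset.sum_congr rfl fun i _ => ?_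
  have : (Fin.castSucc i : Fin 10) ≠ 9 := by
    intro h; have := congrArg Fin.val h; simp at this; omega
  simp [this, sq]

/-- the two columns -/
def Um (z : EuclideanSpace ℝ (Fin 10)) : Matrix (Fin 10) (Fin 2) ℝ :=
  fun i k => if k = 0 then yv z i else (if i = 9 then 1 else 0)

def Vm (z : EuclideanSpace ℝ (Fin 10)) (α β γ δ : ℝ) : Matrix (Fin 2) (Fin 10) ℝ :=
  fun k j => if k = 0 then β * yv z j + γ * (if j = 9 then 1 else 0)
    else γ * yv z j + (δ - α) * (if j = 9 then 1 else 0)

theorem blk_eq (z : EuclideanSpace ℝ (Fin 10)) (α β γ δ : ℝ) :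
    blk z α β γ δ = α • (1 : Matrix (Fin 10) (Fin 10) ℝ) + Um z * Vm z α β γ δ := by
  ext i j
  simp only [Matrix.add_apply, Matrix.smul_apply, Matrix.mul_apply, Fin.sum_univ_two, Um, Vm, blk,
    yv, Matrix.one_apply, smul_eq_mul]
  by_cases hi : i = 9 <;> by_cases hj : j = 9
  · subst hi; subst hj; simp
  · subst hi; simp [hj, Ne.symm hj]
  · subst hj; simp [hi]; ring
  · simp [hi, hj]; ring

theorem VU (z : EuclideanSpace ℝ (Fin 10)) (α β γ δ : ℝ) :
    Vm z α β γ δ * Um z = !![β * xx z, γ; γ * xx z, δ - α] := by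
  have h1 := yv_sq z
  have h2 : ∑ i : Fin 10, yv z i * (if i = 9 then (1:ℝ) else 0) = 0 := by
    simp [yv]
  have h3 : ∑ i : Fin 10, (if i = 9 then (1:ℝ) else 0) * (if i = 9 then (1:ℝ) else 0) = 1 := by
    simp
  ext k l
  simp only [Matrix.mul_apply, Um, Vm]
  fin_cases k <;> fin_cases l <;> simp only [Fin.zero_eta, Fin.mk_one, if_true, one_ne_zero, if_false, Fin.isValue,
    Matrix.of_apply, Matrix.cons_val', Matrix.cons_val_zero, Matrix.cons_val_one]
  · calc ∑ j, (β * yv z j + γ * (if j = 9 then 1 else 0)) * yv z j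
        = β * ∑ j, yv z j * yv z j + γ * ∑ j, yv z j * (if j = 9 then (1:ℝ) else 0) := by
          rw [Finset.mul_sum, Finset.mul_sum, ← Finset.sum_add_distrib]
          exact Finset.sum_congr rfl fun _ _ => by ring
      _ = _ := by rw [h1, h2]; ring
  · calc ∑ j, (β * yv z j + γ * (if j = 9 then 1 else 0)) * (if j = 9 then (1:ℝ) else 0)
        = β * ∑ j, yv z j * (if j = 9 then (1:ℝ) else 0) + γ * ∑ j : Fin 10, (if j = 9 then (1:ℝ) else 0) * (if j = 9 then (1:ℝ) else 0) := by
          rw [Finset.mul_sum, Finset.mul_sum, ← Finset.sum_add_distrib]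
          exact Finset.sum_congr rfl fun _ _ => by ring
      _ = _ := by rw [h2, h3]; ring
  · calc ∑ j, (γ * yv z j + (δ - α) * (if j = 9 then 1 else 0)) * yv z j
        = γ * ∑ j, yv z j * yv z j + (δ - α) * ∑ j, yv z j * (if j = 9 then (1:ℝ) else 0) := by
          rw [Finset.mul_sum, Finset.mul_sum, ← Finset.sum_add_distrib]
          exact Finset.sum_congr rfl fun _ _ => by ring
      _ = _ := by rw [h1, h2]; ring
  · calc ∑ j, (γ * yv z j + (δ - α) * (if j = 9 then 1 else 0)) * (if j = 9 then (1:ℝ) else 0)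
        = γ * ∑ j, yv z j * (if j = 9 then (1:ℝ) else 0) + (δ - α) * ∑ j : Fin 10, (if j = 9 then (1:ℝ) else 0) * (if j = 9 then (1:ℝ) else 0) := by
          rw [Finset.mul_sum, Finset.mul_sum, ← Finset.sum_add_distrib]
          exact Finset.sum_congr rfl fun _ _ => by ring
      _ = _ := by rw [h2, h3]; ring

theorem det_blk_ne (z : EuclideanSpace ℝ (Fin 10)) (α β γ δ : ℝ) (hα : α ≠ 0) :
    (blk z α β γ δ).det = α ^ 8 * ((α + β * xx z) * δ - γ ^ 2 * xx z) := by
  have h : blk z α β γ δ = α • ((1 : Matrix (Fin 10) (Fin 10) ℝ) + (α⁻¹ • Um z) * Vm z α β γ δ) := by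
    rw [blk_eq, smul_add, Matrix.smul_mul, smul_smul, mul_inv_cancel₀ hα, one_smul]
  rw [h, Matrix.det_smul, Matrix.det_one_add_mul_comm, Matrix.mul_smul, VU, Fintype.card_fin,
    Matrix.det_fin_two]
  simp
  field_simp
  ring

theorem blk_cont (z : EuclideanSpace ℝ (Fin 10)) (β γ δ : ℝ) :
    Continuous fun α : ℝ => (blk z α β γ δ).det := by
  apply Continuous.matrix_det
  refine continuous_matrix fun i j => ?_
  unfold blk
  split_ifs <;> fun_prop

theorem det_blk' (z : EuclideanSpace ℝ (Fin 10)) (α β γ δ : ℝ) :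
    (blk z α β γ δ).det = α ^ 8 * ((α + β * xx z) * δ - γ ^ 2 * xx z) := by
  have h2 : Continuous fun α : ℝ => α ^ 8 * ((α + β * xx z) * δ - γ ^ 2 * xx z) := by fun_prop
  have := Continuous.ext_on (dense_compl_singleton (0:ℝ)) (blk_cont z β γ δ) h2
    (fun a ha => det_blk_ne z a β γ δ ha)
  exact congrFun this α

theorem blk_add (z : EuclideanSpace ℝ (Fin 10)) (α β γ δ α' β' γ' δ' r : ℝ) :
    blk z α β γ δ + r • blk z α' β' γ' δ' = blk z (α + r * α') (β + r * β') (γ + r * γ') (δ + r * δ') := by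
  ext i j
  simp only [Matrix.add_apply, Matrix.smul_apply, blk, smul_eq_mul]
  split_ifs <;> ring

theorem blk_symm (z : EuclideanSpace ℝ (Fin 10)) (α β γ δ : ℝ) (i j : Fin 10) :
    blk z α β γ δ i j = blk z α β γ δ j i := by
  unfold blk
  by_cases hi : i = 9 <;> by_cases hj : j = 9 <;> simp [hi, hj, eq_comm (a := i) (b := j)]
  ring

theorem trace_blk' (z : EuclideanSpace ℝ (Fin 10)) (α β γ δ α' β' γ' δ' : ℝ)
    (h : (blk z α β γ δ).det ≠ 0) :
    ∑ i, ∑ j, (blk z α β γ δ).det * (blk z α β γ δ)⁻¹ i j * blk z α' β' γ' δ' i j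
      = α ^ 7 * (8 * α' * ((α + β * xx z) * δ - γ ^ 2 * xx z)
          + α * ((α' + β' * xx z) * δ + (α + β * xx z) * δ' - 2 * γ * γ' * xx z)) := by
  set A := blk z α β γ δ with hA
  set B := blk z α' β' γ' δ' with hB
  have hu : IsUnit A.det := isUnit_iff_ne_zero.mpr h
  have h1 : ∑ i, ∑ j, A.det * A⁻¹ i j * B i j = A.det * (A⁻¹ * B).trace := by
    rw [Matrix.trace, Finset.mul_sum]
    refine Finset.sum_congr rfl fun i _ => ?_
    rw [Matrix.diag_apply, Matrix.mul_apply, Finset.mul_sum]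
    refine Finset.sum_congr rfl fun j _ => ?_
    rw [hB, blk_symm z α' β' γ' δ' i j]; ring
  rw [h1]
  have h2 : ∀ r : ℝ, (A + r • B).det = A.det * (1 + r • (A⁻¹ * B)).det := by
    intro r
    rw [← Matrix.det_mul, Matrix.mul_add, Matrix.mul_one, Matrix.mul_smul, ← Matrix.mul_assoc,
      Matrix.mul_nonsing_inv A hu, Matrix.one_mul]
  have h3 : ∀ r : ℝ, A.det * (1 + (A⁻¹ * B).trace * r +
      (Matrix.det (1 + (Polynomial.X : Polynomial ℝ) • (A⁻¹ * B).map Polynomial.C)).divX.divX.eval r * r ^ 2)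
      = (α + r * α') ^ 8 * (((α + r * α') + (β + r * β') * xx z) * (δ + r * δ') - (γ + r * γ') ^ 2 * xx z) := by
    intro r
    rw [← Matrix.det_one_add_smul, ← h2, hA, hB, blk_add, det_blk']
  set q := (Matrix.det (1 + (Polynomial.X : Polynomial ℝ) • (A⁻¹ * B).map Polynomial.C)).divX.divX with hq
  have d1 : HasDerivAt (fun r : ℝ => A.det * (1 + (A⁻¹ * B).trace * r + q.eval r * r ^ 2))
      (A.det * (A⁻¹ * B).trace) 0 := by
    have e1 : HasDerivAt (fun r : ℝ => (A⁻¹ * B).trace * r) ((A⁻¹ * B).trace) 0 := by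
      simpa using (hasDerivAt_id (0:ℝ)).const_mul ((A⁻¹ * B).trace)
    have e2 : HasDerivAt (fun r : ℝ => q.eval r * r ^ 2) 0 0 := by
      have := (q.hasDerivAt 0).mul (hasDerivAt_pow 2 (0:ℝ))
      exact this.congr_deriv (by simp)
    have := ((e1.const_add 1).add e2).const_mul A.det
    simpa using this
  have d2 : HasDerivAt (fun r : ℝ => (α + r * α') ^ 8 * (((α + r * α') + (β + r * β') * xx z) * (δ + r * δ') - (γ + r * γ') ^ 2 * xx z))
      (α ^ 7 * (8 * α' * ((α + β * xx z) * δ - γ ^ 2 * xx z)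
          + α * ((α' + β' * xx z) * δ + (α + β * xx z) * δ' - 2 * γ * γ' * xx z))) 0 := by
    have l : ∀ a b : ℝ, HasDerivAt (fun r : ℝ => a + r * b) b 0 := by
      intro a b
      simpa using ((hasDerivAt_id (0:ℝ)).mul_const b).const_add a
    have := ((l α α').pow 8).mul ((((l α α').add ((l β β').mul_const (xx z))).mul (l δ δ')).sub
      (((l γ γ').pow 2).mul_const (xx z)))
    exact this.congr_deriv (by simp; ring)
  have d3 : (fun r : ℝ => A.det * (1 + (A⁻¹ * B).trace * r + q.eval r * r ^ 2)) =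
      (fun r : ℝ => (α + r * α') ^ 8 * (((α + r * α') + (β + r * β') * xx z) * (δ + r * δ') - (γ + r * γ') ^ 2 * xx z)) :=
    funext h3
  rw [d3] at d1
  exact d1.unique d2

theorem blk_posDef' (z : EuclideanSpace ℝ (Fin 10)) (α β γ δ : ℝ) (hα : 0 < α) (hδ : 0 < δ)
    (h : 0 < (α + β * xx z) * δ - γ ^ 2 * xx z) : (blk z α β γ δ).PosDef := by
  apply Matrix.PosDef.of_dotProduct_mulVec_pos
  · ext i j
    simp only [Matrix.conjTranspose_apply, star_trivial]
    exact blk_symm z α β γ δ j i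
  · intro x hx
    -- split x
    set P : ℝ := ∑ i : Fin 9, x (Fin.castSucc i) ^ 2 with hP
    set Q : ℝ := ∑ i : Fin 9, z (Fin.castSucc i) * x (Fin.castSucc i) with hQ
    have hQ2 : Q ^ 2 ≤ xx z * P := by
      have := Finset.sum_mul_sq_le_sq_mul_sq (Finset.univ : Finset (Fin 9))
        (fun i => z (Fin.castSucc i)) (fun i => x (Fin.castSucc i))
      simpa [hQ, hP, xx] using this
    have hP0 : 0 ≤ P := Finset.sum_nonneg fun i _ => sq_nonneg _
    have key : star x ⬝ᵥ (blk z α β γ δ).mulVec x = α * P + β * Q ^ 2 + 2 * γ * Q * x 9 + δ * x 9 ^ 2 := by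
      have e9 : (Fin.last 9 : Fin 10) = 9 := rfl
      have hc : ∀ i : Fin 9, (Fin.castSucc i : Fin 10) ≠ 9 := by
        intro i h; have := congrArg Fin.val h; simp at this; omega
      have row : ∀ i : Fin 9, (blk z α β γ δ).mulVec x (Fin.castSucc i) =
          α * x (Fin.castSucc i) + β * z (Fin.castSucc i) * Q + γ * z (Fin.castSucc i) * x 9 := by
        intro i
        rw [Matrix.mulVec, dotProduct, Fin.sum_univ_castSucc, e9]
        have a1 : blk z α β γ δ (Fin.castSucc i) 9 = γ * z (Fin.castSucc i) := by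
          simp [blk, hc i]
        have a2 : ∀ j : Fin 9, blk z α β γ δ (Fin.castSucc i) (Fin.castSucc j) =
            (if i = j then α else 0) + β * z (Fin.castSucc i) * z (Fin.castSucc j) := by
          intro j; simp [blk, hc i, hc j]
        rw [a1]
        congr 1
        calc ∑ j : Fin 9, blk z α β γ δ (Fin.castSucc i) (Fin.castSucc j) * x (Fin.castSucc j)
            = ∑ j : Fin 9, ((if i = j then α * x (Fin.castSucc j) else 0) +
                β * z (Fin.castSucc i) * (z (Fin.castSucc j) * x (Fin.castSucc j))) := by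
              refine Finset.sum_congr rfl fun j _ => ?_
              rw [a2]; split_ifs <;> ring
          _ = _ := by
              rw [Finset.sum_add_distrib, ← Finset.mul_sum]
              simp [hQ]
      have row9 : (blk z α β γ δ).mulVec x 9 = γ * Q + δ * x 9 := by
        rw [Matrix.mulVec, dotProduct, Fin.sum_univ_castSucc, e9]
        have a1 : blk z α β γ δ 9 9 = δ := by simp [blk]
        have a2 : ∀ j : Fin 9, blk z α β γ δ 9 (Fin.castSucc j) = γ * z (Fin.castSucc j) := by
          intro j; simp [blk, hc j]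
        rw [a1]
        congr 1
        rw [hQ, Finset.mul_sum]
        refine Finset.sum_congr rfl fun j _ => ?_
        rw [a2]; ring
      rw [dotProduct, Fin.sum_univ_castSucc, e9, row9]
      simp only [row, Pi.star_apply, star_trivial]
      have : ∑ i : Fin 9, x (Fin.castSucc i) * (α * x (Fin.castSucc i) + β * z (Fin.castSucc i) * Q + γ * z (Fin.castSucc i) * x 9)
          = α * P + β * Q * Q + γ * x 9 * Q := by
        conv_rhs => rw [hP]
        calc _ = ∑ i : Fin 9, (α * x (Fin.castSucc i) ^ 2 + (β * Q + γ * x 9) * (z (Fin.castSucc i) * x (Fin.castSucc i))) :=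
              Finset.sum_congr rfl fun _ _ => by ring
          _ = _ := by
              rw [Finset.sum_add_distrib, ← Finset.mul_sum, ← Finset.mul_sum, ← hQ]; ring
      rw [this]; ring
    rw [key]
    have hne : 0 < P ∨ (P = 0 ∧ x 9 ≠ 0) := by
      rcases hP0.lt_or_eq with h0 | h0
      · exact Or.inl h0
      · right
        refine ⟨h0.symm, fun h9 => hx ?_⟩
        have hz : ∀ i : Fin 9, x (Fin.castSucc i) = 0 := by
          intro i
          have := (Finset.sum_eq_zero_iff_of_nonneg (fun i _ => sq_nonneg (x (Fin.castSucc i)))).1 h0.symm i (Finset.mem_univ _)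
          exact pow_eq_zero_iff (two_ne_zero) |>.1 this
        funext i
        refine Fin.lastCases ?_ (fun i => ?_) i
        · exact h9
        · exact hz i
    -- multiply by δ
    have hmul : δ * (α * P + β * Q ^ 2 + 2 * γ * Q * x 9 + δ * x 9 ^ 2) =
        (δ * x 9 + γ * Q) ^ 2 + (α * δ * P + (β * δ - γ ^ 2) * Q ^ 2) := by ring
    have hpos : 0 < δ * (α * P + β * Q ^ 2 + 2 * γ * Q * x 9 + δ * x 9 ^ 2) := by
      rw [hmul]
      rcases hne with h0 | ⟨h0, h9⟩
      · have : 0 < α * δ * P + (β * δ - γ ^ 2) * Q ^ 2 := by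
          rcases le_or_gt 0 (β * δ - γ ^ 2) with hk | hk
          · have : 0 < α * δ * P := by positivity
            nlinarith [mul_nonneg hk (sq_nonneg Q)]
          · have e1 : (β * δ - γ ^ 2) * Q ^ 2 ≥ (β * δ - γ ^ 2) * (xx z * P) :=
              mul_le_mul_of_nonpos_left hQ2 hk.le
            have e2 : 0 < ((α + β * xx z) * δ - γ ^ 2 * xx z) * P := mul_pos h h0
            nlinarith
        nlinarith [sq_nonneg (δ * x 9 + γ * Q)]
      · have hQ0 : Q = 0 := by
          have : Q ^ 2 ≤ 0 := by rw [h0, mul_zero] at hQ2; exact hQ2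
          exact pow_eq_zero_iff (two_ne_zero) |>.1 (le_antisymm this (sq_nonneg _))
        rw [hQ0, h0]
        have : 0 < (δ * x 9) ^ 2 := by positivity
        nlinarith
    exact (mul_pos_iff_of_pos_left hδ).1 hpos

end Crest.Agent.R236
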