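import Crest.Agent.R236.Skel

set_option autoImplicit false
open Set

namespace Crest.Agent.R236

def yy63 (z : EuclideanSpace ℝ (Fin 10)) : Fin 9 → ℝ := fun i => z (Fin.castSucc i)

theorem det_rank1_ne {α : ℝ} (hα : α ≠ 0) (b : ℝ) (y : Fin 9 → ℝ) :
    (α • (1 : Matrix (Fin 9) (Fin 9) ℝ) + b • Matrix.vecMulVec y y).det =
      α ^ 8 * (α + b * ∑ i, y i ^ 2) := by
  have e : α • (1 : Matrix (Fin 9) (Fin 9) ℝ) + b • Matrix.vecMulVec y y =
      α • (1 + Matrix.replicateCol Unit ((b / α) • y) * Matrix.replicateRow Unit y) := by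
    ext i j
    simp [Matrix.vecMulVec_apply, Matrix.mul_apply]
    field_simp
  rw [e, Matrix.det_smul, Matrix.det_one_add_replicateCol_mul_replicateRow]
  have e2 : y ⬝ᵥ (b / α) • y = b / α * ∑ i, y i ^ 2 := by
    simp only [dotProduct, Pi.smul_apply, smul_eq_mul, Finset.mul_sum]
    refine Finset.sum_congr rfl fun i _ => ?_
    ring
  rw [e2]
  simp only [Fintype.card_fin]
  field_simp

theorem det_rank1 (α b : ℝ) (y : Fin 9 → ℝ) :
    (α • (1 : Matrix (Fin 9) (Fin 9) ℝ) + b • Matrix.vecMulVec y y).det =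
      α ^ 8 * (α + b * ∑ i, y i ^ 2) := by
  have h := Continuous.ext_on (dense_compl_singleton (0 : ℝ))
    (f := fun α : ℝ => (α • (1 : Matrix (Fin 9) (Fin 9) ℝ) + b • Matrix.vecMulVec y y).det)
    (g := fun α : ℝ => α ^ 8 * (α + b * ∑ i, y i ^ 2))
    (by fun_prop) (by fun_prop) (fun α hα => det_rank1_ne (by simpa using hα) b y)
  exact congrFun h α

theorem blk_sub63 (z : EuclideanSpace ℝ (Fin 10)) (α β γ δ : ℝ) :
    (blk z α β γ δ).submatrix (finSumFinEquiv (m := 9) (n := 1)) (finSumFinEquiv (m := 9) (n := 1)) =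
      Matrix.fromBlocks (α • (1 : Matrix (Fin 9) (Fin 9) ℝ) + β • Matrix.vecMulVec (yy63 z) (yy63 z))
        (Matrix.of fun i _ => γ * yy63 z i) (Matrix.of fun _ j => γ * yy63 z j)
        (δ • (1 : Matrix (Fin 1) (Fin 1) ℝ)) := by
  have hl : ∀ i : Fin 9, (Fin.castSucc i : Fin 10) = 9 ↔ False := by decide
  have hr : ∀ i : Fin 1, (Fin.natAdd 9 i : Fin 10) = 9 := by decide
  have hc : ∀ i : Fin 9, (Fin.castAdd 1 i : Fin 10) = Fin.castSucc i := fun i => rfl
  ext i j
  rcases i with i | i <;> rcases j with j | j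
  · simp only [Matrix.submatrix_apply, finSumFinEquiv_apply_left, Matrix.fromBlocks_apply₁₁,
      Matrix.add_apply, Matrix.smul_apply, Matrix.vecMulVec_apply, smul_eq_mul, blk, hl, false_and,
      and_false, if_false, yy63, hc, Fin.castSucc_inj, Matrix.one_apply]
    split_ifs <;> ring
  · simp only [Matrix.submatrix_apply, finSumFinEquiv_apply_left, finSumFinEquiv_apply_right,
      Matrix.fromBlocks_apply₁₂, blk, hl, hr, false_and, and_true, if_false, if_true, yy63, hc,
      Matrix.of_apply]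
  · simp only [Matrix.submatrix_apply, finSumFinEquiv_apply_left, finSumFinEquiv_apply_right,
      Matrix.fromBlocks_apply₂₁, blk, hl, hr, and_false, if_false, if_true, yy63, hc,
      Matrix.of_apply]
  · have : i = j := Subsingleton.elim _ _
    subst this
    simp only [Matrix.submatrix_apply, finSumFinEquiv_apply_right, Matrix.fromBlocks_apply₂₂, blk, hr,
      Matrix.smul_apply, Matrix.one_apply_eq, smul_eq_mul, mul_one, and_self, if_true]

theorem det_blk_ne (z : EuclideanSpace ℝ (Fin 10)) (α β γ : ℝ) {δ : ℝ} (hδ : δ ≠ 0) :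
    (blk z α β γ δ).det = α ^ 8 * ((α + β * xx z) * δ - γ ^ 2 * xx z) := by
  rw [← Matrix.det_submatrix_equiv_self (finSumFinEquiv (m := 9) (n := 1)), blk_sub63]
  have hu : IsUnit (δ • (1 : Matrix (Fin 1) (Fin 1) ℝ)) := by
    rw [Matrix.isUnit_iff_isUnit_det]
    simp [hδ]
  haveI := hu.invertible
  rw [Matrix.det_fromBlocks₂₂]
  have e : α • (1 : Matrix (Fin 9) (Fin 9) ℝ) + β • Matrix.vecMulVec (yy63 z) (yy63 z) -
      (Matrix.of fun i (_ : Fin 1) => γ * yy63 z i) * ⅟(δ • (1 : Matrix (Fin 1) (Fin 1) ℝ)) *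
        (Matrix.of fun (_ : Fin 1) j => γ * yy63 z j) =
      α • (1 : Matrix (Fin 9) (Fin 9) ℝ) + (β - γ ^ 2 / δ) • Matrix.vecMulVec (yy63 z) (yy63 z) := by
    have e1 : ⅟(δ • (1 : Matrix (Fin 1) (Fin 1) ℝ)) = δ⁻¹ • (1 : Matrix (Fin 1) (Fin 1) ℝ) := by
      apply invOf_eq_right_inv
      rw [smul_mul_smul_comm, mul_inv_cancel₀ hδ]
      simp
    rw [e1]
    ext i j
    simp [Matrix.mul_apply, Matrix.vecMulVec_apply]
    field_simp
    ring
  rw [e, det_rank1]
  have e3 : (∑ i, yy63 z i ^ 2) = xx z := rfl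
  rw [e3]
  simp
  field_simp
  ring

theorem continuous_blk (z : EuclideanSpace ℝ (Fin 10)) (α β γ : ℝ) :
    Continuous fun δ : ℝ => blk z α β γ δ := by
  refine continuous_matrix fun i j => ?_
  unfold blk
  split_ifs <;> fun_prop

theorem det_blk' (z : EuclideanSpace ℝ (Fin 10)) (α β γ δ : ℝ) :
    (blk z α β γ δ).det = α ^ 8 * ((α + β * xx z) * δ - γ ^ 2 * xx z) := by
  have h := Continuous.ext_on (dense_compl_singleton (0 : ℝ))
    (f := fun δ : ℝ => (blk z α β γ δ).det)
    (g := fun δ : ℝ => α ^ 8 * ((α + β * xx z) * δ - γ ^ 2 * xx z))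
    (continuous_blk z α β γ).matrix_det (by fun_prop)
    (fun δ hδ => det_blk_ne z α β γ (by simpa using hδ))
  exact congrFun h δ

theorem blk_add63 (z : EuclideanSpace ℝ (Fin 10)) (α β γ δ α' β' γ' δ' s : ℝ) :
    blk z α β γ δ + s • blk z α' β' γ' δ' =
      blk z (α + s * α') (β + s * β') (γ + s * γ') (δ + s * δ') := by
  ext i j
  simp only [Matrix.add_apply, Matrix.smul_apply, smul_eq_mul, blk]
  split_ifs <;> ring

theorem blk_symm63 (z : EuclideanSpace ℝ (Fin 10)) (α β γ δ : ℝ) (i j : Fin 10) :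
    blk z α β γ δ i j = blk z α β γ δ j i := by
  simp only [blk]
  by_cases hi : i = 9
  · by_cases hj : j = 9
    · rw [hi, hj]
    · simp [hi, hj]
  · by_cases hj : j = 9
    · simp [hi, hj]
    · simp only [hi, hj, false_and, if_false]
      rcases eq_or_ne i j with h | h
      · rw [h]
      · rw [if_neg h, if_neg (Ne.symm h)]; ring

theorem trace_blk' (z : EuclideanSpace ℝ (Fin 10)) (α β γ δ α' β' γ' δ' : ℝ)
    (h : (blk z α β γ δ).det ≠ 0) :
    ∑ i, ∑ j, (blk z α β γ δ).det * (blk z α β γ δ)⁻¹ i j * blk z α' β' γ' δ' i j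
      = α ^ 7 * (8 * α' * ((α + β * xx z) * δ - γ ^ 2 * xx z)
          + α * ((α' + β' * xx z) * δ + (α + β * xx z) * δ' - 2 * γ * γ' * xx z)) := by
  set M := blk z α β γ δ with hM
  set N := blk z α' β' γ' δ' with hN
  have hu : IsUnit M.det := isUnit_iff_ne_zero.2 h
  have e1 : ∑ i, ∑ j, M.det * M⁻¹ i j * N i j = M.det * (M⁻¹ * N).trace := by
    rw [Matrix.trace, Finset.mul_sum]
    refine Finset.sum_congr rfl fun i _ => ?_
    rw [Matrix.diag_apply, Matrix.mul_apply, Finset.mul_sum]
    refine Finset.sum_congr rfl fun j _ => ?_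
    rw [hN, blk_symm63 z α' β' γ' δ' i j]
    ring
  rw [e1]
  have e2 : ∀ s : ℝ, (M + s • N).det = M.det * (1 + s • (M⁻¹ * N)).det := by
    intro s
    rw [← Matrix.det_mul, mul_add, mul_one, Matrix.mul_smul, ← mul_assoc, Matrix.mul_nonsing_inv M hu,
      one_mul]
  have e3 : ∀ s : ℝ, (M + s • N).det = (α + s * α') ^ 8 * ((α + s * α' + (β + s * β') * xx z) *
      (δ + s * δ') - (γ + s * γ') ^ 2 * xx z) := by
    intro s
    rw [hM, hN, blk_add63, det_blk']
  have d1 : HasDerivAt (fun s : ℝ => (M + s • N).det) (M.det * (M⁻¹ * N).trace) 0 := by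
    have e4 : (fun s : ℝ => (M + s • N).det) = fun s : ℝ => M.det * (1 + (M⁻¹ * N).trace * s +
        (Polynomial.eval s ((1 + (Polynomial.X : Polynomial ℝ) • (M⁻¹ * N).map Polynomial.C).det.divX.divX))
          * s ^ 2) := by
      funext s
      rw [e2 s, Matrix.det_one_add_smul]
    rw [e4]
    have h1 := (Polynomial.hasDerivAt
      ((1 + (Polynomial.X : Polynomial ℝ) • (M⁻¹ * N).map Polynomial.C).det.divX.divX) (0 : ℝ))
    have h2 := (((hasDerivAt_id (0 : ℝ)).const_mul ((M⁻¹ * N).trace)).const_add 1).add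
      (h1.mul ((hasDerivAt_id (0 : ℝ)).pow 2))
    have h3 := h2.const_mul M.det
    refine h3.congr_deriv ?_
    simp
  have d2 : HasDerivAt (fun s : ℝ => (M + s • N).det)
      (α ^ 7 * (8 * α' * ((α + β * xx z) * δ - γ ^ 2 * xx z)
          + α * ((α' + β' * xx z) * δ + (α + β * xx z) * δ' - 2 * γ * γ' * xx z))) 0 := by
    have e4 : (fun s : ℝ => (M + s • N).det) = fun s : ℝ => (α + s * α') ^ 8 *
      ((α + s * α' + (β + s * β') * xx z) * (δ + s * δ') - (γ + s * γ') ^ 2 * xx z) := funext e3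
    rw [e4]
    have a1 : ∀ c c' : ℝ, HasDerivAt (fun s : ℝ => c + s * c') c' 0 := by
      intro c c'
      simpa using ((hasDerivAt_id (0 : ℝ)).mul_const c').const_add c
    have h3 := ((a1 α α').pow 8).mul ((((a1 α α').add ((a1 β β').mul_const (xx z))).mul (a1 δ δ')).sub
      (((a1 γ γ').pow 2).mul_const (xx z)))
    refine h3.congr_deriv ?_
    simp
    ring
  exact d1.unique d2

theorem blk_posDef' (z : EuclideanSpace ℝ (Fin 10)) (α β γ δ : ℝ) (hα : 0 < α) (hδ : 0 < δ)
    (h : 0 < (α + β * xx z) * δ - γ ^ 2 * xx z) : (blk z α β γ δ).PosDef := by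
  refine Matrix.PosDef.of_dotProduct_mulVec_pos ?_ ?_
  · ext i j
    rw [Matrix.conjTranspose_apply, star_trivial]
    exact blk_symm63 z α β γ δ j i
  · intro v hv
    set m : ℝ := ∑ i : Fin 9, z (Fin.castSucc i) * v (Fin.castSucc i) with hm
    set q : ℝ := ∑ i : Fin 9, v (Fin.castSucc i) ^ 2 with hq
    have hl : ∀ i : Fin 9, (Fin.castSucc i : Fin 10) = 9 ↔ False := by decide
    have hlast : (Fin.last 9 : Fin 10) = 9 := rfl
    have e1 : star v ⬝ᵥ (blk z α β γ δ).mulVec v =
        α * q + β * m ^ 2 + 2 * γ * m * v 9 + δ * v 9 ^ 2 := by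
      have f1 : ∀ i : Fin 9, (blk z α β γ δ).mulVec v (Fin.castSucc i) =
          α * v (Fin.castSucc i) + β * z (Fin.castSucc i) * m + γ * z (Fin.castSucc i) * v 9 := by
        intro i
        rw [Matrix.mulVec, dotProduct, Fin.sum_univ_castSucc]
        simp only [blk, hl, hlast, false_and, and_true, if_false, if_true, Fin.castSucc_inj]
        have g1 : ∀ j : Fin 9, ((if i = j then α else 0) + β * z (Fin.castSucc i) * z (Fin.castSucc j)) *
            v (Fin.castSucc j) = (if i = j then α * v (Fin.castSucc j) else 0) +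
              β * z (Fin.castSucc i) * (z (Fin.castSucc j) * v (Fin.castSucc j)) := by
          intro j
          split_ifs <;> ring
        simp only [g1, Finset.sum_add_distrib, ← Finset.mul_sum, Finset.sum_ite_eq, Finset.mem_univ,
          if_true, ← hm]
      have f2 : (blk z α β γ δ).mulVec v 9 = γ * m + δ * v 9 := by
        rw [Matrix.mulVec, dotProduct, Fin.sum_univ_castSucc]
        simp only [blk, hl, hlast, and_false, true_and, if_false, if_true, and_self]
        simp only [mul_assoc, ← Finset.mul_sum, ← hm]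
      rw [dotProduct, Fin.sum_univ_castSucc]
      simp only [Pi.star_apply, star_trivial, hlast, f1, f2]
      have g2 : ∀ i : Fin 9, v (Fin.castSucc i) * (α * v (Fin.castSucc i) + β * z (Fin.castSucc i) * m +
          γ * z (Fin.castSucc i) * v 9) = α * v (Fin.castSucc i) ^ 2 +
            (β * m + γ * v 9) * (z (Fin.castSucc i) * v (Fin.castSucc i)) := by
        intro i; ring
      simp only [g2, Finset.sum_add_distrib, ← Finset.mul_sum, ← hm, ← hq]
      ring
    rw [e1]
    have cs : m ^ 2 ≤ xx z * q := by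
      have := Finset.sum_mul_sq_le_sq_mul_sq Finset.univ (fun i : Fin 9 => z (Fin.castSucc i))
        (fun i : Fin 9 => v (Fin.castSucc i))
      exact this
    have hq0 : 0 ≤ q := Finset.sum_nonneg fun i _ => sq_nonneg _
    have hX : 0 ≤ xx z := Finset.sum_nonneg fun i _ => sq_nonneg _
    by_cases hm0 : m = 0
    · rw [hm0]
      by_cases hv9 : v 9 = 0
      · have hqp : 0 < q := by
          rcases hq0.lt_or_eq with h1 | h1
          · exact h1
          · exfalso
            apply hv
            have h2 := (Finset.sum_eq_zero_iff_of_nonneg (fun i _ => sq_nonneg _)).1 (h1.symm)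
            funext i
            refine Fin.lastCases ?_ (fun i => ?_) i
            · exact hv9
            · have h3 := h2 i (Finset.mem_univ _)
              simpa using h3
        rw [hv9]
        have := mul_pos hα hqp
        nlinarith
      · have h1 : 0 < δ * v 9 ^ 2 := mul_pos hδ (by positivity)
        have h2 : 0 ≤ α * q := mul_nonneg hα.le hq0
        nlinarith
    · have hm2 : 0 < m ^ 2 := by positivity
      have hXp : 0 < xx z := by
        rcases hX.lt_or_eq with h1 | h1
        · exact h1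
        · rw [← h1] at cs; nlinarith
      have key : 0 < (xx z * δ) * (α * q + β * m ^ 2 + 2 * γ * m * v 9 + δ * v 9 ^ 2) := by
        have e5 : (xx z * δ) * (α * q + β * m ^ 2 + 2 * γ * m * v 9 + δ * v 9 ^ 2) =
            δ * α * (xx z * q - m ^ 2) + ((α + β * xx z) * δ - γ ^ 2 * xx z) * m ^ 2 +
              xx z * (γ * m + δ * v 9) ^ 2 := by ring
        rw [e5]
        have t1 : 0 ≤ δ * α * (xx z * q - m ^ 2) := mul_nonneg (mul_pos hδ hα).le (by linarith)
        have t2 := mul_pos h hm2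
        have t3 : 0 ≤ xx z * (γ * m + δ * v 9) ^ 2 := mul_nonneg hX (sq_nonneg _)
        linarith
      exact (mul_pos_iff_of_pos_left (mul_pos hXp hδ)).1 key

end Crest.Agent.R236
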