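import Crest.Agent.R236.Skel

set_option autoImplicit false
open Set

namespace Crest.Agent.R236

/-- the 10 x 2 matrix [y, e₉] -/
def WW (z : EuclideanSpace ℝ (Fin 10)) : Matrix (Fin 10) (Fin 2) ℝ :=
  fun i k => if k = 0 then (if i = 9 then 0 else z i) else (if i = 9 then 1 else 0)

/-- the 2 x 2 core -/
def GG (α β γ δ : ℝ) : Matrix (Fin 2) (Fin 2) ℝ := !![β, γ; γ, δ - α]

theorem blk_eq (z : EuclideanSpace ℝ (Fin 10)) (α β γ δ : ℝ) :
    blk z α β γ δ = α • (1 : Matrix (Fin 10) (Fin 10) ℝ) + WW z * (GG α β γ δ * (WW z).transpose) := by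
  ext i j
  simp only [blk, WW, GG, Matrix.add_apply, Matrix.smul_apply, Matrix.one_apply, Matrix.mul_apply,
    Fin.sum_univ_two, Matrix.transpose_apply, smul_eq_mul]
  by_cases hi : i = 9 <;> by_cases hj : j = 9
  · subst hi; subst hj; simp
  · subst hi
    have h : ¬ ((9 : Fin 10) = j) := fun h => hj h.symm
    simp [hj, h]
  · subst hj
    simp [hi]; ring
  · simp [hi, hj]
    ring

theorem xx_eq (z : EuclideanSpace ℝ (Fin 10)) :
    ∑ i : Fin 10, (if i = 9 then (0:ℝ) else z i) * (if i = 9 then (0:ℝ) else z i) = xx z := by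
  rw [Fin.sum_univ_castSucc]
  have h9 : (Fin.last 9 : Fin 10) = 9 := rfl
  simp only [h9, if_true, mul_zero, add_zero, xx]
  refine Finset.sum_congr rfl fun i _ => ?_
  have : (Fin.castSucc i : Fin 10) ≠ 9 := by
    intro h
    have := congrArg Fin.val h
    simp at this
    omega
  rw [if_neg this]; ring

theorem WtW (z : EuclideanSpace ℝ (Fin 10)) :
    (WW z).transpose * WW z = !![xx z, 0; 0, 1] := by
  ext k l
  simp only [Matrix.mul_apply, Matrix.transpose_apply]
  fin_cases k <;> fin_cases l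
  · simpa [WW] using xx_eq z
  · simp [WW]
  · simp only [WW]
    simp
    refine Finset.sum_eq_zero fun x _ => ?_
    split_ifs <;> rfl
  · simp [WW]

theorem det_blk_ne (z : EuclideanSpace ℝ (Fin 10)) (α β γ δ : ℝ) (hα : α ≠ 0) :
    (blk z α β γ δ).det = α ^ 8 * ((α + β * xx z) * δ - γ ^ 2 * xx z) := by
  have h1 : blk z α β γ δ = α • (1 + (α⁻¹ • WW z) * (GG α β γ δ * (WW z).transpose)) := by
    rw [blk_eq, smul_add, Matrix.smul_mul, smul_smul, mul_inv_cancel₀ hα, one_smul]
  rw [h1, Matrix.det_smul, Matrix.det_one_add_mul_comm]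
  have h2 : GG α β γ δ * (WW z).transpose * (α⁻¹ • WW z)
      = α⁻¹ • (GG α β γ δ * !![xx z, 0; 0, 1]) := by
    rw [Matrix.mul_smul, Matrix.mul_assoc, WtW]
  rw [h2, GG]
  simp only [Fintype.card_fin, Matrix.det_fin_two, Matrix.add_apply, Matrix.one_apply, Matrix.smul_apply,
    Matrix.mul_apply, Fin.sum_univ_two, smul_eq_mul]
  simp
  field_simp
  ring

theorem det_blk' (z : EuclideanSpace ℝ (Fin 10)) (α β γ δ : ℝ) :
    (blk z α β γ δ).det = α ^ 8 * ((α + β * xx z) * δ - γ ^ 2 * xx z) := by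
  have hc : Continuous fun a : ℝ => (blk z a β γ δ).det := by
    apply Continuous.matrix_det
    refine continuous_matrix fun i j => ?_
    unfold blk
    split_ifs <;> fun_prop
  have hd : Continuous fun a : ℝ => a ^ 8 * ((a + β * xx z) * δ - γ ^ 2 * xx z) := by fun_prop
  have h := Continuous.ext_on (dense_compl_singleton (0:ℝ)) hc hd
    (fun a ha => det_blk_ne z a β γ δ ha)
  exact congrFun h α

end Crest.Agent.R236
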