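import Crest.Agent.R236.Skel

set_option autoImplicit false
open scoped ContDiff Topology
open Set

namespace Crest.Agent.R236

theorem exists_f' (hglob : ∃ ε : ℝ, 0 < ε ∧ ∃ P W : ℝ → ℝ,
    ContDiffOn ℝ ∞ P (Ioi (-ε)) ∧ ContDiffOn ℝ ∞ W (Ioi (-ε)) ∧
    (∀ x ∈ Ioi (-ε), SysAt P W x)) :
    ∃ ε : ℝ, 0 < ε ∧ ∃ f : ℝ → ℝ, ContDiffOn ℝ ∞ f (Ioi (-ε)) ∧
    ∀ x ∈ Ioi (-ε), 0 < f x ∧ 0 < deriv f x ∧ 0 < deriv f x + 2 * x * deriv (deriv f) x ∧
      0 < 9 * f x + 4 * x * deriv f x ∧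
      (9 * f x + 4 * x * deriv f x) *
        deriv (fun z => (f z / (deriv f z ^ 8 * (deriv f z + 2 * z * deriv (deriv f) z))) ^ ((11:ℝ)/12)) x
       = 11 * (f x / (deriv f x ^ 8 * (deriv f x + 2 * x * deriv (deriv f) x))) ^ ((11:ℝ)/12) *
          (deriv f x - 2 * (deriv f x + 2 * x * deriv (deriv f) x)) := by
  obtain ⟨ε, hε, P, W, hP, hW, hS⟩ := hglob
  refine ⟨ε, hε, ?_⟩
  have hopen : IsOpen (Ioi (-ε)) := isOpen_Ioi
  have hPc : ContinuousOn P (Ioi (-ε)) := hP.continuousOn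
  set F : ℝ → ℝ := fun x => ∫ t in (0:ℝ)..x, P t / 2 with hF
  have hFd : ∀ x ∈ Ioi (-ε), HasDerivAt F (P x / 2) x := by
    intro x hx
    have hsub : uIcc 0 x ⊆ Ioi (-ε) := by
      intro t ht
      have h1 := ht.1
      simp only [mem_Ioi] at hx ⊢
      rcases le_total 0 x with h | h
      · rw [min_eq_left h] at h1; linarith
      · rw [min_eq_right h] at h1; linarith
    have hc2 : ContinuousOn (fun t => P t / 2) (Ioi (-ε)) := hPc.div_const 2
    refine intervalIntegral.integral_hasDerivAt_right ?_ ?_ ?_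
    · exact (hc2.mono hsub).intervalIntegrable
    · exact hc2.stronglyMeasurableAtFilter hopen x hx
    · exact hc2.continuousAt (hopen.mem_nhds hx)
  set f : ℝ → ℝ := fun x => Real.exp (F x) with hf
  have hfd : ∀ x ∈ Ioi (-ε), HasDerivAt f (f x * (P x / 2)) x := fun x hx => (hFd x hx).exp
  have hFs : ContDiffOn ℝ ∞ F (Ioi (-ε)) := by
    rw [contDiffOn_infty_iff_deriv_of_isOpen hopen]
    refine ⟨fun x hx => (hFd x hx).differentiableAt.differentiableWithinAt, ?_⟩
    exact (hP.div_const 2).congr fun x hx => (hFd x hx).deriv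
  have hfs : ContDiffOn ℝ ∞ f (Ioi (-ε)) := hFs.exp
  refine ⟨f, hfs, ?_⟩
  have hd1 : ∀ x ∈ Ioi (-ε), deriv f x = f x * (P x / 2) := fun x hx => (hfd x hx).deriv
  have hd2 : ∀ x ∈ Ioi (-ε), deriv (deriv f) x = f x * (P x / 2) * (W x / 2) := by
    intro x hx
    have he : deriv f =ᶠ[𝓝 x] fun z => f z * (P z / 2) := by
      filter_upwards [hopen.mem_nhds hx] with z hz using hd1 z hz
    rw [he.deriv_eq]
    have h := (hfd x hx).mul ((hS x hx).2.2.2.1.div_const 2)
    have h2 := h.deriv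
    have h3 : deriv (fun z => f z * (P z / 2)) x
        = f x * (P x / 2) * (P x / 2) + f x * (P x * (W x - P x) / 2 / 2) := h2
    rw [h3]; ring
  have hfpos : ∀ x, 0 < f x := fun x => Real.exp_pos _
  intro x hx
  have hS' := hS x hx
  obtain ⟨hPp, hWp, h9, hPd, hWe⟩ := hS'
  have hf0 := hfpos x
  have hD : ∀ z ∈ Ioi (-ε), deriv f z + 2 * z * deriv (deriv f) z
      = f z * (P z / 2) * (1 + z * W z) := by
    intro z hz
    rw [hd1 z hz, hd2 z hz]; ring
  have hX : 9 * f x + 4 * x * deriv f x = f x * (9 + 2 * x * P x) := by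
    rw [hd1 x hx]; ring
  refine ⟨hf0, ?_, ?_, ?_, ?_⟩
  · rw [hd1 x hx]; positivity
  · rw [hD x hx]; positivity
  · rw [hX]; positivity
  set L : ℝ → ℝ := fun z => F z - 9 * (F z + Real.log (P z / 2)) - Real.log (1 + z * W z) with hL
  have hK : ∀ z ∈ Ioi (-ε),
      (f z / (deriv f z ^ 8 * (deriv f z + 2 * z * deriv (deriv f) z))) ^ ((11:ℝ)/12)
        = Real.exp (11 / 12 * L z) := by
    intro z hz
    obtain ⟨hPz, hWz, -⟩ := hS z hz
    have hfz := hfpos z
    rw [hD z hz, hd1 z hz]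
    have hP2 : 0 < P z / 2 := by positivity
    have hpos : 0 < f z / ((f z * (P z / 2)) ^ 8 * (f z * (P z / 2) * (1 + z * W z))) := by
      positivity
    rw [Real.rpow_def_of_pos hpos]
    congr 1
    have hlf : Real.log (f z) = F z := Real.log_exp _
    have hne1 : f z ≠ 0 := hfz.ne'
    have hne2 : P z / 2 ≠ 0 := hP2.ne'
    have hne3 : 1 + z * W z ≠ 0 := hWz.ne'
    rw [Real.log_div hne1 (by positivity), Real.log_mul (by positivity) (by positivity),
      Real.log_pow, Real.log_mul (x := f z * (P z / 2)) (by positivity) hne3,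
      Real.log_mul hne1 hne2, hlf, hL]
    push_cast
    ring
  have hLd : HasDerivAt L (P x / 2 - 9 * (P x / 2 + (P x * (W x - P x) / 2 / 2) / (P x / 2))
      - (1 * W x + x * deriv W x) / (1 + x * W x)) x := by
    have hWd : HasDerivAt W (deriv W x) x :=
      ((hW.contDiffAt (hopen.mem_nhds hx)).differentiableAt (by simp)).hasDerivAt
    have h1 := hFd x hx
    have h2 : HasDerivAt (fun z => Real.log (P z / 2))
        ((P x * (W x - P x) / 2 / 2) / (P x / 2)) x :=
      (hPd.div_const 2).log (by positivity)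
    have h3 : HasDerivAt (fun z => Real.log (1 + z * W z))
        ((1 * W x + x * deriv W x) / (1 + x * W x)) x :=
      (((hasDerivAt_id x).mul hWd).const_add 1).log hWp.ne'
    exact (h1.sub ((h1.add h2).const_mul 9)).sub h3
  have hKd : HasDerivAt (fun z => (f z / (deriv f z ^ 8 *
      (deriv f z + 2 * z * deriv (deriv f) z))) ^ ((11:ℝ)/12))
      (Real.exp (11 / 12 * L x) * (11 / 12 * (P x / 2
        - 9 * (P x / 2 + (P x * (W x - P x) / 2 / 2) / (P x / 2))
      - (1 * W x + x * deriv W x) / (1 + x * W x)))) x := by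
    refine ((hLd.const_mul (11 / 12 : ℝ)).exp).congr_of_eventuallyEq ?_
    filter_upwards [hopen.mem_nhds hx] with z hz using hK z hz
  rw [hKd.deriv, hK x hx, hX, hD x hx, hd1 x hx]
  have hWe2 : (1 * W x + x * deriv W x) / (1 + x * W x)
      = (P x - 9 * W x + 12 * P x * (1 + 2 * x * W x) / (9 + 2 * x * P x)) / 2 := by
    rw [div_eq_iff hWp.ne']
    linear_combination hWe / 2
  have hP3 : (P x * (W x - P x) / 2 / 2) / (P x / 2) = (W x - P x) / 2 := by
    field_simp
  rw [hWe2, hP3]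
  have h9' : 9 + 2 * x * P x ≠ 0 := h9.ne'
  field_simp
  ring

end Crest.Agent.R236
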