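import Crest.Agent.R236.GlobC76

set_option autoImplicit false
open scoped ContDiff
open Set

namespace Crest.Agent.R236

/-- E2 (continuation), with the conclusion of `local_sol` as hypothesis. -/
theorem global_sol_of (hloc : ∃ ε : ℝ, 0 < ε ∧ ∃ P W : ℝ → ℝ,
      ContDiffOn ℝ ∞ P (Ioo (-ε) ε) ∧ ContDiffOn ℝ ∞ W (Ioo (-ε) ε) ∧
      (∀ x ∈ Ioo (-ε) ε, SysAt P W x) ∧
      (∀ x ∈ Ioo 0 ε, x * P x < 9 / 2 ∧ W x < 5 / 9 * P x)) :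
    ∃ ε : ℝ, 0 < ε ∧ ∃ P W : ℝ → ℝ,
      ContDiffOn ℝ ∞ P (Ioi (-ε)) ∧ ContDiffOn ℝ ∞ W (Ioi (-ε)) ∧
      (∀ x ∈ Ioi (-ε), SysAt P W x) := G76.global_of_local hloc

/-- E2 with the skeleton's `local_sol` (uses its sorry until E1 is done). -/
theorem global_sol' : ∃ ε : ℝ, 0 < ε ∧ ∃ P W : ℝ → ℝ,
    ContDiffOn ℝ ∞ P (Ioi (-ε)) ∧ ContDiffOn ℝ ∞ W (Ioi (-ε)) ∧
    (∀ x ∈ Ioi (-ε), SysAt P W x) := global_sol_of local_sol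

end Crest.Agent.R236
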