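import Mathlib
import Crest.Agent.H27.Flow

set_option autoImplicit false
open scoped ContDiff
open Set

namespace Crest.Agent.R236

noncomputable section

def Fp (p v : ℝ) : ℝ := p * (1 + v - p) / 2
def Fv (p v : ℝ) : ℝ := v / 2 * (9 * (1 - v) + p + 12 * p * (2 * v - 1) / (9 + 2 * p))
def FF33 (z : ℝ × ℝ) : ℝ × ℝ := (Fp z.1 z.2, Fv z.1 z.2)
def c1 (p : ℝ) : ℝ := max 0 (min p (9/2))
def c2 (v : ℝ) : ℝ := max 0 (min v (7/2))
def cc (z : ℝ × ℝ) : ℝ × ℝ := (c1 z.1, c2 z.2)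
def RR : Set (ℝ × ℝ) := {z | 0 < z.1 ∧ z.1 < 9/2 ∧ 0 < z.2 ∧ z.2 < 1 + 5/9 * z.1}

theorem cc_mem (z : ℝ × ℝ) : cc z ∈ Icc (0:ℝ) (9/2) ×ˢ Icc (0:ℝ) (7/2) := by
  refine ⟨⟨?_, ?_⟩, ⟨?_, ?_⟩⟩
  · exact le_max_left _ _
  · exact max_le (by norm_num) (min_le_right _ _)
  · exact le_max_left _ _
  · exact max_le (by norm_num) (min_le_right _ _)

theorem cc_eq {z : ℝ × ℝ} (h : z ∈ RR) : cc z = z := by
  obtain ⟨h1, h2, h3, h4⟩ := h
  have e1 : c1 z.1 = z.1 := by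
    unfold c1
    rw [min_eq_left h2.le, max_eq_right h1.le]
  have e2 : c2 z.2 = z.2 := by
    unfold c2
    rw [min_eq_left (by linarith), max_eq_right h3.le]
  unfold cc
  rw [e1, e2]

theorem cc_lip : LipschitzWith 1 cc := by
  have h1 : LipschitzWith 1 c1 := by
    unfold c1
    exact (LipschitzWith.id.min_const (9/2)).const_max 0
  have h2 : LipschitzWith 1 c2 := by
    unfold c2
    exact (LipschitzWith.id.min_const (7/2)).const_max 0
  have h3 := (h1.comp LipschitzWith.prod_fst).prodMk (h2.comp LipschitzWith.prod_snd)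
  have h4 : cc = fun x : ℝ × ℝ => ((c1 ∘ Prod.fst) x, (c2 ∘ Prod.snd) x) := rfl
  rw [h4]
  simpa using h3

theorem FF_cd : ContDiffOn ℝ 1 FF33 (Icc (0:ℝ) (9/2) ×ˢ Icc (0:ℝ) (7/2)) := by
  unfold FF33 Fp Fv
  refine ContDiffOn.prodMk ?_ ?_
  · exact ContDiff.contDiffOn (by fun_prop)
  · refine ContDiffOn.mul (ContDiff.contDiffOn (by fun_prop)) (ContDiffOn.add (ContDiff.contDiffOn (by fun_prop)) (ContDiffOn.div (ContDiff.contDiffOn (by fun_prop)) (ContDiff.contDiffOn (by fun_prop)) ?_))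
    intro z hz
    have := hz.1.1
    have h : (0:ℝ) ≤ z.1 := this
    intro h0
    linarith

theorem exists_alpha (x : ℝ × ℝ) : ∃ K : NNReal, LipschitzWith K (fun z => FF33 (cc z)) ∧
    ∃ α : ℝ → ℝ × ℝ, α 0 = x ∧ ∀ t, HasDerivAt α (FF33 (cc (α t))) t := by
  have hcv : Convex ℝ (Icc (0:ℝ) (9/2) ×ˢ Icc (0:ℝ) (7/2)) := (convex_Icc _ _).prod (convex_Icc _ _)
  have hcp : IsCompact (Icc (0:ℝ) (9/2) ×ˢ Icc (0:ℝ) (7/2)) := isCompact_Icc.prod isCompact_Icc
  obtain ⟨K, hK⟩ := FF_cd.exists_lipschitzOnWith (by norm_num) hcv hcp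
  have hL : LipschitzWith K (fun z => FF33 (cc z)) := by
    intro a b
    refine (hK (cc_mem a) (cc_mem b)).trans ?_
    have := cc_lip a b
    simp only [ENNReal.coe_one, one_mul] at this
    gcongr
  obtain ⟨C, hC⟩ := hcp.exists_bound_of_continuousOn FF_cd.continuousOn
  obtain ⟨α, h1, h2⟩ := Crest.Agent.H27.exists_global_solution (v := fun _ z => FF33 (cc z)) (K := K)
    (fun _ => hL) (fun _ => continuous_const) (C := C.toNNReal)
    (fun t z => (hC _ (cc_mem z)).trans (Real.le_coe_toNNReal C)) x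
  exact ⟨K, hL, α, h1, h2⟩

theorem expo (y y' : ℝ → ℝ) (C t1 : ℝ) (h : ∀ t, HasDerivAt y (y' t) t)
    (h2 : ∀ t ∈ Ioo 0 t1, 0 ≤ y' t + C * y t) (ht : 0 ≤ t1) (h0 : 0 < y 0) : 0 < y t1 := by
  have hd : ∀ t, HasDerivAt (fun t => y t * Real.exp (C * t))
      (y' t * Real.exp (C * t) + y t * (Real.exp (C * t) * (C * 1))) t := fun t =>
    (h t).mul (((hasDerivAt_id t).const_mul C).exp)
  have hm : MonotoneOn (fun t => y t * Real.exp (C * t)) (Icc 0 t1) := by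
    refine monotoneOn_of_deriv_nonneg (convex_Icc _ _)
      (fun t _ => (hd t).continuousAt.continuousWithinAt)
      (fun t _ => (hd t).differentiableAt.differentiableWithinAt) ?_
    intro t ht'
    rw [interior_Icc] at ht'
    rw [(hd t).deriv]
    have := mul_nonneg (h2 t ht') (Real.exp_pos (C * t)).le
    nlinarith
  have := hm (left_mem_Icc.2 ht) (right_mem_Icc.2 ht) ht
  simp only [mul_zero, Real.exp_zero, mul_one] at this
  have hp : 0 < y t1 * Real.exp (C * t1) := lt_of_lt_of_le h0 this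
  exact (pos_iff_pos_of_mul_pos hp).2 (Real.exp_pos _)

theorem RR_open : IsOpen RR := by
  unfold RR
  refine (isOpen_lt continuous_const continuous_fst).inter ((isOpen_lt continuous_fst continuous_const).inter
    ((isOpen_lt continuous_const continuous_snd).inter (isOpen_lt continuous_snd (by fun_prop))))

theorem trap (α : ℝ → ℝ × ℝ) (h0 : α 0 ∈ RR) (h : ∀ t, HasDerivAt α (FF33 (cc (α t))) t) :
    ∀ t, 0 ≤ t → α t ∈ RR := by
  by_contra hcon
  push Not at hcon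
  obtain ⟨t2, ht2, ht2'⟩ := hcon
  have hcont : Continuous α := continuous_iff_continuousAt.2 fun t => (h t).continuousAt
  set A : Set ℝ := Ici 0 ∩ α ⁻¹' RRᶜ with hA
  have hAc : IsClosed A := isClosed_Ici.inter (RR_open.isClosed_compl.preimage hcont)
  have hAn : A.Nonempty := ⟨t2, ht2, ht2'⟩
  have hAb : BddBelow A := ⟨0, fun t ht => ht.1⟩
  set t1 := sInf A with ht1
  have hmem : t1 ∈ A := hAc.csInf_mem hAn hAb
  have hin : ∀ t, 0 ≤ t → t < t1 → α t ∈ RR := by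
    intro t ha hb
    by_contra hc
    exact absurd (csInf_le hAb (⟨ha, hc⟩ : t ∈ A)) (not_le.2 hb)
  have hp : ∀ t, HasDerivAt (fun t => (α t).1) (FF33 (cc (α t))).1 t := fun t =>
    ((ContinuousLinearMap.fst ℝ ℝ ℝ).hasFDerivAt.comp_hasDerivAt t (h t))
  have hv : ∀ t, HasDerivAt (fun t => (α t).2) (FF33 (cc (α t))).2 t := fun t =>
    ((ContinuousLinearMap.snd ℝ ℝ ℝ).hasFDerivAt.comp_hasDerivAt t (h t))
  have key : ∀ t ∈ Ioo 0 t1, ∃ p v : ℝ, (α t).1 = p ∧ (α t).2 = v ∧ 0 < p ∧ p < 9/2 ∧ 0 < v ∧ v < 1 + 5/9*p ∧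
      (FF33 (cc (α t))).1 = Fp p v ∧ (FF33 (cc (α t))).2 = Fv p v := by
    intro t ht
    have hR := hin t ht.1.le ht.2
    refine ⟨(α t).1, (α t).2, rfl, rfl, hR.1, hR.2.1, hR.2.2.1, hR.2.2.2, ?_, ?_⟩
    · rw [cc_eq hR]; rfl
    · rw [cc_eq hR]; rfl
  obtain ⟨g1, g2, g3, g4⟩ := h0
  have e1 : 0 < (α t1).1 := by
    refine expo _ _ 100 t1 hp ?_ hmem.1 g1
    intro t ht
    obtain ⟨p, v, e1, e2, a1, a2, a3, a4, f1, f2⟩ := key t ht
    simp only [e1, e2, f1]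
    unfold Fp
    nlinarith [mul_pos a1 a3]
  have e2 : 0 < (α t1).2 := by
    refine expo _ _ 100 t1 hv ?_ hmem.1 g3
    intro t ht
    obtain ⟨p, v, e1, e2, a1, a2, a3, a4, f1, f2⟩ := key t ht
    simp only [e1, e2, f2]
    unfold Fv
    have hd : (0:ℝ) < 9 + 2 * p := by linarith
    have hb : -12 ≤ 12 * p * (2 * v - 1) / (9 + 2 * p) := by
      rw [le_div_iff₀ hd]
      nlinarith [mul_pos a1 a3]
    have hb2 : 0 ≤ 9 * (1 - v) + p + 12 * p * (2 * v - 1) / (9 + 2 * p) + 200 := by linarith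
    nlinarith [mul_nonneg a3.le hb2]
  have e3 : 0 < 9/2 - (α t1).1 := by
    refine expo (fun t => 9/2 - (α t).1) (fun t => 0 - (FF33 (cc (α t))).1) 100 t1
      (fun t => (hasDerivAt_const t _).sub (hp t)) ?_ hmem.1 (by linarith)
    intro t ht
    obtain ⟨p, v, e1, e2, a1, a2, a3, a4, f1, f2⟩ := key t ht
    simp only [e1, e2, f1]
    unfold Fp
    nlinarith [mul_pos a1 (sub_pos.2 a4), mul_pos a1 (sub_pos.2 a2), mul_pos a1 a3]
  have e4 : 0 < 1 + 5/9 * (α t1).1 - (α t1).2 := by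
    refine expo (fun t => 1 + 5/9 * (α t).1 - (α t).2)
      (fun t => (0 + 5/9 * (FF33 (cc (α t))).1) - (FF33 (cc (α t))).2) 100 t1
      (fun t => (((hasDerivAt_const t (1:ℝ)).add ((hp t).const_mul (5/9))).sub (hv t))) ?_ hmem.1
        (by linarith)
    intro t ht
    obtain ⟨p, v, e1, e2, a1, a2, a3, a4, f1, f2⟩ := key t ht
    simp only [e1, e2, f1, f2]
    have hd : (0:ℝ) < 9 + 2 * p := by linarith
    have hid : (0 + 5/9 * Fp p v) - Fv p v = 5/81*p*(9-2*p) + 4/3*v*p*(9-2*p)/(9+2*p)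
        - (1 + 5/9*p - v) * (5/18*p + v/2*(9 - 24*p/(9+2*p))) := by
      unfold Fp Fv
      field_simp
      ring
    rw [hid]
    have k1 : 0 ≤ 5/81*p*(9-2*p) := by
      have : 0 < 9 - 2*p := by linarith
      positivity
    have k2 : 0 ≤ 4/3*v*p*(9-2*p)/(9+2*p) := by
      have : 0 < 9 - 2*p := by linarith
      positivity
    have k3 : 5/18*p + v/2*(9 - 24*p/(9+2*p)) ≤ 100 := by
      have : 0 ≤ 24*p/(9+2*p) := by positivity
      nlinarith [mul_nonneg a3.le this]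
    nlinarith [mul_nonneg (sub_pos.2 a4).le (sub_nonneg.2 k3)]
  exact hmem.2 ⟨e1, by linarith, e2, by linarith⟩

end

end Crest.Agent.R236
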