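import Crest.Agent.R236.Skel
import Crest.Agent.R236.Glob33a

set_option autoImplicit false
open scoped ContDiff
open Set Filter Topology

namespace Crest.Agent.R236

theorem FF_smooth : ContDiffOn ℝ ∞ FF33 RR := by
  unfold FF33 Fp Fv
  refine ContDiffOn.prodMk ?_ ?_
  · exact ContDiff.contDiffOn (by fun_prop)
  · refine ContDiffOn.mul (ContDiff.contDiffOn (by fun_prop)) (ContDiffOn.add (ContDiff.contDiffOn (by fun_prop)) (ContDiffOn.div (ContDiff.contDiffOn (by fun_prop)) (ContDiff.contDiffOn (by fun_prop)) ?_))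
    intro z hz
    have h : 0 < z.1 := hz.1
    intro h0
    linarith

theorem sol_smooth (α : ℝ → ℝ × ℝ) (s : Set ℝ) (hs : IsOpen s) (hR : ∀ t ∈ s, α t ∈ RR)
    (h : ∀ t ∈ s, HasDerivAt α (FF33 (α t)) t) : ContDiffOn ℝ ∞ α s := by
  rw [contDiffOn_infty]
  intro n
  induction n with
  | zero =>
    have : ContinuousOn α s := fun t ht => (h t ht).continuousAt.continuousWithinAt
    exact contDiffOn_zero.2 this
  | succ n ih =>
    have : ContDiffOn ℝ ((n : ℕ∞ω) + 1) α s := by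
      rw [contDiffOn_succ_iff_deriv_of_isOpen hs]
      refine ⟨fun t ht => (h t ht).differentiableAt.differentiableWithinAt, ?_, ?_⟩
      · intro hn
        exact absurd hn (by simp)
      · have h2 : ContDiffOn ℝ n (fun t => FF33 (α t)) s :=
          (FF_smooth.of_le (by exact_mod_cast le_top)).comp ih hR
        exact h2.congr fun t ht => (h t ht).deriv
    exact_mod_cast this

theorem sys_congr {P W P' W' : ℝ → ℝ} {x : ℝ} (hP : P' =ᶠ[𝓝 x] P) (hW : W' =ᶠ[𝓝 x] W)
    (h : SysAt P W x) : SysAt P' W' x := by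
  obtain ⟨h1, h2, h3, h4, h5⟩ := h
  have e1 := hP.eq_of_nhds
  have e2 := hW.eq_of_nhds
  refine ⟨by rw [e1]; exact h1, by rw [e2]; exact h2, by rw [e1]; exact h3, ?_, ?_⟩
  · rw [e1, e2]
    exact h4.congr_of_eventuallyEq hP
  · rw [e1, e2, hW.deriv_eq]
    exact h5

/-- the solution in the variable x -/
theorem sys_of_alpha (α : ℝ → ℝ × ℝ) (x0 x : ℝ) (hx0 : 0 < x0) (hx : 0 < x)
    (hR : α (Real.log (x / x0)) ∈ RR)
    (h : HasDerivAt α (FF33 (α (Real.log (x / x0)))) (Real.log (x / x0))) :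
    SysAt (fun x => (α (Real.log (x / x0))).1 / x) (fun x => ((α (Real.log (x / x0))).2 - 1) / x) x := by
  have hlog : HasDerivAt (fun x => Real.log (x / x0)) (1 / x) x := by
    have h1 : HasDerivAt (fun x => x / x0) (1 / x0) x := (hasDerivAt_id x).div_const x0
    have h2 := h1.log (by positivity)
    convert h2 using 1
    field_simp
  have hp : HasDerivAt (fun x => (α (Real.log (x / x0))).1)
      ((FF33 (α (Real.log (x / x0)))).1 * (1 / x)) x := by
    have h1 : HasDerivAt (fun t => (α t).1) (FF33 (α (Real.log (x / x0)))).1 (Real.log (x / x0)) :=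
      ((ContinuousLinearMap.fst ℝ ℝ ℝ).hasFDerivAt.comp_hasDerivAt _ h)
    exact h1.comp x hlog
  have hv : HasDerivAt (fun x => (α (Real.log (x / x0))).2)
      ((FF33 (α (Real.log (x / x0)))).2 * (1 / x)) x := by
    have h1 : HasDerivAt (fun t => (α t).2) (FF33 (α (Real.log (x / x0)))).2 (Real.log (x / x0)) :=
      ((ContinuousLinearMap.snd ℝ ℝ ℝ).hasFDerivAt.comp_hasDerivAt _ h)
    exact h1.comp x hlog
  obtain ⟨g1, g2, g3, g4⟩ := hR
  have hPd := hp.div (hasDerivAt_id x) hx.ne'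
  have hWd := (hv.sub_const 1).div (hasDerivAt_id x) hx.ne'
  generalize hpp : (α (Real.log (x / x0))).1 = p at *
  generalize hvv : (α (Real.log (x / x0))).2 = v at *
  have hF1 : (FF33 (α (Real.log (x / x0)))).1 = Fp p v := by
    unfold FF33; simp only [hpp, hvv]
  have hF2 : (FF33 (α (Real.log (x / x0)))).2 = Fv p v := by
    unfold FF33; simp only [hpp, hvv]
  rw [hF1] at hPd
  rw [hF2] at hWd
  have hd : (0:ℝ) < 9 + 2 * p := by linarith
  have hne : 9 + 2 * p ≠ 0 := hd.ne'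
  have hxp : x * (p / x) = p := by field_simp
  have hxv : x * ((v - 1) / x) = v - 1 := by field_simp
  refine ⟨?_, ?_, ?_, ?_, ?_⟩
  · simp only [hpp]; positivity
  · simp only [hvv, hxv]; linarith
  · simp only [hpp]
    have : 2 * x * (p / x) = 2 * p := by field_simp
    rw [this]; linarith
  · simp only [hpp, hvv]
    refine HasDerivAt.congr_deriv hPd ?_
    unfold Fp
    simp only [id]
    field_simp
    ring
  · have : deriv (fun x => ((α (Real.log (x / x0))).2 - 1) / x) x = _ := hWd.deriv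
    rw [this]
    simp only [hpp, hvv, id]
    have e1 : 2 * x * (p / x) = 2 * p := by field_simp
    have e2 : 2 * x * ((v - 1) / x) = 2 * (v - 1) := by field_simp
    rw [hxv, e1, e2]
    unfold Fv
    field_simp
    ring

/-- from x to s -/
theorem alpha_of_sys (P W : ℝ → ℝ) (x0 t : ℝ) (hx0 : 0 < x0)
    (hW : DifferentiableAt ℝ W (x0 * Real.exp t)) (h : SysAt P W (x0 * Real.exp t)) :
    HasDerivAt (fun t => ((x0 * Real.exp t) * P (x0 * Real.exp t),
      1 + (x0 * Real.exp t) * W (x0 * Real.exp t)))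
      (FF33 ((x0 * Real.exp t) * P (x0 * Real.exp t),
        1 + (x0 * Real.exp t) * W (x0 * Real.exp t))) t := by
  have hx : HasDerivAt (fun t => x0 * Real.exp t) (x0 * Real.exp t) t :=
    (Real.hasDerivAt_exp t).const_mul x0
  obtain ⟨h1, h2, h3, h4, h5⟩ := h
  have hP' := hx.mul (h4.comp t hx)
  have hW' := (hx.mul (hW.hasDerivAt.comp t hx)).const_add 1
  have h6 := hP'.prodMk hW'
  have hpos : 0 < x0 * Real.exp t := by positivity
  refine HasDerivAt.congr_deriv h6 ?_
  unfold FF33 Fp Fv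
  simp only [Function.comp]
  generalize hxx : x0 * Real.exp t = x at *
  ext
  · simp only
    ring
  · simp only
    have h7 : 1 + x * W x - 1 = x * W x := by ring
    have hne : 9 + 2 * (x * P x) ≠ 0 := by
      have : 9 + 2 * (x * P x) = 9 + 2 * x * P x := by ring
      rw [this]; exact h3.ne'
    have hne2 : 9 + 2 * x * P x ≠ 0 := h3.ne'
    have h8 : x * (deriv W x * x) = x / 2 * (2 * x * deriv W x) := by ring
    rw [h8, h5]
    have h9 : 12 * (x * P x) * (2 * (1 + x * W x) - 1) / (9 + 2 * (x * P x)) =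
        x * (12 * P x * (1 + 2 * x * W x) / (9 + 2 * x * P x)) := by
      rw [show 9 + 2 * (x * P x) = 9 + 2 * x * P x by ring]
      ring
    rw [h9]
    ring

theorem global_sol' (hloc : ∃ ε : ℝ, 0 < ε ∧ ∃ P W : ℝ → ℝ,
    ContDiffOn ℝ ∞ P (Ioo (-ε) ε) ∧ ContDiffOn ℝ ∞ W (Ioo (-ε) ε) ∧
    (∀ x ∈ Ioo (-ε) ε, SysAt P W x) ∧
    (∀ x ∈ Ioo 0 ε, x * P x < 9 / 2 ∧ W x < 5 / 9 * P x)) : ∃ ε : ℝ, 0 < ε ∧ ∃ P W : ℝ → ℝ,
    ContDiffOn ℝ ∞ P (Ioi (-ε)) ∧ ContDiffOn ℝ ∞ W (Ioi (-ε)) ∧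
    (∀ x ∈ Ioi (-ε), SysAt P W x) := by
  obtain ⟨ε, hε, P, W, hP, hW, hsys, htr⟩ := hloc
  have hRx : ∀ x ∈ Ioo 0 ε, (x * P x, 1 + x * W x) ∈ RR := by
    intro x hx
    obtain ⟨a1, a2⟩ := htr x hx
    obtain ⟨b1, b2, b3, _⟩ := hsys x ⟨by linarith [hx.1], hx.2⟩
    refine ⟨mul_pos hx.1 b1, a1, b2, ?_⟩
    have := mul_lt_mul_of_pos_left a2 hx.1
    simp only
    linarith
  set x0 : ℝ := ε / 2 with hx0d
  have hx0 : 0 < x0 := by positivity
  obtain ⟨K, hL, α, hα0, hα⟩ := exists_alpha (x0 * P x0, 1 + x0 * W x0)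
  have hin0 : α 0 ∈ RR := by rw [hα0]; exact hRx x0 ⟨hx0, by rw [hx0d]; linarith⟩
  have htrap := trap α hin0 hα
  have hα' : ∀ t, 0 ≤ t → HasDerivAt α (FF33 (α t)) t := by
    intro t ht
    have := hα t
    rwa [cc_eq (htrap t ht)] at this
  -- uniqueness
  have huniq : ∀ x, x0 ≤ x → x < ε → α (Real.log (x / x0)) = (x * P x, 1 + x * W x) := by
    intro x hx1 hx2
    have hxp : 0 < x := lt_of_lt_of_le hx0 hx1
    set T := Real.log (x / x0) with hT
    have hTe : x0 * Real.exp T = x := by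
      rw [hT, Real.exp_log (by positivity)]; field_simp
    have hT0 : 0 ≤ T := Real.log_nonneg (by rw [le_div_iff₀ hx0]; linarith)
    have hrange : ∀ t ∈ Icc 0 T, x0 * Real.exp t ∈ Ioo 0 ε := by
      intro t ht
      refine ⟨by positivity, ?_⟩
      have : x0 * Real.exp t ≤ x0 * Real.exp T :=
        mul_le_mul_of_nonneg_left (Real.exp_le_exp.2 ht.2) hx0.le
      linarith
    have hβ : ∀ t ∈ Icc 0 T, HasDerivAt (fun t => ((x0 * Real.exp t) * P (x0 * Real.exp t),
        1 + (x0 * Real.exp t) * W (x0 * Real.exp t)))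
        (FF33 (cc ((x0 * Real.exp t) * P (x0 * Real.exp t),
        1 + (x0 * Real.exp t) * W (x0 * Real.exp t)))) t := by
      intro t ht
      have hr := hrange t ht
      have hr' : x0 * Real.exp t ∈ Ioo (-ε) ε := ⟨by linarith [hr.1], hr.2⟩
      rw [cc_eq (hRx _ hr)]
      exact alpha_of_sys P W x0 t hx0
        ((hW.differentiableOn (by simp)).differentiableAt (isOpen_Ioo.mem_nhds hr')) (hsys _ hr')
    have h := ODE_solution_unique (v := fun _ z => FF33 (cc z)) (K := K)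
      (f := α) (g := fun t => ((x0 * Real.exp t) * P (x0 * Real.exp t),
        1 + (x0 * Real.exp t) * W (x0 * Real.exp t))) (a := 0) (b := T)
      (fun _ => hL)
      (fun t _ => (hα t).continuousAt.continuousWithinAt)
      (fun t _ => (hα t).hasDerivWithinAt)
      (fun t ht => (hβ t ht).continuousAt.continuousWithinAt)
      (fun t ht => (hβ t ⟨ht.1, ht.2.le⟩).hasDerivWithinAt)
      (by rw [hα0]; simp)
    have := h (right_mem_Icc.2 hT0)
    simp only [hTe] at this
    exact this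
  set Pt : ℝ → ℝ := fun x => (α (Real.log (x / x0))).1 / x with hPt
  set Wt : ℝ → ℝ := fun x => ((α (Real.log (x / x0))).2 - 1) / x with hWt
  have heqP : ∀ x, x0 ≤ x → x < ε → Pt x = P x := by
    intro x hx1 hx2
    have hxp : 0 < x := lt_of_lt_of_le hx0 hx1
    simp only [hPt]
    rw [huniq x hx1 hx2]
    field_simp
  have heqW : ∀ x, x0 ≤ x → x < ε → Wt x = W x := by
    intro x hx1 hx2
    have hxp : 0 < x := lt_of_lt_of_le hx0 hx1
    simp only [hWt]
    rw [huniq x hx1 hx2]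
    field_simp
    ring
  set Pg : ℝ → ℝ := fun x => if x < ε then P x else Pt x with hPg
  set Wg : ℝ → ℝ := fun x => if x < ε then W x else Wt x with hWg
  have hPg1 : ∀ x, x < ε → Pg =ᶠ[𝓝 x] P := by
    intro x hx
    filter_upwards [isOpen_Iio.mem_nhds hx] with y hy
    exact if_pos hy
  have hWg1 : ∀ x, x < ε → Wg =ᶠ[𝓝 x] W := by
    intro x hx
    filter_upwards [isOpen_Iio.mem_nhds hx] with y hy
    exact if_pos hy
  have hPg2 : ∀ x, x0 < x → Pg =ᶠ[𝓝 x] Pt := by
    intro x hx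
    filter_upwards [isOpen_Ioi.mem_nhds hx] with y hy
    simp only [hPg]
    split_ifs with hc
    · exact (heqP y (le_of_lt hy) hc).symm
    · rfl
  have hWg2 : ∀ x, x0 < x → Wg =ᶠ[𝓝 x] Wt := by
    intro x hx
    filter_upwards [isOpen_Ioi.mem_nhds hx] with y hy
    simp only [hWg]
    split_ifs with hc
    · exact (heqW y (le_of_lt hy) hc).symm
    · rfl
  have hlogpos : ∀ x, x0 < x → 0 < Real.log (x / x0) := by
    intro x hx
    exact Real.log_pos (by rw [lt_div_iff₀ hx0]; linarith)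
  have hsm : ContDiffOn ℝ ∞ α (Ioi 0) :=
    sol_smooth α (Ioi 0) isOpen_Ioi (fun t ht => htrap t (le_of_lt ht)) (fun t ht => hα' t (le_of_lt ht))
  have hsmx : ∀ x, x0 < x → ContDiffAt ℝ ∞ (fun x => α (Real.log (x / x0))) x := by
    intro x hx
    have hxp : 0 < x := hx0.trans hx
    have h1 : ContDiffAt ℝ ∞ (fun x => Real.log (x / x0)) x := by
      refine ContDiffAt.log (by fun_prop) ?_
      positivity
    exact (hsm.contDiffAt (isOpen_Ioi.mem_nhds (hlogpos x hx))).comp x h1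
  have hPtS : ∀ x, x0 < x → ContDiffAt ℝ ∞ Pt x := by
    intro x hx
    have hxp : 0 < x := hx0.trans hx
    exact (contDiffAt_fst.comp x (hsmx x hx)).div contDiffAt_id hxp.ne'
  have hWtS : ∀ x, x0 < x → ContDiffAt ℝ ∞ Wt x := by
    intro x hx
    have hxp : 0 < x := hx0.trans hx
    exact ((contDiffAt_snd.comp x (hsmx x hx)).sub contDiffAt_const).div contDiffAt_id hxp.ne'
  have hx0ε : x0 < ε := by rw [hx0d]; linarith
  refine ⟨ε, hε, Pg, Wg, ?_, ?_, ?_⟩
  · intro x hx
    refine ContDiffAt.contDiffWithinAt ?_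
    rcases lt_or_ge x ε with h | h
    · exact (hP.contDiffAt (isOpen_Ioo.mem_nhds ⟨hx, h⟩)).congr_of_eventuallyEq (hPg1 x h)
    · exact (hPtS x (lt_of_lt_of_le hx0ε h)).congr_of_eventuallyEq (hPg2 x (lt_of_lt_of_le hx0ε h))
  · intro x hx
    refine ContDiffAt.contDiffWithinAt ?_
    rcases lt_or_ge x ε with h | h
    · exact (hW.contDiffAt (isOpen_Ioo.mem_nhds ⟨hx, h⟩)).congr_of_eventuallyEq (hWg1 x h)
    · exact (hWtS x (lt_of_lt_of_le hx0ε h)).congr_of_eventuallyEq (hWg2 x (lt_of_lt_of_le hx0ε h))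
  · intro x hx
    rcases lt_or_ge x ε with h | h
    · exact sys_congr (hPg1 x h) (hWg1 x h) (hsys x ⟨hx, h⟩)
    · have hxx := lt_of_lt_of_le hx0ε h
      have hl := hlogpos x hxx
      exact sys_congr (hPg2 x hxx) (hWg2 x hxx)
        (sys_of_alpha α x0 x hx0 (hx0.trans hxx) (htrap _ hl.le) (hα' _ hl.le))

end Crest.Agent.R236
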