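import Crest.Agent.R236.Skel
import Crest.Agent.H27.Flow

set_option autoImplicit false
open scoped ContDiff
open Set

namespace Crest.Agent.R236.G48

noncomputable def G (z : ℝ × ℝ) : ℝ × ℝ :=
  (z.1 * (1 + z.2 - z.1) / 2,
   z.2 * (9 * (1 - z.2) + z.1 + 12 * z.1 * (2 * z.2 - 1) / (9 + 2 * z.1)) / 2)

noncomputable def pr (z : ℝ × ℝ) : ℝ × ℝ := (max 0 (min z.1 (9/2)), max 0 (min z.2 (7/2)))

def Bx : Set (ℝ × ℝ) := Icc 0 (9/2) ×ˢ Icc 0 (7/2)

def Tr : Set (ℝ × ℝ) := {z | 0 < z.1 ∧ 0 < 9/2 - z.1 ∧ 0 < z.2 ∧ 0 < 1 + 5/9 * z.1 - z.2}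

lemma pr_mem (z : ℝ × ℝ) : pr z ∈ Bx :=
  ⟨⟨le_max_left _ _, max_le (by norm_num) (min_le_right _ _)⟩,
    ⟨le_max_left _ _, max_le (by norm_num) (min_le_right _ _)⟩⟩

lemma pr_eq {z : ℝ × ℝ} (hz : z ∈ Bx) : pr z = z := by
  obtain ⟨⟨a, b⟩, ⟨c, d⟩⟩ := hz
  unfold pr
  rw [min_eq_left b, min_eq_left d, max_eq_right a, max_eq_right c]

lemma Tr_sub {z : ℝ × ℝ} (hz : z ∈ Tr) : z ∈ Bx := by
  obtain ⟨a, b, c, d⟩ := hz
  exact ⟨⟨a.le, by linarith⟩, ⟨c.le, by linarith⟩⟩

lemma G_smooth : ContDiffOn ℝ ∞ G {z | 0 < 9 + 2 * z.1} := by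
  unfold G
  apply ContDiffOn.prodMk
  · fun_prop
  · apply ContDiffOn.div_const
    apply ContDiffOn.mul (by fun_prop)
    apply ContDiffOn.add (by fun_prop)
    apply ContDiffOn.div (by fun_prop) (by fun_prop)
    intro z hz
    exact (ne_of_gt hz)

lemma Bx_sub : Bx ⊆ {z : ℝ × ℝ | 0 < 9 + 2 * z.1} := by
  rintro z ⟨⟨a, _⟩, _⟩
  show 0 < 9 + 2 * z.1
  linarith

lemma Bx_compact : IsCompact Bx := isCompact_Icc.prod isCompact_Icc
lemma Bx_convex : Convex ℝ Bx := (convex_Icc _ _).prod (convex_Icc _ _)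

lemma pr_lip : LipschitzWith 1 pr := by
  have h1 : LipschitzWith 1 (fun z : ℝ × ℝ => max 0 (min z.1 (9/2))) :=
    (LipschitzWith.prod_fst.min_const _).const_max 0
  have h2 : LipschitzWith 1 (fun z : ℝ × ℝ => max 0 (min z.2 (7/2))) :=
    (LipschitzWith.prod_snd.min_const _).const_max 0
  have h3 := h1.prodMk h2
  simp only [max_self] at h3
  exact h3

lemma exists_lip : ∃ K : NNReal, LipschitzWith K (fun z => G (pr z)) := by
  obtain ⟨K, hK⟩ := (G_smooth.mono Bx_sub).exists_lipschitzOnWith (by simp) Bx_convex Bx_compact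
  refine ⟨K, fun a b => ?_⟩
  calc edist (G (pr a)) (G (pr b)) ≤ K * edist (pr a) (pr b) := hK (pr_mem a) (pr_mem b)
    _ ≤ K * edist a b := by
        gcongr
        simpa using pr_lip a b

lemma exists_bd : ∃ C : NNReal, ∀ z, ‖G (pr z)‖ ≤ C := by
  obtain ⟨C, hC⟩ := Bx_compact.exists_bound_of_continuousOn (G_smooth.mono Bx_sub).continuousOn
  refine ⟨⟨max C 0, le_max_right _ _⟩, fun z => ?_⟩
  exact (hC _ (pr_mem z)).trans (le_max_left _ _)

lemma exists_sol (z0 : ℝ × ℝ) : ∃ z : ℝ → ℝ × ℝ, z 0 = z0 ∧ ∀ t, HasDerivAt z (G (pr (z t))) t := by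
  obtain ⟨K, hK⟩ := exists_lip
  obtain ⟨C, hC⟩ := exists_bd
  exact Crest.Agent.H27.exists_global_solution (v := fun _ z => G (pr z)) (fun _ => hK)
    (fun x => continuous_const) (fun _ z => hC z) z0

lemma expmono (C : ℝ) (g g' : ℝ → ℝ) (a b : ℝ) (hab : a ≤ b)
    (hg : ∀ t ∈ Icc a b, HasDerivAt g (g' t) t) (h : ∀ t ∈ Icc a b, 0 ≤ g' t + C * g t) :
    Real.exp (C * a) * g a ≤ Real.exp (C * b) * g b := by
  have hd : ∀ t ∈ Icc a b, HasDerivAt (fun t => Real.exp (C * t) * g t)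
      (Real.exp (C * t) * (g' t + C * g t)) t := by
    intro t ht
    have h1 : HasDerivAt (fun t => Real.exp (C * t)) (Real.exp (C * t) * (C * 1)) t :=
      ((hasDerivAt_id t).const_mul C).exp
    exact (h1.mul (hg t ht)).congr_deriv (by ring)
  have hm : MonotoneOn (fun t => Real.exp (C * t) * g t) (Icc a b) := by
    apply monotoneOn_of_deriv_nonneg (convex_Icc a b)
    · exact fun t ht => (hd t ht).continuousAt.continuousWithinAt
    · exact fun t ht => (hd t (interior_subset ht)).differentiableAt.differentiableWithinAt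
    · intro t ht
      rw [(hd t (interior_subset ht)).deriv]
      exact mul_nonneg (Real.exp_pos _).le (h t (interior_subset ht))
  exact hm (left_mem_Icc.2 hab) (right_mem_Icc.2 hab) hab

lemma ineqs {p v : ℝ} (hp : 0 < p) (hq : 0 < 9/2 - p) (hv : 0 < v) (hh : 0 < 1 + 5/9 * p - v) :
    0 ≤ p * (1 + v - p) / 2 + 30 * p ∧
    0 ≤ -(p * (1 + v - p) / 2) + 30 * (9/2 - p) ∧
    0 ≤ v * (9 * (1 - v) + p + 12 * p * (2 * v - 1) / (9 + 2 * p)) / 2 + 30 * v ∧
    0 ≤ (5/9 * (p * (1 + v - p) / 2)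
        - v * (9 * (1 - v) + p + 12 * p * (2 * v - 1) / (9 + 2 * p)) / 2)
        + 30 * (1 + 5/9 * p - v) := by
  have hD : 0 < 9 + 2 * p := by linarith
  refine ⟨?_, ?_, ?_, ?_⟩
  · have : 0 ≤ p * ((1 + v - p) / 2 + 30) := mul_nonneg hp.le (by linarith)
    linarith
  · have e : -(p * (1 + v - p) / 2) + 30 * (9/2 - p)
        = p / 2 * (1 + 5/9 * p - v) + (9/2 - p) * (30 - 2/9 * p) := by ring
    rw [e]
    have h1 : 0 ≤ p / 2 * (1 + 5/9 * p - v) := by positivity
    have h2 : 0 ≤ (9/2 - p) * (30 - 2/9 * p) := mul_nonneg hq.le (by linarith)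
    linarith
  · have h1 : -6 ≤ 12 * p * (2 * v - 1) / (9 + 2 * p) := by
      rw [le_div_iff₀ hD]
      nlinarith [mul_pos hp hv]
    have : 0 ≤ v * ((9 * (1 - v) + p + 12 * p * (2 * v - 1) / (9 + 2 * p)) / 2 + 30) :=
      mul_nonneg hv.le (by linarith)
    linarith
  · have e : (5/9 * (p * (1 + v - p) / 2)
        - v * (9 * (1 - v) + p + 12 * p * (2 * v - 1) / (9 + 2 * p)) / 2)
        + 30 * (1 + 5/9 * p - v)
        = 10/81 * p * (9/2 - p) + v * (8 * p * (9/2 - p) / (3 * (9 + 2 * p)))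
          + (1 + 5/9 * p - v) * (30 - 5/18 * p - v / 2 * (9 - 24 * p / (9 + 2 * p))) := by
      field_simp
      ring
    rw [e]
    have h0 : 0 ≤ 24 * p / (9 + 2 * p) := by positivity
    have h1 : 0 ≤ 10/81 * p * (9/2 - p) := by positivity
    have h2 : 0 ≤ v * (8 * p * (9/2 - p) / (3 * (9 + 2 * p))) := by positivity
    have h3 : 0 ≤ (1 + 5/9 * p - v) * (30 - 5/18 * p - v / 2 * (9 - 24 * p / (9 + 2 * p))) := by
      apply mul_nonneg hh.le
      have : 0 ≤ v / 2 * (24 * p / (9 + 2 * p)) := by positivity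
      nlinarith
    linarith

lemma Tr_open : IsOpen Tr := by
  unfold Tr
  simp only [setOf_and]
  refine (isOpen_lt (by fun_prop) (by fun_prop)).inter ((isOpen_lt (by fun_prop) (by fun_prop)).inter
    ((isOpen_lt (by fun_prop) (by fun_prop)).inter (isOpen_lt (by fun_prop) (by fun_prop))))

lemma trap (z : ℝ → ℝ × ℝ) (hz : ∀ t, HasDerivAt z (G (pr (z t))) t) (h0 : z 0 ∈ Tr) (b : ℝ) (hb : 0 ≤ b) :
    z b ∈ Tr := by
  have hc : Continuous z := continuous_iff_continuousAt.2 fun t => (hz t).continuousAt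
  have hc1 : Continuous fun t => (z t).1 := continuous_fst.comp hc
  have hc2 : Continuous fun t => (z t).2 := continuous_snd.comp hc
  set A : Set ℝ := {t | (z 0).1 ≤ Real.exp (30 * t) * (z t).1 ∧
    (9/2 - (z 0).1) ≤ Real.exp (30 * t) * (9/2 - (z t).1) ∧
    (z 0).2 ≤ Real.exp (30 * t) * (z t).2 ∧
    (1 + 5/9 * (z 0).1 - (z 0).2) ≤ Real.exp (30 * t) * (1 + 5/9 * (z t).1 - (z t).2)} with hA
  have hAT : ∀ t ∈ A, z t ∈ Tr := by
    rintro t ⟨h1, h2, h3, h4⟩
    obtain ⟨a1, a2, a3, a4⟩ := h0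
    have he := Real.exp_pos (30 * t)
    exact ⟨pos_of_mul_pos_right (lt_of_lt_of_le a1 h1) he.le |> fun h => h,
      pos_of_mul_pos_right (lt_of_lt_of_le a2 h2) he.le,
      pos_of_mul_pos_right (lt_of_lt_of_le a3 h3) he.le,
      pos_of_mul_pos_right (lt_of_lt_of_le a4 h4) he.le⟩
  have hAc : IsClosed A := by
    rw [hA]
    simp only [setOf_and]
    refine (isClosed_le (by fun_prop) (by fun_prop)).inter ((isClosed_le (by fun_prop) (by fun_prop)).inter
      ((isClosed_le (by fun_prop) (by fun_prop)).inter (isClosed_le (by fun_prop) (by fun_prop))))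
  have hsub : Icc 0 b ⊆ A := by
    apply IsClosed.Icc_subset_of_forall_exists_gt (hAc.inter isClosed_Icc)
    · simp [hA]
    · rintro x ⟨hxA, hx⟩ y hy
      have hxT := hAT x hxA
      have hnb : z ⁻¹' Tr ∈ nhds x := hc.continuousAt.preimage_mem_nhds (Tr_open.mem_nhds hxT)
      obtain ⟨δ, hδ, hball⟩ := Metric.mem_nhds_iff.1 hnb
      set r := min y (x + δ / 2) with hr
      have hxr : x < r := lt_min hy (by linarith)
      have hin : ∀ t ∈ Icc x r, z t ∈ Tr := by
        intro t ht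
        apply hball
        rw [Metric.mem_ball, Real.dist_eq, abs_of_nonneg (by linarith [ht.1])]
        have := ht.2.trans (min_le_right _ _)
        linarith
      have hG : ∀ t ∈ Icc x r, HasDerivAt z (G (z t)) t := by
        intro t ht
        have := hz t
        rwa [pr_eq (Tr_sub (hin t ht))] at this
      have hd1 : ∀ t ∈ Icc x r, HasDerivAt (fun t => (z t).1) (G (z t)).1 t := fun t ht => (hG t ht).fst
      have hd2 : ∀ t ∈ Icc x r, HasDerivAt (fun t => (z t).2) (G (z t)).2 t := fun t ht => (hG t ht).snd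
      have e1 := expmono 30 (fun t => (z t).1) (fun t => (G (z t)).1) x r hxr.le hd1 (fun t ht => by
        obtain ⟨a, b, c, d⟩ := hin t ht
        exact (ineqs a b c d).1)
      have e2 := expmono 30 (fun t => 9/2 - (z t).1) (fun t => -(G (z t)).1) x r hxr.le
        (fun t ht => (hd1 t ht).const_sub _) (fun t ht => by
        obtain ⟨a, b, c, d⟩ := hin t ht
        exact (ineqs a b c d).2.1)
      have e3 := expmono 30 (fun t => (z t).2) (fun t => (G (z t)).2) x r hxr.le hd2 (fun t ht => by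
        obtain ⟨a, b, c, d⟩ := hin t ht
        exact (ineqs a b c d).2.2.1)
      have e4 := expmono 30 (fun t => 1 + 5/9 * (z t).1 - (z t).2)
        (fun t => 5/9 * (G (z t)).1 - (G (z t)).2) x r hxr.le
        (fun t ht => by
          have := (((hd1 t ht).const_mul (5/9 : ℝ)).const_add 1).sub (hd2 t ht)
          exact this) (fun t ht => by
        obtain ⟨a, b, c, d⟩ := hin t ht
        exact (ineqs a b c d).2.2.2)
      obtain ⟨f1, f2, f3, f4⟩ := hxA
      exact ⟨r, ⟨f1.trans e1, f2.trans e2, f3.trans e3, f4.trans e4⟩, hxr, min_le_left _ _⟩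
  exact hAT b (hsub ⟨hb, le_rfl⟩)


lemma smooth_z (z : ℝ → ℝ × ℝ) (O : Set ℝ) (hO : IsOpen O)
    (hz : ∀ t ∈ O, HasDerivAt z (G (z t)) t) (hT : ∀ t ∈ O, z t ∈ Tr) : ContDiffOn ℝ ∞ z O := by
  have key : ∀ n : ℕ, ContDiffOn ℝ n z O := by
    intro n
    induction n with
    | zero =>
      exact contDiffOn_zero.2 fun t ht => (hz t ht).continuousAt.continuousWithinAt
    | succ n ih =>
      have h1 : ContDiffOn ℝ n (fun t => G (z t)) O := by
        apply (G_smooth.of_le (by exact_mod_cast le_top)).comp ih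
        intro t ht
        exact Bx_sub (Tr_sub (hT t ht))
      push_cast
      rw [contDiffOn_succ_iff_deriv_of_isOpen hO]
      refine ⟨fun t ht => (hz t ht).differentiableAt.differentiableWithinAt, by simp, ?_⟩
      exact h1.congr fun t ht => (hz t ht).deriv
  exact contDiffOn_infty.2 key

end Crest.Agent.R236.G48

namespace Crest.Agent.R236
open G48

theorem global_sol' (hloc : ∃ ε : ℝ, 0 < ε ∧ ∃ P W : ℝ → ℝ,
    ContDiffOn ℝ ∞ P (Ioo (-ε) ε) ∧ ContDiffOn ℝ ∞ W (Ioo (-ε) ε) ∧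
    (∀ x ∈ Ioo (-ε) ε, SysAt P W x) ∧
    (∀ x ∈ Ioo 0 ε, x * P x < 9 / 2 ∧ W x < 5 / 9 * P x)) :
    ∃ ε : ℝ, 0 < ε ∧ ∃ P W : ℝ → ℝ,
    ContDiffOn ℝ ∞ P (Ioi (-ε)) ∧ ContDiffOn ℝ ∞ W (Ioi (-ε)) ∧
    (∀ x ∈ Ioi (-ε), SysAt P W x) := by
  obtain ⟨ε, hε, P0, W0, hP0, hW0, hS0, hT0⟩ := hloc
  set x0 : ℝ := ε / 2 with hx0
  have hx0p : 0 < x0 := by positivity
  -- the local curve in logarithmic time
  set y : ℝ → ℝ × ℝ := fun s => (x0 * Real.exp s * P0 (x0 * Real.exp s), 1 + x0 * Real.exp s * W0 (x0 * Real.exp s)) with hy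
  have hyx : ∀ s < Real.log 2, x0 * Real.exp s ∈ Ioo 0 ε := by
    intro s hs
    have h2 : Real.exp s < 2 := by
      rw [← Real.exp_log (by norm_num : (0:ℝ) < 2)]
      exact Real.exp_lt_exp.2 hs
    refine ⟨by positivity, ?_⟩
    have := mul_lt_mul_of_pos_left h2 hx0p
    have h3 : x0 * 2 = ε := by rw [hx0]; ring
    linarith
  have hyT : ∀ s < Real.log 2, y s ∈ Tr := by
    intro s hs
    obtain ⟨h0, h1⟩ := hyx s hs
    obtain ⟨a, b, c, -, -⟩ := hS0 _ ⟨by linarith, h1⟩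
    obtain ⟨d, e⟩ := hT0 _ ⟨h0, h1⟩
    refine ⟨mul_pos h0 a, by simp only [hy]; linarith, by simpa [hy] using b, ?_⟩
    simp only [hy]
    have := mul_lt_mul_of_pos_left e h0
    linarith
  have hyd : ∀ s < Real.log 2, HasDerivAt y (G (y s)) s := by
    intro s hs
    obtain ⟨h0, h1⟩ := hyx s hs
    obtain ⟨a, b, c, hP, hW⟩ := hS0 _ ⟨by linarith, h1⟩
    set X := x0 * Real.exp s with hX
    have hXd : HasDerivAt (fun s => x0 * Real.exp s) X s := (Real.hasDerivAt_exp s).const_mul x0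
    have hWd : HasDerivAt W0 (deriv W0 X) X := by
      have hmem : Ioo (-ε) ε ∈ nhds X := Ioo_mem_nhds (by linarith) h1
      exact ((hW0.contDiffAt hmem).differentiableAt (by simp)).hasDerivAt
    have e1 : HasDerivAt (fun s => P0 (x0 * Real.exp s)) (P0 X * (W0 X - P0 X) / 2 * X) s :=
      HasDerivAt.comp s hP hXd
    have e2 : HasDerivAt (fun s => W0 (x0 * Real.exp s)) (deriv W0 X * X) s :=
      HasDerivAt.comp s hWd hXd
    have e3 := hXd.mul e1
    have e4 := (hXd.mul e2).const_add 1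
    refine (e3.prodMk e4).congr_deriv ?_
    simp only [G, hy]
    rw [← hX]
    have c' : 9 + 2 * (X * P0 X) ≠ 0 := by
      have : 0 < 9 + 2 * (X * P0 X) := by linarith
      exact this.ne'
    ext
    · simp only
      ring
    · simp only
      have hW' : deriv W0 X * X = -W0 X + (1 + X * W0 X) *
        (-9 * W0 X + P0 X + 12 * P0 X * (1 + 2 * X * W0 X) / (9 + 2 * X * P0 X)) / 2 := by
        linear_combination hW / 2
      rw [hW', show 9 + 2 * X * P0 X = 9 + 2 * (X * P0 X) by ring]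
      field_simp
      ring
  obtain ⟨K, hK⟩ := exists_lip
  obtain ⟨z, hz0, hz⟩ := exists_sol (y 0)
  have hl2 : 0 < Real.log 2 := Real.log_pos (by norm_num)
  have hzT0 : z 0 ∈ Tr := by rw [hz0]; exact hyT 0 hl2
  have heq : EqOn y z (Ioo (-Real.log 2) (Real.log 2)) := by
    apply ODE_solution_unique_of_mem_Ioo (v := fun _ w => G (pr w)) (s := fun _ => univ) (K := K) (t₀ := 0)
      (fun t _ => hK.lipschitzOnWith) ⟨by linarith, hl2⟩
    · intro t ht
      refine ⟨?_, mem_univ _⟩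
      have := hyd t ht.2
      rwa [← pr_eq (Tr_sub (hyT t ht.2))] at this
    · intro t _
      exact ⟨hz t, mem_univ _⟩
    · exact hz0.symm
  have hzT : ∀ t ∈ Ioi (-Real.log 2), z t ∈ Tr := by
    intro t ht
    rcases le_or_gt 0 t with h | h
    · exact trap z hz hzT0 t h
    · rw [← heq ⟨ht, by linarith⟩]
      exact hyT t (by linarith)
  have hzd : ∀ t ∈ Ioi (-Real.log 2), HasDerivAt z (G (z t)) t := by
    intro t ht
    have := hz t
    rwa [pr_eq (Tr_sub (hzT t ht))] at this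
  have hzs : ContDiffOn ℝ ∞ z (Ioi (-Real.log 2)) := smooth_z z _ isOpen_Ioi hzd hzT
  set P1 : ℝ → ℝ := fun x => (z (Real.log (x / x0))).1 / x with hP1
  set W1 : ℝ → ℝ := fun x => ((z (Real.log (x / x0))).2 - 1) / x with hW1
  have hlogm : ∀ x ∈ Ioi (x0 / 2), Real.log (x / x0) ∈ Ioi (-Real.log 2) := by
    intro x hx
    have hx' : x0 / 2 < x := hx
    show -Real.log 2 < _
    rw [← Real.log_inv]
    apply Real.log_lt_log (by norm_num)
    rw [lt_div_iff₀ hx0p]
    linarith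
  have hlogs : ContDiffOn ℝ ∞ (fun x => Real.log (x / x0)) (Ioi (x0 / 2)) := by
    apply ContDiffOn.log
    · fun_prop
    · intro x hx
      have hx' : x0 / 2 < x := hx
      have : 0 < x / x0 := by apply div_pos _ hx0p; linarith
      exact this.ne'
  have hzl : ContDiffOn ℝ ∞ (fun x => z (Real.log (x / x0))) (Ioi (x0 / 2)) := hzs.comp hlogs hlogm
  have hne : ∀ x ∈ Ioi (x0 / 2), x ≠ 0 := by
    intro x hx
    have hx' : x0 / 2 < x := hx
    have : 0 < x := by linarith
    exact this.ne'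
  have hP1s : ContDiffOn ℝ ∞ P1 (Ioi (x0 / 2)) := hzl.fst.div contDiffOn_id hne
  have hW1s : ContDiffOn ℝ ∞ W1 (Ioi (x0 / 2)) := (hzl.snd.sub contDiffOn_const).div contDiffOn_id hne
  have hS1 : ∀ x ∈ Ioi (x0 / 2), SysAt P1 W1 x := by
    intro x hx
    have hx' : x0 / 2 < x := hx
    have hxp : 0 < x := by linarith
    have hl := hlogm x hx
    obtain ⟨a, b, c, d⟩ := hzT _ hl
    have hzx := hzd _ hl
    have hlx : HasDerivAt (fun x => Real.log (x / x0)) (x⁻¹) x := by
      have h1 : HasDerivAt (fun x : ℝ => x / x0) (1 / x0) x := (hasDerivAt_id x).div_const x0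
      have h2 := h1.log (by positivity : x / x0 ≠ 0)
      refine h2.congr_deriv ?_
      field_simp
    have h1 : HasDerivAt (fun x => (z (Real.log (x / x0))).1) ((G (z (Real.log (x / x0)))).1 * x⁻¹) x :=
      HasDerivAt.comp x (h₂ := fun t => (z t).1) hzx.fst hlx
    have h2 : HasDerivAt (fun x => (z (Real.log (x / x0))).2) ((G (z (Real.log (x / x0)))).2 * x⁻¹) x :=
      HasDerivAt.comp x (h₂ := fun t => (z t).2) hzx.snd hlx
    have h3 := h1.div (hasDerivAt_id x) hxp.ne'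
    have h4 := (h2.sub_const 1).div (hasDerivAt_id x) hxp.ne'
    have hW4 : deriv W1 x = _ := h4.deriv
    set p := (z (Real.log (x / x0))).1 with hp
    set v := (z (Real.log (x / x0))).2 with hv
    have hPx : P1 x = p / x := rfl
    have hWx : W1 x = (v - 1) / x := rfl
    have e1 : x * P1 x = p := by rw [hPx]; field_simp
    have e2 : x * W1 x = v - 1 := by rw [hWx]; field_simp
    have hD : 0 < 9 + 2 * p := by linarith
    refine ⟨by rw [hPx]; positivity, by rw [e2]; linarith, ?_, ?_, ?_⟩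
    · have : 9 + 2 * x * P1 x = 9 + 2 * p := by rw [← e1]; ring
      rw [this]; exact hD
    · refine h3.congr_deriv ?_
      rw [hPx, hWx]
      simp only [G, id]
      rw [← hp, ← hv]
      field_simp
      ring
    · rw [hW4, show (9 : ℝ) + 2 * x * P1 x = 9 + 2 * p by rw [← e1]; ring,
        show (1 : ℝ) + 2 * x * W1 x = 2 * v - 1 by linear_combination 2 * e2, e2, hPx, hWx]
      simp only [G, id]
      rw [← hp, ← hv]
      field_simp
      ring
  have hagree : ∀ x ∈ Ioo (x0 / 2) ε, P0 x = P1 x ∧ W0 x = W1 x := by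
    intro x hx
    have hxp : 0 < x := by linarith [hx.1]
    have hl : Real.log (x / x0) ∈ Ioo (-Real.log 2) (Real.log 2) := by
      refine ⟨hlogm x hx.1, ?_⟩
      apply Real.log_lt_log (by positivity)
      rw [div_lt_iff₀ hx0p]
      have := hx.2
      have h3 : 2 * x0 = ε := by rw [hx0]; ring
      linarith
    have h1 := heq hl
    have h2 : x0 * Real.exp (Real.log (x / x0)) = x := by
      rw [Real.exp_log (by positivity)]
      field_simp
    simp only [hy] at h1
    rw [h2] at h1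
    have h3 := congrArg Prod.fst h1
    have h4 := congrArg Prod.snd h1
    simp only at h3 h4
    constructor
    · simp only [hP1]
      rw [← h3]; field_simp
    · simp only [hW1]
      rw [← h4]; field_simp; ring
  refine ⟨ε, hε, fun x => if x < x0 then P0 x else P1 x, fun x => if x < x0 then W0 x else W1 x, ?_⟩
  have hPl : ∀ x ∈ Ioo (-ε) ε, (if x < x0 then P0 x else P1 x) = P0 x := by
    intro x hx
    split_ifs with h
    · rfl
    · push Not at h
      exact ((hagree x ⟨by linarith, hx.2⟩).1).symm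
  have hWl : ∀ x ∈ Ioo (-ε) ε, (if x < x0 then W0 x else W1 x) = W0 x := by
    intro x hx
    split_ifs with h
    · rfl
    · push Not at h
      exact ((hagree x ⟨by linarith, hx.2⟩).2).symm
  have hPr : ∀ x ∈ Ioi (x0 / 2), (if x < x0 then P0 x else P1 x) = P1 x := by
    intro x hx
    split_ifs with h
    · exact (hagree x ⟨hx, by linarith⟩).1
    · rfl
  have hWr : ∀ x ∈ Ioi (x0 / 2), (if x < x0 then W0 x else W1 x) = W1 x := by
    intro x hx
    split_ifs with h
    · exact (hagree x ⟨hx, by linarith⟩).2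
    · rfl
  have hcov : ∀ x ∈ Ioi (-ε), x ∈ Ioo (-ε) ε ∨ x ∈ Ioi (x0 / 2) := by
    intro x hx
    rcases lt_or_ge x ε with h | h
    · exact Or.inl ⟨hx, h⟩
    · right
      show x0 / 2 < x
      rw [hx0]; linarith
  have sysc : ∀ {P P' W W' : ℝ → ℝ} {O : Set ℝ} {x : ℝ}, IsOpen O → x ∈ O → (∀ x ∈ O, P x = P' x) →
      (∀ x ∈ O, W x = W' x) → SysAt P' W' x → SysAt P W x := by
    intro P P' W W' O x hO hx h1 h2 hS
    have g1 : P =ᶠ[nhds x] P' := Filter.eventually_of_mem (hO.mem_nhds hx) h1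
    have g2 : W =ᶠ[nhds x] W' := Filter.eventually_of_mem (hO.mem_nhds hx) h2
    obtain ⟨a, b, c, d, e⟩ := hS
    unfold SysAt
    rw [h1 x hx, h2 x hx, g2.deriv_eq]
    exact ⟨a, b, c, d.congr_of_eventuallyEq g1, e⟩
  refine ⟨?_, ?_, ?_⟩
  · intro x hx
    rcases hcov x hx with h | h
    · have : ContDiffOn ℝ ∞ (fun x => if x < x0 then P0 x else P1 x) (Ioo (-ε) ε) := hP0.congr hPl
      exact (this.contDiffAt (isOpen_Ioo.mem_nhds h)).contDiffWithinAt
    · have : ContDiffOn ℝ ∞ (fun x => if x < x0 then P0 x else P1 x) (Ioi (x0 / 2)) := hP1s.congr hPr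
      exact (this.contDiffAt (isOpen_Ioi.mem_nhds h)).contDiffWithinAt
  · intro x hx
    rcases hcov x hx with h | h
    · have : ContDiffOn ℝ ∞ (fun x => if x < x0 then W0 x else W1 x) (Ioo (-ε) ε) := hW0.congr hWl
      exact (this.contDiffAt (isOpen_Ioo.mem_nhds h)).contDiffWithinAt
    · have : ContDiffOn ℝ ∞ (fun x => if x < x0 then W0 x else W1 x) (Ioi (x0 / 2)) := hW1s.congr hWr
      exact (this.contDiffAt (isOpen_Ioi.mem_nhds h)).contDiffWithinAt
  · intro x hx
    rcases hcov x hx with h | h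
    · exact sysc isOpen_Ioo h hPl hWl (hS0 x h)
    · exact sysc isOpen_Ioi h hPr hWr (hS1 x h)

end Crest.Agent.R236
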