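import Crest.Agent.H27.Flow

set_option autoImplicit false
open scoped ContDiff NNReal
open Set

namespace Crest.Agent.R236

lemma pos_of_deriv (h h' : ℝ → ℝ) (T c : ℝ) (hT : 0 ≤ T) (h0 : 0 < h 0)
    (hd : ∀ t ∈ Icc 0 T, HasDerivAt h (h' t) t) (hb : ∀ t ∈ Icc 0 T, 0 ≤ h' t + c * h t) :
    0 < h T := by
  have hmono : MonotoneOn (fun t => h t * Real.exp (c * t)) (Icc 0 T) := by
    have hder : ∀ t ∈ Icc (0:ℝ) T, HasDerivAt (fun t => h t * Real.exp (c * t))
        (h' t * Real.exp (c * t) + h t * (Real.exp (c * t) * c)) t := by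
      intro t ht
      have h1 : HasDerivAt (fun t => Real.exp (c * t)) (Real.exp (c * t) * c) t := by
        have := ((hasDerivAt_id t).const_mul c).exp
        simpa using this
      exact (hd t ht).mul h1
    apply monotoneOn_of_deriv_nonneg (convex_Icc 0 T)
    · intro t ht
      exact (hder t ht).continuousAt.continuousWithinAt
    · intro t ht
      exact (hder t (interior_subset ht)).differentiableAt.differentiableWithinAt
    · intro t ht
      rw [(hder t (interior_subset ht)).deriv]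
      have := hb t (interior_subset ht)
      have he := Real.exp_pos (c * t)
      nlinarith
  have h1 := hmono (left_mem_Icc.2 hT) (right_mem_Icc.2 hT) hT
  simp only [mul_zero, Real.exp_zero, mul_one] at h1
  have h2 : 0 < h T * Real.exp (c * T) := lt_of_lt_of_le h0 h1
  exact (pos_iff_pos_of_mul_pos h2).2 (Real.exp_pos _)

/-- the field -/
noncomputable def fld (z : ℝ × ℝ) : ℝ × ℝ :=
  (z.1 * (1 + z.2 - z.1), z.2 * (9 * (1 - z.2) + z.1 + 12 * z.1 * (2 * z.2 - 1) / (9 + 2 * z.1)))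

noncomputable def cla (z : ℝ × ℝ) : ℝ × ℝ := (max 0 (min z.1 (9/2)), max 0 (min z.2 (7/2)))

def box : Set (ℝ × ℝ) := Icc (0:ℝ) (9/2) ×ˢ Icc (0:ℝ) (7/2)

def reg : Set (ℝ × ℝ) := {z | 0 < z.1 ∧ z.1 < 9/2 ∧ 0 < z.2 ∧ z.2 < 1 + 5 * z.1 / 9}

lemma cla_mem (z : ℝ × ℝ) : cla z ∈ box := by
  refine ⟨⟨le_max_left _ _, max_le (by norm_num) (min_le_right _ _)⟩,
    ⟨le_max_left _ _, max_le (by norm_num) (min_le_right _ _)⟩⟩

lemma cla_eq {z : ℝ × ℝ} (h1 : 0 ≤ z.1) (h2 : z.1 ≤ 9/2) (h3 : 0 ≤ z.2) (h4 : z.2 ≤ 1 + 5 * z.1 / 9) :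
    cla z = z := by
  have h5 : z.2 ≤ 7/2 := by linarith
  unfold cla
  rw [min_eq_left h2, min_eq_left h5, max_eq_right h1, max_eq_right h3]

lemma fld_contDiffOn : ContDiffOn ℝ ∞ fld {z | 0 < 9 + 2 * z.1} := by
  unfold fld
  apply ContDiffOn.prodMk
  · fun_prop
  · apply ContDiffOn.mul contDiffOn_snd
    apply ContDiffOn.add (by fun_prop)
    apply ContDiffOn.div (by fun_prop) (by fun_prop)
    intro z hz
    exact ne_of_gt hz

lemma box_sub : box ⊆ {z | 0 < 9 + 2 * z.1} := by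
  intro z hz
  have := hz.1.1
  show 0 < 9 + 2 * z.1
  linarith

lemma cla_lip : LipschitzWith 1 cla := by
  have h1 : LipschitzWith 1 (fun z : ℝ × ℝ => max 0 (min z.1 (9/2))) :=
    (LipschitzWith.prod_fst.min_const (9/2)).const_max 0
  have h2 : LipschitzWith 1 (fun z : ℝ × ℝ => max 0 (min z.2 (7/2))) :=
    (LipschitzWith.prod_snd.min_const (7/2)).const_max 0
  have := h1.prodMk h2
  have e : cla = fun z : ℝ × ℝ => (max 0 (min z.1 (9/2)), max 0 (min z.2 (7/2))) := rfl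
  rw [e]
  simpa using this

lemma box_conv : Convex ℝ box := (convex_Icc _ _).prod (convex_Icc _ _)
lemma box_cpt : IsCompact box := isCompact_Icc.prod isCompact_Icc

lemma fld_cla_lip : ∃ K, LipschitzWith K (fun z => fld (cla z)) := by
  obtain ⟨K, hK⟩ : ∃ K, LipschitzOnWith K fld box :=
    (fld_contDiffOn.mono box_sub).exists_lipschitzOnWith (by simp) box_conv box_cpt
  refine ⟨K * 1, ?_⟩
  rw [← lipschitzOnWith_univ]
  exact hK.comp cla_lip.lipschitzOnWith (fun z _ => cla_mem z)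

lemma cla_reg {z : ℝ × ℝ} (h : z ∈ reg) : cla z = z := cla_eq h.1.le h.2.1.le h.2.2.1.le h.2.2.2.le

theorem flow (z₀ : ℝ × ℝ) (hz : z₀ ∈ reg) :
    ∃ γ : ℝ → ℝ × ℝ, γ 0 = z₀ ∧ (∀ t, HasDerivAt γ (fld (cla (γ t))) t) ∧
      ∀ t, 0 ≤ t → γ t ∈ reg := by
  obtain ⟨K, hK⟩ : ∃ K, LipschitzOnWith K fld box :=
    (fld_contDiffOn.mono box_sub).exists_lipschitzOnWith (by simp) box_conv box_cpt
  have hL : LipschitzWith (K * 1) (fun z => fld (cla z)) := by
    rw [← lipschitzOnWith_univ]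
    exact hK.comp cla_lip.lipschitzOnWith (fun z _ => cla_mem z)
  obtain ⟨C, hC⟩ := box_cpt.exists_bound_of_continuousOn (fld_contDiffOn.mono box_sub).continuousOn
  obtain ⟨γ, h0, hγ⟩ := Crest.Agent.H27.exists_global_solution (v := fun _ z => fld (cla z))
    (fun _ => hL) (fun _ => continuous_const) (C := ⟨max C 0, le_max_right _ _⟩)
    (fun _ z => (hC _ (cla_mem z)).trans (le_max_left _ _)) z₀
  refine ⟨γ, h0, hγ, ?_⟩
  have hcont : Continuous γ := continuous_iff_continuousAt.2 fun t => (hγ t).continuousAt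
  have hopen : IsOpen reg := by
    have e : reg = {z : ℝ × ℝ | 0 < z.1} ∩ ({z : ℝ × ℝ | z.1 < 9/2} ∩ ({z : ℝ × ℝ | 0 < z.2} ∩
      {z : ℝ × ℝ | z.2 < 1 + 5 * z.1 / 9})) := rfl
    rw [e]
    have o1 : IsOpen {z : ℝ × ℝ | 0 < z.1} := isOpen_lt (by fun_prop) (by fun_prop)
    have o2 : IsOpen {z : ℝ × ℝ | z.1 < 9/2} := isOpen_lt (by fun_prop) (by fun_prop)
    have o3 : IsOpen {z : ℝ × ℝ | 0 < z.2} := isOpen_lt (by fun_prop) (by fun_prop)
    have o4 : IsOpen {z : ℝ × ℝ | z.2 < 1 + 5 * z.1 / 9} := isOpen_lt (by fun_prop) (by fun_prop)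
    exact o1.inter (o2.inter (o3.inter o4))
  by_contra hcon
  push Not at hcon
  set S : Set ℝ := {t | 0 ≤ t ∧ γ t ∉ reg} with hS
  have hSne : S.Nonempty := by
    obtain ⟨t, h1, h2⟩ := hcon
    exact ⟨t, h1, h2⟩
  have hSbdd : BddBelow S := ⟨0, fun t ht => ht.1⟩
  have hSclosed : IsClosed S := by
    have : S = Ici 0 ∩ γ ⁻¹' regᶜ := by ext t; simp [hS]
    rw [this]
    exact isClosed_Ici.inter (hopen.isClosed_compl.preimage hcont)
  set T := sInf S with hTdef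
  have hTS : T ∈ S := hSclosed.csInf_mem hSne hSbdd
  have hT0 : 0 < T := by
    rcases hTS.1.lt_or_eq with h | h
    · exact h
    · exfalso
      apply hTS.2
      rw [← h, h0]; exact hz
  have hlt : ∀ t, 0 ≤ t → t < T → γ t ∈ reg := by
    intro t ht htT
    by_contra h
    exact absurd (csInf_le hSbdd (show t ∈ S from ⟨ht, h⟩)) (not_le.2 htT)
  have hcl : ∀ t ∈ Icc 0 T, 0 ≤ (γ t).1 ∧ (γ t).1 ≤ 9/2 ∧ 0 ≤ (γ t).2 ∧ (γ t).2 ≤ 1 + 5 * (γ t).1 / 9 := by
    have hclosed : IsClosed {t | 0 ≤ (γ t).1 ∧ (γ t).1 ≤ 9/2 ∧ 0 ≤ (γ t).2 ∧ (γ t).2 ≤ 1 + 5 * (γ t).1 / 9} := by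
      have o1 : IsClosed {t | 0 ≤ (γ t).1} := isClosed_le (by fun_prop) (by fun_prop)
      have o2 : IsClosed {t | (γ t).1 ≤ 9/2} := isClosed_le (by fun_prop) (by fun_prop)
      have o3 : IsClosed {t | 0 ≤ (γ t).2} := isClosed_le (by fun_prop) (by fun_prop)
      have o4 : IsClosed {t | (γ t).2 ≤ 1 + 5 * (γ t).1 / 9} := isClosed_le (by fun_prop) (by fun_prop)
      exact o1.inter (o2.inter (o3.inter o4))
    have h1 : Ico 0 T ⊆ {t | 0 ≤ (γ t).1 ∧ (γ t).1 ≤ 9/2 ∧ 0 ≤ (γ t).2 ∧ (γ t).2 ≤ 1 + 5 * (γ t).1 / 9} := by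
      intro t ht
      obtain ⟨a, b, c, d⟩ := hlt t ht.1 ht.2
      exact ⟨a.le, b.le, c.le, d.le⟩
    have h2 := hclosed.closure_subset_iff.2 h1
    rw [closure_Ico hT0.ne] at h2
    exact h2
  have hp : ∀ t ∈ Icc 0 T, HasDerivAt (fun t => (γ t).1) ((γ t).1 * (1 + (γ t).2 - (γ t).1)) t := by
    intro t ht
    obtain ⟨a, b, c, d⟩ := hcl t ht
    have := (hγ t).fst
    simp only [cla_eq a b c d, fld] at this
    exact this
  have hv : ∀ t ∈ Icc 0 T, HasDerivAt (fun t => (γ t).2) ((γ t).2 * (9 * (1 - (γ t).2) + (γ t).1 +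
      12 * (γ t).1 * (2 * (γ t).2 - 1) / (9 + 2 * (γ t).1))) t := by
    intro t ht
    obtain ⟨a, b, c, d⟩ := hcl t ht
    have := (hγ t).snd
    simp only [cla_eq a b c d, fld] at this
    exact this
  obtain ⟨z1, z2, z3, z4⟩ := hz
  apply hTS.2
  refine ⟨?_, ?_, ?_, ?_⟩
  · apply pos_of_deriv (fun t => (γ t).1) _ T 7 hT0.le (by simpa [h0] using z1) hp
    intro t ht
    obtain ⟨a, b, c, d⟩ := hcl t ht
    nlinarith [mul_nonneg a c, mul_nonneg a a, mul_nonneg a (sub_nonneg.2 b)]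
  · have := pos_of_deriv (fun t => 9/2 - (γ t).1) _ T 2 hT0.le (by simpa [h0] using z2)
      (fun t ht => (hp t ht).const_sub (9/2)) (by
        intro t ht
        obtain ⟨a, b, c, d⟩ := hcl t ht
        have e1 : (γ t).1 * (γ t).2 ≤ (γ t).1 * (1 + 5 * (γ t).1 / 9) := mul_le_mul_of_nonneg_left d a
        nlinarith [mul_nonneg (sub_nonneg.2 b) (sub_nonneg.2 b)])
    linarith
  · apply pos_of_deriv (fun t => (γ t).2) _ T 30 hT0.le (by simpa [h0] using z3) hv
    intro t ht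
    obtain ⟨a, b, c, d⟩ := hcl t ht
    have hD : 0 < 9 + 2 * (γ t).1 := by linarith
    obtain ⟨r, hr⟩ : ∃ r, r = (γ t).1 / (9 + 2 * (γ t).1) := ⟨_, rfl⟩
    have hr0 : 0 ≤ r := hr ▸ div_nonneg a hD.le
    have hr1 : r ≤ 1/4 := by
      rw [hr, div_le_iff₀ hD]; linarith
    have e : 12 * (γ t).1 * (2 * (γ t).2 - 1) / (9 + 2 * (γ t).1) = 12 * r * (2 * (γ t).2 - 1) := by
      rw [hr]; field_simp
    rw [e]
    have e2 : 0 ≤ 9 * (1 - (γ t).2) + (γ t).1 + 12 * r * (2 * (γ t).2 - 1) + 30 := by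
      nlinarith [mul_nonneg hr0 c]
    have := mul_nonneg c e2
    nlinarith
  · have := pos_of_deriv (fun t => 1 + 5 * (γ t).1 / 9 - (γ t).2) _ T 60 hT0.le
      (by simp only [h0]; linarith)
      (fun t ht => ((((hp t ht).const_mul 5).div_const 9).const_add 1).sub (hv t ht)) (by
        intro t ht
        obtain ⟨a, b, c, d⟩ := hcl t ht
        have hD : 0 < 9 + 2 * (γ t).1 := by linarith
        obtain ⟨r, hr⟩ : ∃ r, r = (γ t).1 / (9 + 2 * (γ t).1) := ⟨_, rfl⟩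
        have hr0 : 0 ≤ r := hr ▸ div_nonneg a hD.le
        have hr1 : r ≤ 1/4 := by
          rw [hr, div_le_iff₀ hD]; linarith
        have e : 12 * (γ t).1 * (2 * (γ t).2 - 1) / (9 + 2 * (γ t).1) = 12 * r * (2 * (γ t).2 - 1) := by
          rw [hr]; field_simp
        have hrD : r * (9 + 2 * (γ t).1) = (γ t).1 := by rw [hr]; field_simp
        rw [e]
        generalize (γ t).1 = p at *
        generalize (γ t).2 = v at *
        obtain ⟨q, hq⟩ : ∃ q, q = 1 + 5 * p / 9 - v := ⟨_, rfl⟩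
        have hq0 : 0 ≤ q := by rw [hq]; linarith
        have hA : 0 ≤ (5/9) * p * (2 - 4 * p / 9) - (1 + 5 * p / 9) * (-4 * p + 12 * r * (1 + 10 * p / 9)) := by
          have hAD : ((5/9) * p * (2 - 4 * p / 9) - (1 + 5 * p / 9) * (-4 * p + 12 * r * (1 + 10 * p / 9))) * (9 + 2 * p)
              = p * ((20/81) * (9/2 - p) * (9 + 2 * p) + (1 + 5 * p / 9) * ((16/3) * (9/2 - p))) := by
            have : 12 * r * (9 + 2 * p) = 12 * p := by linarith
            linear_combination (-(1 + 5 * p / 9) * (1 + 10 * p / 9)) * this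
          have h9 : 0 ≤ 9/2 - p := by linarith
          have : 0 ≤ ((5/9) * p * (2 - 4 * p / 9) - (1 + 5 * p / 9) * (-4 * p + 12 * r * (1 + 10 * p / 9))) * (9 + 2 * p) := by
            rw [hAD]; positivity
          exact nonneg_of_mul_nonneg_left this hD
        have hB : 0 ≤ -(5/9) * p + (-4 * p + 12 * r * (1 + 10 * p / 9)) - v * (9 - 24 * r) + 60 := by
          have h1 : 0 ≤ v * r := mul_nonneg c hr0
          have h2 : 0 ≤ p * r := mul_nonneg a hr0
          nlinarith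
        have hBq := mul_nonneg hB hq0
        have : 5 * (p * (1 + v - p)) / 9 - v * (9 * (1 - v) + p + 12 * r * (2 * v - 1)) +
            60 * (1 + 5 * p / 9 - v) = ((5/9) * p * (2 - 4 * p / 9) - (1 + 5 * p / 9) * (-4 * p + 12 * r * (1 + 10 * p / 9)))
            + (-(5/9) * p + (-4 * p + 12 * r * (1 + 10 * p / 9)) - v * (9 - 24 * r) + 60) * q := by
          rw [hq]; ring
        rw [this]
        linarith)
    linarith

end Crest.Agent.R236
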