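import Crest.Agent.R236.Skel
import Crest.Agent.R236.Glob50a

set_option autoImplicit false
open scoped ContDiff NNReal Topology
open Set Filter

namespace Crest.Agent.R236

lemma smooth_curve (γ : ℝ → ℝ × ℝ) (hr : ∀ t, γ t ∈ reg) (hγ : ∀ t, HasDerivAt γ (fld (γ t)) t) :
    ContDiff ℝ ∞ γ := by
  rw [contDiff_infty]
  intro n
  induction n with
  | zero =>
    have : Continuous γ := continuous_iff_continuousAt.2 fun t => (hγ t).continuousAt
    exact contDiff_zero.2 this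
  | succ n ih =>
    have hd : deriv γ = fun t => fld (γ t) := funext fun t => (hγ t).deriv
    have : ContDiff ℝ ((n : ℕ∞ω) + 1) γ := by
      rw [contDiff_succ_iff_deriv]
      refine ⟨fun t => (hγ t).differentiableAt, by simp, ?_⟩
      rw [hd]
      rw [← contDiffOn_univ]
      exact (fld_contDiffOn.of_le (by exact_mod_cast le_top)).comp ih.contDiffOn (fun t _ => by
        have := (hr t).1
        show 0 < 9 + 2 * (γ t).1
        linarith)
    exact_mod_cast this

theorem global_of_local (hlocal : ∃ ε : ℝ, 0 < ε ∧ ∃ P W : ℝ → ℝ,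
    ContDiffOn ℝ ∞ P (Ioo (-ε) ε) ∧ ContDiffOn ℝ ∞ W (Ioo (-ε) ε) ∧
    (∀ x ∈ Ioo (-ε) ε, SysAt P W x) ∧
    (∀ x ∈ Ioo 0 ε, x * P x < 9 / 2 ∧ W x < 5 / 9 * P x)) :
    ∃ ε : ℝ, 0 < ε ∧ ∃ P W : ℝ → ℝ,
    ContDiffOn ℝ ∞ P (Ioi (-ε)) ∧ ContDiffOn ℝ ∞ W (Ioi (-ε)) ∧
    (∀ x ∈ Ioi (-ε), SysAt P W x) := by
  obtain ⟨ε, hε, P, W, hP, hW, hS, hR⟩ := hlocal
  obtain ⟨x0, hx0⟩ : ∃ x0, x0 = ε / 2 := ⟨_, rfl⟩
  have hx0p : 0 < x0 := by rw [hx0]; linarith
  obtain ⟨c, hcdef⟩ : ∃ c : ℝ → ℝ × ℝ, c = fun s => (x0 * Real.exp (2 * s) * P (x0 * Real.exp (2 * s)),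
    1 + x0 * Real.exp (2 * s) * W (x0 * Real.exp (2 * s))) := ⟨_, rfl⟩
  have hxs : ∀ s, s < Real.log 2 / 2 → x0 * Real.exp (2 * s) ∈ Ioo 0 ε := by
    intro s hs
    have h1 : Real.exp (2 * s) < 2 := by
      rw [← Real.lt_log_iff_exp_lt (by norm_num)]; linarith
    constructor
    · have := Real.exp_pos (2 * s); positivity
    · rw [hx0]; nlinarith
  have hcr : ∀ s, s < Real.log 2 / 2 → c s ∈ reg := by
    intro s hs
    have h1 := hxs s hs
    obtain ⟨a1, a2⟩ := hR _ h1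
    obtain ⟨b1, b2, b3, -, -⟩ := hS _ ⟨by linarith [h1.1], h1.2⟩
    rw [hcdef]
    refine ⟨mul_pos h1.1 b1, a1, b2, ?_⟩
    have := mul_lt_mul_of_pos_left a2 h1.1
    show 1 + x0 * Real.exp (2 * s) * W (x0 * Real.exp (2 * s)) <
      1 + 5 * (x0 * Real.exp (2 * s) * P (x0 * Real.exp (2 * s))) / 9
    linarith
  have hcd : ∀ s, s < Real.log 2 / 2 → HasDerivAt c (fld (c s)) s := by
    intro s hs
    have h1 := hxs s hs
    obtain ⟨b1, b2, b3, b4, b5⟩ := hS _ ⟨by linarith [h1.1], h1.2⟩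
    have hWd : HasDerivAt W (deriv W (x0 * Real.exp (2 * s))) (x0 * Real.exp (2 * s)) :=
      ((hW.contDiffAt (Ioo_mem_nhds (by linarith [h1.1]) h1.2)).differentiableAt (by simp)).hasDerivAt
    have he : HasDerivAt (fun s => x0 * Real.exp (2 * s)) (2 * (x0 * Real.exp (2 * s))) s := by
      have := (((hasDerivAt_id s).const_mul 2).exp).const_mul x0
      refine this.congr_deriv ?_
      simp; ring
    have hPc := b4.comp s he
    have hWc := hWd.comp s he
    have hfin := (he.mul hPc).prodMk ((he.mul hWc).const_add 1)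
    rw [hcdef]
    refine hfin.congr_deriv ?_
    simp only [fld, Function.comp_apply]
    generalize x0 * Real.exp (2 * s) = x at *
    apply Prod.ext
    · simp only; ring
    · simp only
      have : 2 * x * W x + x * (deriv W x * (2 * x)) = x * (2 * W x + 2 * x * deriv W x) := by ring
      rw [this, b5]
      have b3' : 9 + 2 * x * P x ≠ 0 := b3.ne'
      have b3'' : 9 + 2 * (x * P x) ≠ 0 := by rw [← mul_assoc]; exact b3'
      field_simp
      ring
  obtain ⟨γ, h0, hγ, hγr⟩ := flow (c 0) (hcr 0 (by have := Real.log_pos (show (1:ℝ) < 2 by norm_num); linarith))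
  have hlog : 0 < Real.log 2 / 2 := by have := Real.log_pos (show (1:ℝ) < 2 by norm_num); linarith
  obtain ⟨K, hK⟩ := fld_cla_lip
  have hagree : ∀ s, s < Real.log 2 / 2 → γ s = c s := by
    intro s hs
    have hmin : min s 0 - 1 < 0 := by have := min_le_right s 0; linarith
    have := ODE_solution_unique_of_mem_Ioo (v := fun _ z => fld (cla z)) (s := fun _ => univ) (K := K)
      (f := γ) (g := c) (a := min s 0 - 1) (b := Real.log 2 / 2) (t₀ := 0)
      (fun t _ => hK.lipschitzOnWith) ⟨hmin, hlog⟩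
      (fun t _ => ⟨hγ t, mem_univ _⟩)
      (fun t ht => ⟨by
        have := hcd t ht.2
        simp only [cla_reg (hcr t ht.2)]
        exact this, mem_univ _⟩)
      h0
    exact this ⟨by have := min_le_left s 0; linarith, hs⟩
  have hall : ∀ s, γ s ∈ reg := by
    intro s
    rcases lt_or_ge s (Real.log 2 / 2) with h | h
    · rw [hagree s h]; exact hcr s h
    · exact hγr s (by linarith)
  have hγ' : ∀ t, HasDerivAt γ (fld (γ t)) t := by
    intro t
    have := hγ t
    rwa [cla_reg (hall t)] at this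
  have hsm := smooth_curve γ hall hγ'
  obtain ⟨S, hSdef⟩ : ∃ S : ℝ → ℝ, S = fun x => Real.log (x / x0) / 2 := ⟨_, rfl⟩
  obtain ⟨Pt, hPt⟩ : ∃ Pt : ℝ → ℝ, Pt = fun x => (γ (S x)).1 / x := ⟨_, rfl⟩
  obtain ⟨Wt, hWt⟩ : ∃ Wt : ℝ → ℝ, Wt = fun x => ((γ (S x)).2 - 1) / x := ⟨_, rfl⟩
  have hSsm : ContDiffOn ℝ ∞ S (Ioi 0) := by
    rw [hSdef]
    apply ContDiffOn.div_const
    apply ContDiffOn.log
    · fun_prop
    · intro x hx
      exact (div_pos hx hx0p).ne'
  have hPts : ContDiffOn ℝ ∞ Pt (Ioi 0) := by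
    rw [hPt]
    apply ContDiffOn.div
    · exact (contDiff_fst.comp hsm).comp_contDiffOn hSsm
    · fun_prop
    · intro x hx; exact ne_of_gt hx
  have hWts : ContDiffOn ℝ ∞ Wt (Ioi 0) := by
    rw [hWt]
    apply ContDiffOn.div
    · exact ((contDiff_snd.comp hsm).comp_contDiffOn hSsm).sub contDiffOn_const
    · fun_prop
    · intro x hx; exact ne_of_gt hx
  have hSd : ∀ x, 0 < x → HasDerivAt S (1 / (2 * x)) x := by
    intro x hx
    rw [hSdef]
    have h1 : HasDerivAt (fun x => Real.log (x / x0)) ((1 / x0) / (x / x0)) x :=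
      ((hasDerivAt_id x).div_const x0).log (div_pos hx hx0p).ne'
    refine (h1.div_const 2).congr_deriv ?_
    field_simp
  have hsysT : ∀ x, 0 < x → SysAt Pt Wt x := by
    intro x hx
    obtain ⟨r1, r2, r3, r4⟩ := hall (S x)
    have hp0 : HasDerivAt (fun t => (γ t).1) (fld (γ (S x))).1 (S x) := (hγ' (S x)).fst
    have hv0 : HasDerivAt (fun t => (γ t).2) (fld (γ (S x))).2 (S x) := (hγ' (S x)).snd
    have hp : HasDerivAt (fun x => (γ (S x)).1) ((fld (γ (S x))).1 * (1 / (2 * x))) x :=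
      HasDerivAt.comp x hp0 (hSd x hx)
    have hv : HasDerivAt (fun x => (γ (S x)).2) ((fld (γ (S x))).2 * (1 / (2 * x))) x :=
      HasDerivAt.comp x hv0 (hSd x hx)
    have hPd : HasDerivAt Pt (((fld (γ (S x))).1 * (1 / (2 * x)) * x - (γ (S x)).1 * 1) / x ^ 2) x := by
      rw [hPt]; exact hp.div (hasDerivAt_id x) hx.ne'
    have hWd : HasDerivAt Wt (((fld (γ (S x))).2 * (1 / (2 * x)) * x - ((γ (S x)).2 - 1) * 1) / x ^ 2) x := by
      rw [hWt]; exact (hv.sub_const 1).div (hasDerivAt_id x) hx.ne'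
    have e1 : Pt x = (γ (S x)).1 / x := by rw [hPt]
    have e2 : Wt x = ((γ (S x)).2 - 1) / x := by rw [hWt]
    have hx' : x ≠ 0 := hx.ne'
    have e3 : 1 + x * Wt x = (γ (S x)).2 := by rw [e2]; field_simp; ring
    have e4 : 9 + 2 * x * Pt x = 9 + 2 * (γ (S x)).1 := by rw [e1]; field_simp
    refine ⟨?_, ?_, ?_, ?_, ?_⟩
    · rw [e1]; exact div_pos r1 hx
    · rw [e3]; exact r3
    · rw [e4]; linarith
    · refine hPd.congr_deriv ?_
      rw [e1, e2]
      simp only [fld, Function.comp_apply, id]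
      field_simp
      ring
    · rw [hWd.deriv, e3, e4]
      rw [e1, e2]
      simp only [fld, Function.comp_apply, id]
      have : 9 + 2 * (γ (S x)).1 ≠ 0 := by linarith
      field_simp
      ring
  have heq : ∀ x, 0 < x → x < ε → Pt x = P x ∧ Wt x = W x := by
    intro x h1 h2
    have hs : S x < Real.log 2 / 2 := by
      rw [hSdef]
      have : Real.log (x / x0) < Real.log 2 := by
        apply Real.log_lt_log (div_pos h1 hx0p)
        rw [div_lt_iff₀ hx0p, hx0]; linarith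
      simp only; linarith
    have hx : x0 * Real.exp (2 * S x) = x := by
      rw [hSdef]
      have : 2 * (Real.log (x / x0) / 2) = Real.log (x / x0) := by ring
      simp only [this]
      rw [Real.exp_log (div_pos h1 hx0p)]
      field_simp
    have h3 := hagree (S x) hs
    rw [hcdef] at h3
    simp only [hx] at h3
    constructor
    · rw [hPt]; simp only [h3]; field_simp
    · rw [hWt]; simp only [h3]; field_simp; ring
  refine ⟨ε, hε, fun x => if x < ε then P x else Pt x, fun x => if x < ε then W x else Wt x, ?_⟩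
  have hP1 : ∀ x ∈ Ioo (-ε) ε, (fun x => if x < ε then P x else Pt x) =ᶠ[𝓝 x] P := by
    intro x hx
    filter_upwards [Iio_mem_nhds hx.2] with y hy
    simp [mem_Iio.1 hy]
  have hW1 : ∀ x ∈ Ioo (-ε) ε, (fun x => if x < ε then W x else Wt x) =ᶠ[𝓝 x] W := by
    intro x hx
    filter_upwards [Iio_mem_nhds hx.2] with y hy
    simp [mem_Iio.1 hy]
  have hP2 : ∀ x, 0 < x → (fun x => if x < ε then P x else Pt x) =ᶠ[𝓝 x] Pt := by
    intro x hx
    filter_upwards [Ioi_mem_nhds hx] with y hy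
    by_cases h : y < ε
    · simp [h, (heq y hy h).1]
    · simp [h]
  have hW2 : ∀ x, 0 < x → (fun x => if x < ε then W x else Wt x) =ᶠ[𝓝 x] Wt := by
    intro x hx
    filter_upwards [Ioi_mem_nhds hx] with y hy
    by_cases h : y < ε
    · simp [h, (heq y hy h).2]
    · simp [h]
  refine ⟨?_, ?_, ?_⟩
  · intro x hx
    apply ContDiffAt.contDiffWithinAt
    rcases lt_or_ge x ε with h | h
    · exact (hP.contDiffAt (Ioo_mem_nhds hx h)).congr_of_eventuallyEq (hP1 x ⟨hx, h⟩)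
    · have h' : 0 < x := by linarith
      exact (hPts.contDiffAt (Ioi_mem_nhds h')).congr_of_eventuallyEq (hP2 x h')
  · intro x hx
    apply ContDiffAt.contDiffWithinAt
    rcases lt_or_ge x ε with h | h
    · exact (hW.contDiffAt (Ioo_mem_nhds hx h)).congr_of_eventuallyEq (hW1 x ⟨hx, h⟩)
    · have h' : 0 < x := by linarith
      exact (hWts.contDiffAt (Ioi_mem_nhds h')).congr_of_eventuallyEq (hW2 x h')
  · intro x hx
    have tr : ∀ (A B A' B' : ℝ → ℝ), A =ᶠ[𝓝 x] A' → B =ᶠ[𝓝 x] B' → SysAt A' B' x → SysAt A B x := by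
      intro A B A' B' hA hB h
      unfold SysAt at h ⊢
      rw [hA.eq_of_nhds, hB.eq_of_nhds, hB.deriv_eq]
      exact ⟨h.1, h.2.1, h.2.2.1, h.2.2.2.1.congr_of_eventuallyEq hA, h.2.2.2.2⟩
    rcases lt_or_ge x ε with h | h
    · exact tr _ _ _ _ (hP1 x ⟨hx, h⟩) (hW1 x ⟨hx, h⟩) (hS x ⟨hx, h⟩)
    · have h' : 0 < x := by linarith
      exact tr _ _ _ _ (hP2 x h') (hW2 x h') (hsysT x h')

theorem global_sol' : ∃ ε : ℝ, 0 < ε ∧ ∃ P W : ℝ → ℝ,
    ContDiffOn ℝ ∞ P (Ioi (-ε)) ∧ ContDiffOn ℝ ∞ W (Ioi (-ε)) ∧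
    (∀ x ∈ Ioi (-ε), SysAt P W x) := global_of_local local_sol

end Crest.Agent.R236
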