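import Crest.Agent.R236.Skel

set_option autoImplicit false
open scoped ContDiff NNReal
open Set Metric

namespace Crest.Agent.R236.G76


theorem glob {E : Type*} [NormedAddCommGroup E] [NormedSpace ℝ E] [CompleteSpace E]
    (v : E → E) (K C : ℝ≥0) (hv : LipschitzWith K v) (hC : ∀ x, ‖v x‖ ≤ C) (x0 : E) :
    ∃ α : ℝ → E, α 0 = x0 ∧ ∀ t, HasDerivAt α (v (α t)) t := by
  have key : ∀ n : ℕ, ∃ α : ℝ → E, α 0 = x0 ∧ ∀ t ∈ Icc (-(n + 1 : ℝ)) (n + 1),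
      HasDerivWithinAt α (v (α t)) (Icc (-(n + 1 : ℝ)) (n + 1)) t := by
    intro n
    have h0 : (0 : ℝ) ∈ Icc (-(n + 1 : ℝ)) (n + 1) := ⟨by linarith [Nat.cast_nonneg (α := ℝ) n], by positivity⟩
    have hpl : IsPicardLindelof (fun _ => v) (⟨0, h0⟩ : Icc (-(n + 1 : ℝ)) (n + 1)) x0
        (C * (n + 1)) 0 C K :=
      { lipschitzOnWith := fun _ _ => hv.lipschitzOnWith
        continuousOn := fun _ _ => continuousOn_const
        norm_le := fun _ _ x _ => hC x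
        mul_max_le := by simp }
    exact hpl.exists_eq_forall_mem_Icc_hasDerivWithinAt₀
  choose α hα0 hα using key
  have hd : ∀ n : ℕ, ∀ t ∈ Ioo (-(n + 1 : ℝ)) (n + 1), HasDerivAt (α n) (v (α n t)) t :=
    fun n t ht => (hα n t (Ioo_subset_Icc_self ht)).hasDerivAt (Icc_mem_nhds ht.1 ht.2)
  have hu : ∀ n m : ℕ, n ≤ m → EqOn (α n) (α m) (Ioo (-(n + 1 : ℝ)) (n + 1)) := by
    intro n m hnm
    have hc : (n : ℝ) ≤ m := by exact_mod_cast hnm
    refine ODE_solution_unique_of_mem_Ioo (v := fun _ => v) (s := fun _ => univ) (K := K)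
      (t₀ := 0) (fun _ _ => hv.lipschitzOnWith) ⟨by linarith [Nat.cast_nonneg (α := ℝ) n], by positivity⟩
      (fun t ht => ⟨hd n t ht, trivial⟩)
      (fun t ht => ⟨hd m t ⟨by linarith [ht.1], by linarith [ht.2]⟩, trivial⟩) (by rw [hα0, hα0])
  refine ⟨fun t => α ⌈|t|⌉₊ t, by simpa using hα0 0, fun t => ?_⟩
  have hN : |t| < (⌈|t|⌉₊ + 1 : ℕ) := by
    push_cast; linarith [Nat.le_ceil |t|]
  have hev : (fun s => α ⌈|s|⌉₊ s) =ᶠ[nhds t] α (⌈|t|⌉₊ + 1) := by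
    have : ∀ᶠ s : ℝ in nhds t, |s| < (⌈|t|⌉₊ + 1 : ℕ) := (continuous_abs.tendsto t).eventually_lt_const hN
    filter_upwards [this] with s hs
    have h1 : ⌈|s|⌉₊ ≤ ⌈|t|⌉₊ + 1 := Nat.ceil_le.2 hs.le
    have h2 : |s| < ⌈|s|⌉₊ + 1 := by linarith [Nat.le_ceil |s|]
    exact hu _ _ h1 (abs_lt.1 h2 |> fun h => ⟨h.1, h.2⟩)
  have hval : α ⌈|t|⌉₊ t = α (⌈|t|⌉₊ + 1) t := hev.self_of_nhds
  have hder := hd (⌈|t|⌉₊ + 1) t (by
    have := abs_lt.1 hN
    push_cast at this ⊢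
    constructor <;> linarith [this.1, this.2])
  rw [show (fun t => α ⌈|t|⌉₊ t) t = α (⌈|t|⌉₊ + 1) t from hval]
  exact hder.congr_of_eventuallyEq hev



theorem pos_of_lin (y y' : ℝ → ℝ) (T C : ℝ) (hT : 0 ≤ T) (hy : ∀ t, HasDerivAt y (y' t) t)
    (h : ∀ t ∈ Ioo 0 T, - C * y t ≤ y' t) (h0 : 0 < y 0) : 0 < y T := by
  have hz : ∀ t, HasDerivAt (fun t => y t * Real.exp (C * t)) ((y' t + C * y t) * Real.exp (C * t)) t := by
    intro t
    have h1 : HasDerivAt (fun t : ℝ => Real.exp (C * t)) (Real.exp (C * t) * (C * 1)) t :=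
      ((hasDerivAt_id t).const_mul C).exp
    have h2 := (hy t).mul h1
    have e : (y' t + C * y t) * Real.exp (C * t) = y' t * Real.exp (C * t) + y t * (Real.exp (C * t) * (C * 1)) := by ring
    rw [e]; exact h2
  have hm : MonotoneOn (fun t => y t * Real.exp (C * t)) (Icc 0 T) := by
    refine monotoneOn_of_deriv_nonneg (convex_Icc 0 T)
      (fun t _ => (hz t).continuousAt.continuousWithinAt)
      (fun t _ => (hz t).differentiableAt.differentiableWithinAt) ?_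
    intro t ht
    rw [interior_Icc] at ht
    rw [(hz t).deriv]
    have := h t ht
    exact mul_nonneg (by linarith) (Real.exp_pos _).le
  have := hm ⟨le_rfl, hT⟩ ⟨hT, le_rfl⟩ hT
  simp only [mul_zero, Real.exp_zero, mul_one] at this
  have h3 : 0 < y T * Real.exp (C * T) := lt_of_lt_of_le h0 this
  exact (mul_pos_iff_of_pos_right (Real.exp_pos _)).1 h3

noncomputable def F1 (p v : ℝ) : ℝ := p * (1 + v - p)
noncomputable def F2 (p v : ℝ) : ℝ := v * (9 * (1 - v) + p + 12 * p * (2 * v - 1) / (9 + 2 * p))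

def InG (z : ℝ × ℝ) : Prop := 0 < z.1 ∧ 0 < z.2 ∧ z.1 < 9 / 2 ∧ z.2 < 1 + 5 / 9 * z.1

theorem b1 (p v : ℝ) (h : InG (p, v)) : -100 * p ≤ F1 p v := by
  obtain ⟨h1, h2, h3, h4⟩ := h
  simp only at h1 h2 h3 h4
  unfold F1; nlinarith

theorem b2 (p v : ℝ) (h : InG (p, v)) : -100 * v ≤ F2 p v := by
  obtain ⟨h1, h2, h3, h4⟩ := h
  simp only at h1 h2 h3 h4
  unfold F2
  have h9 : (0:ℝ) < 9 + 2 * p := by linarith
  have h5 : -6 ≤ 12 * p * (2 * v - 1) / (9 + 2 * p) := by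
    rw [le_div_iff₀ h9]; nlinarith [mul_pos h1 h2]
  nlinarith

theorem b3 (p v : ℝ) (h : InG (p, v)) : -100 * (9 / 2 - p) ≤ - F1 p v := by
  obtain ⟨h1, h2, h3, h4⟩ := h
  simp only at h1 h2 h3 h4
  unfold F1
  nlinarith [mul_pos h1 (sub_pos.2 h4), mul_pos h1 (sub_pos.2 h3), mul_pos (sub_pos.2 h3) (sub_pos.2 h3)]

theorem b4 (p v : ℝ) (h : InG (p, v)) : -100 * (1 + 5 / 9 * p - v) ≤ 5 / 9 * F1 p v - F2 p v := by
  obtain ⟨h1, h2, h3, h4⟩ := h
  simp only at h1 h2 h3 h4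
  have h9 : (0:ℝ) < 9 + 2 * p := by linarith
  have hu : 0 < 1 + 5 / 9 * p - v := by linarith
  have hq : 0 < 9 / 2 - p := by linarith
  have e : 5 / 9 * F1 p v - F2 p v = 20 / 81 * p * (9 / 2 - p) - 5 / 9 * p * (1 + 5 / 9 * p - v)
      + (16 * p * (9 / 2 - p) * v / 3) / (9 + 2 * p)
      - v * (1 + 5 / 9 * p - v) * ((81 - 6 * p) / (9 + 2 * p)) := by
    unfold F1 F2; field_simp; ring
  rw [e]
  have a1 : 0 ≤ 20 / 81 * p * (9 / 2 - p) := by positivity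
  have a2 : 0 ≤ (16 * p * (9 / 2 - p) * v / 3) / (9 + 2 * p) := by positivity
  have a3 : (81 - 6 * p) / (9 + 2 * p) ≤ 9 := by rw [div_le_iff₀ h9]; nlinarith
  have a4 : v * (1 + 5 / 9 * p - v) * ((81 - 6 * p) / (9 + 2 * p)) ≤ v * (1 + 5 / 9 * p - v) * 9 :=
    mul_le_mul_of_nonneg_left a3 (by positivity)
  have a5 : 5 / 9 * p * (1 + 5 / 9 * p - v) ≤ 5 / 2 * (1 + 5 / 9 * p - v) := by nlinarith
  have a6 : v * (1 + 5 / 9 * p - v) ≤ 7 / 2 * (1 + 5 / 9 * p - v) := by nlinarith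
  nlinarith

/-- the trap -/
theorem trap (v : ℝ × ℝ → ℝ × ℝ) (hv : ∀ z, InG z → v z = (F1 z.1 z.2, F2 z.1 z.2))
    (α : ℝ → ℝ × ℝ) (hα : ∀ t, HasDerivAt α (v (α t)) t) (h0 : InG (α 0)) :
    ∀ t, 0 ≤ t → InG (α t) := by
  by_contra hcon
  push Not at hcon
  obtain ⟨t1, ht1, hn1⟩ := hcon
  have hcont : Continuous α := continuous_iff_continuousAt.2 fun t => (hα t).continuousAt
  have hopen : IsOpen {t | InG (α t)} := by
    have c1 : Continuous fun t => (α t).1 := hcont.fst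
    have c2 : Continuous fun t => (α t).2 := hcont.snd
    exact (isOpen_lt continuous_const c1).inter ((isOpen_lt continuous_const c2).inter
      ((isOpen_lt c1 continuous_const).inter (isOpen_lt c2 (by fun_prop))))
  set S : Set ℝ := Ici 0 ∩ {t | InG (α t)}ᶜ with hS
  have hSc : IsClosed S := isClosed_Ici.inter hopen.isClosed_compl
  have hSne : S.Nonempty := ⟨t1, ht1, hn1⟩
  have hSb : BddBelow S := ⟨0, fun t ht => ht.1⟩
  set T := sInf S with hTdef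
  have hT : T ∈ S := hSc.csInf_mem hSne hSb
  have hlt : ∀ t ∈ Ioo 0 T, InG (α t) := by
    intro t ht
    by_contra hh
    exact absurd (csInf_le hSb ⟨ht.1.le, hh⟩) (not_le.2 ht.2)
  have d1 : ∀ t, HasDerivAt (fun t => (α t).1) (v (α t)).1 t := fun t => (hα t).fst
  have d2 : ∀ t, HasDerivAt (fun t => (α t).2) (v (α t)).2 t := fun t => (hα t).snd
  refine hT.2 ⟨?_, ?_, ?_, ?_⟩
  · refine pos_of_lin _ _ T 100 hT.1 d1 (fun t ht => ?_) h0.1
    rw [hv _ (hlt t ht)]; exact b1 _ _ (hlt t ht)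
  · refine pos_of_lin _ _ T 100 hT.1 d2 (fun t ht => ?_) h0.2.1
    rw [hv _ (hlt t ht)]; exact b2 _ _ (hlt t ht)
  · have := pos_of_lin (fun t => 9 / 2 - (α t).1) (fun t => - (v (α t)).1) T 100 hT.1
      (fun t => by simpa using (d1 t).const_sub (9/2)) (fun t ht => by
        rw [hv _ (hlt t ht)]; exact b3 _ _ (hlt t ht)) (by have := h0.2.2.1; linarith)
    linarith
  · have := pos_of_lin (fun t => 1 + 5 / 9 * (α t).1 - (α t).2)
      (fun t => 5 / 9 * (v (α t)).1 - (v (α t)).2) T 100 hT.1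
      (fun t => (((d1 t).const_mul (5/9)).const_add 1).sub (d2 t)) (fun t ht => by
        rw [hv _ (hlt t ht)]; exact b4 _ _ (hlt t ht)) (by have := h0.2.2.2; linarith)
    linarith

noncomputable def cl (z : ℝ × ℝ) : ℝ × ℝ := (max 0 (min z.1 5), max 0 (min z.2 4))

theorem cl_lip : LipschitzWith 1 cl := by
  have h1 : LipschitzWith 1 (fun z : ℝ × ℝ => max 0 (min z.1 5)) :=
    (LipschitzWith.prod_fst.min_const 5).const_max 0
  have h2 : LipschitzWith 1 (fun z : ℝ × ℝ => max 0 (min z.2 4)) :=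
    (LipschitzWith.prod_snd.min_const 4).const_max 0
  have := h1.prodMk h2
  rw [max_self] at this
  exact this

theorem cl_mem (z : ℝ × ℝ) : cl z ∈ Icc (0:ℝ) 5 ×ˢ Icc (0:ℝ) 4 := by
  refine ⟨⟨le_max_left _ _, max_le (by norm_num) (min_le_right _ _)⟩,
    ⟨le_max_left _ _, max_le (by norm_num) (min_le_right _ _)⟩⟩

theorem fld_smooth : ContDiffOn ℝ ∞ (fun z : ℝ × ℝ => (F1 z.1 z.2, F2 z.1 z.2)) {z | 0 < 9 + 2 * z.1} := by
  intro z hz
  have hz' : 9 + 2 * z.1 ≠ 0 := ne_of_gt hz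
  unfold F1 F2
  apply ContDiffAt.contDiffWithinAt
  refine ContDiffAt.prodMk (by fun_prop) ?_
  refine ContDiffAt.mul (by fun_prop) ?_
  refine ContDiffAt.add (by fun_prop) ?_
  exact ContDiffAt.div (by fun_prop) (by fun_prop) hz'

theorem fld_lip : ∃ K : ℝ≥0, LipschitzOnWith K (fun z : ℝ × ℝ => (F1 z.1 z.2, F2 z.1 z.2))
    (Icc (0:ℝ) 5 ×ˢ Icc (0:ℝ) 4) := by
  have hc : IsCompact (Icc (0:ℝ) 5 ×ˢ Icc (0:ℝ) 4) := isCompact_Icc.prod isCompact_Icc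
  refine LocallyLipschitzOn.exists_lipschitzOnWith_of_compact hc ?_
  intro z hz
  have hz1 : (0:ℝ) < 9 + 2 * z.1 := by have := hz.1.1; linarith
  have hop : IsOpen {z : ℝ × ℝ | 0 < 9 + 2 * z.1} := isOpen_lt (by fun_prop) (by fun_prop)
  have : ContDiffAt ℝ 1 (fun z : ℝ × ℝ => (F1 z.1 z.2, F2 z.1 z.2)) z :=
    (fld_smooth.contDiffAt (hop.mem_nhds hz1)).of_le (by exact_mod_cast le_top)
  obtain ⟨K, t, ht, hK⟩ := this.exists_lipschitzOnWith
  exact ⟨K, t, mem_nhdsWithin_of_mem_nhds ht, hK⟩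

theorem fld : ∃ (v : ℝ × ℝ → ℝ × ℝ) (K C : ℝ≥0), LipschitzWith K v ∧ (∀ z, ‖v z‖ ≤ C) ∧
    ∀ z : ℝ × ℝ, z ∈ Icc (0:ℝ) 5 ×ˢ Icc (0:ℝ) 4 → v z = (F1 z.1 z.2, F2 z.1 z.2) := by
  obtain ⟨K, hK⟩ := fld_lip
  have hc : IsCompact (Icc (0:ℝ) 5 ×ˢ Icc (0:ℝ) 4) := isCompact_Icc.prod isCompact_Icc
  obtain ⟨C, hC⟩ := hc.exists_bound_of_continuousOn hK.continuousOn
  refine ⟨fun z => (F1 (cl z).1 (cl z).2, F2 (cl z).1 (cl z).2), K, C.toNNReal, ?_, ?_, ?_⟩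
  · have := hK.comp (cl_lip.lipschitzOnWith (s := univ)) (fun z _ => cl_mem z)
    rw [mul_one] at this
    exact lipschitzOnWith_univ.1 this
  · intro z
    exact (hC _ (cl_mem z)).trans (Real.le_coe_toNNReal C)
  · intro z hz
    have : cl z = z := by
      ext
      · simp [cl, hz.1.1, hz.1.2]
      · simp [cl, hz.2.1, hz.2.2]
    simp only [this]


end Crest.Agent.R236.G76
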