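import Crest.Agent.R236.GlobA76

set_option autoImplicit false
open scoped ContDiff NNReal
open Set Metric

namespace Crest.Agent.R236.G76

theorem box_of_InG {z : ℝ × ℝ} (h : InG z) : z ∈ Icc (0:ℝ) 5 ×ˢ Icc (0:ℝ) 4 := by
  obtain ⟨h1, h2, h3, h4⟩ := h
  exact ⟨⟨h1.le, by linarith⟩, ⟨h2.le, by linarith⟩⟩

theorem boot (α : ℝ → ℝ × ℝ) (hα : ∀ t, HasDerivAt α (F1 (α t).1 (α t).2, F2 (α t).1 (α t).2) t)
    (hG : ∀ t, InG (α t)) : ContDiff ℝ ∞ α := by
  rw [contDiff_infty]
  intro n
  induction n with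
  | zero => 
    simpa using continuous_iff_continuousAt.2 fun t => (hα t).continuousAt
  | succ n ih =>
    rw [Nat.cast_add, Nat.cast_one, contDiff_succ_iff_deriv]
    refine ⟨fun t => (hα t).differentiableAt, by simp, ?_⟩
    have : deriv α = fun t => (F1 (α t).1 (α t).2, F2 (α t).1 (α t).2) := by
      funext t; exact (hα t).deriv
    rw [this]
    have hf := (fld_smooth.of_le (m := (n : WithTop ℕ∞)) (by exact_mod_cast le_top))
    exact hf.comp_contDiff ih (fun t => by
      have := (hG t).1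
      show 0 < 9 + 2 * (α t).1
      linarith)

theorem local_flow (P W : ℝ → ℝ) (x : ℝ) (hx : 0 < x) (hS : SysAt P W x) (hW : DifferentiableAt ℝ W x)
    (x0 s : ℝ) (hxs : x0 * Real.exp (2 * s) = x) :
    HasDerivAt (fun s => (x0 * Real.exp (2 * s) * P (x0 * Real.exp (2 * s)),
      1 + x0 * Real.exp (2 * s) * W (x0 * Real.exp (2 * s))))
      (F1 (x * P x) (1 + x * W x), F2 (x * P x) (1 + x * W x)) s := by
  obtain ⟨h1, h2, h3, h4, h5⟩ := hS
  have hX : HasDerivAt (fun s : ℝ => x0 * Real.exp (2 * s)) (2 * x) s := by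
    have h1 : HasDerivAt (fun t : ℝ => Real.exp (2 * t)) (Real.exp (2 * s) * (2 * 1)) s :=
      ((hasDerivAt_id s).const_mul 2).exp
    have h2 := h1.const_mul x0
    have e : 2 * x = x0 * (Real.exp (2 * s) * (2 * 1)) := by rw [← hxs]; ring
    rw [e]; exact h2
  have hPc : HasDerivAt (fun s => P (x0 * Real.exp (2 * s))) (P x * (W x - P x) / 2 * (2 * x)) s := by
    have h4' : HasDerivAt P (P x * (W x - P x) / 2) (x0 * Real.exp (2 * s)) := by rw [hxs]; exact h4
    exact h4'.comp s hX
  have hWc : HasDerivAt (fun s => W (x0 * Real.exp (2 * s))) (deriv W x * (2 * x)) s := by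
    have h4' : HasDerivAt W (deriv W x) (x0 * Real.exp (2 * s)) := by rw [hxs]; exact hW.hasDerivAt
    exact h4'.comp s hX
  refine HasDerivAt.prodMk ?_ ?_
  · have := hX.mul hPc
    rw [hxs] at this
    have e : F1 (x * P x) (1 + x * W x) = 2 * x * P x + x * (P x * (W x - P x) / 2 * (2 * x)) := by
      unfold F1; ring
    rw [e]; exact this
  · have := (hX.mul hWc).const_add 1
    rw [hxs] at this
    have e : F2 (x * P x) (1 + x * W x) = 2 * x * W x + x * (deriv W x * (2 * x)) := by
      have : deriv W x * (2 * x) = 2 * x * deriv W x := by ring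
      rw [this, h5]; unfold F2
      field_simp
      ring
    rw [e]; exact this

end Crest.Agent.R236.G76
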