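import Crest.Agent.R236.GlobB76

set_option autoImplicit false
open scoped ContDiff NNReal
open Set Metric

namespace Crest.Agent.R236.G76

/-- the system from the flow -/
theorem sys_of_flow (α : ℝ → ℝ × ℝ)
    (hα : ∀ t, HasDerivAt α (F1 (α t).1 (α t).2, F2 (α t).1 (α t).2) t)
    (hG : ∀ t, InG (α t)) (x0 : ℝ) (hx0 : 0 < x0) (x : ℝ) (hx : 0 < x) :
    SysAt (fun x => (α (Real.log (x / x0) / 2)).1 / x) (fun x => ((α (Real.log (x / x0) / 2)).2 - 1) / x) x := by
  have hl : HasDerivAt (fun x : ℝ => Real.log (x / x0) / 2) (1 / (2 * x)) x := by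
    have h1 : HasDerivAt (fun x : ℝ => x / x0) (1 / x0) x := (hasDerivAt_id x).div_const x0
    have h2 := (h1.log (by positivity)).div_const 2
    have e : 1 / (2 * x) = 1 / x0 / (x / x0) / 2 := by field_simp
    rw [e]; exact h2
  set s := Real.log (x / x0) / 2 with hs
  have d1 : HasDerivAt (fun x => (α (Real.log (x / x0) / 2)).1) (F1 (α s).1 (α s).2 * (1 / (2 * x))) x :=
    HasDerivAt.comp x (h₂ := fun t => (α t).1) (hα s).fst hl
  have d2 : HasDerivAt (fun x => (α (Real.log (x / x0) / 2)).2) (F2 (α s).1 (α s).2 * (1 / (2 * x))) x :=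
    HasDerivAt.comp x (h₂ := fun t => (α t).2) (hα s).snd hl
  have dP := d1.div (hasDerivAt_id x) hx.ne'
  have dW := (d2.sub_const 1).div (hasDerivAt_id x) hx.ne'
  obtain ⟨g1, g2, g3, g4⟩ := hG s
  have hx' := hx.ne'
  have h9 : (9:ℝ) + 2 * (α s).1 ≠ 0 := by positivity
  refine ⟨by show 0 < (α s).1 / x; positivity, ?_, ?_, ?_, ?_⟩
  · show 0 < 1 + x * (((α s).2 - 1) / x)
    have : 1 + x * (((α s).2 - 1) / x) = (α s).2 := by field_simp; ring
    rw [this]; exact g2
  · show 0 < 9 + 2 * x * ((α s).1 / x)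
    have : 9 + 2 * x * ((α s).1 / x) = 9 + 2 * (α s).1 := by field_simp
    rw [this]; positivity
  · have e : (α s).1 / x * (((α s).2 - 1) / x - (α s).1 / x) / 2
        = (F1 (α s).1 (α s).2 * (1 / (2 * x)) * id x - (α s).1 * 1) / id x ^ 2 := by
      simp only [id]; unfold F1; field_simp; ring
    show HasDerivAt _ ((α s).1 / x * (((α s).2 - 1) / x - (α s).1 / x) / 2) x
    rw [e]; exact dP
  · have hd : deriv (fun x => ((α (Real.log (x / x0) / 2)).2 - 1) / x) x
        = (F2 (α s).1 (α s).2 * (1 / (2 * x)) * id x - ((α s).2 - 1) * 1) / id x ^ 2 := dW.deriv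
    rw [hd]
    show 2 * x * ((F2 (α s).1 (α s).2 * (1 / (2 * x)) * x - ((α s).2 - 1) * 1) / x ^ 2) =
      -2 * (((α s).2 - 1) / x) + (1 + x * (((α s).2 - 1) / x)) *
      (-9 * (((α s).2 - 1) / x) + (α s).1 / x + 12 * ((α s).1 / x) * (1 + 2 * x * (((α s).2 - 1) / x)) /
        (9 + 2 * x * ((α s).1 / x)))
    have e1 : 1 + x * (((α s).2 - 1) / x) = (α s).2 := by field_simp; ring
    have e2 : 9 + 2 * x * ((α s).1 / x) = 9 + 2 * (α s).1 := by field_simp
    have e3 : 1 + 2 * x * (((α s).2 - 1) / x) = 2 * (α s).2 - 1 := by field_simp; ring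
    rw [e1, e2, e3]
    unfold F2; field_simp; ring

theorem global_of_local
    (hloc : ∃ ε : ℝ, 0 < ε ∧ ∃ P W : ℝ → ℝ,
      ContDiffOn ℝ ∞ P (Ioo (-ε) ε) ∧ ContDiffOn ℝ ∞ W (Ioo (-ε) ε) ∧
      (∀ x ∈ Ioo (-ε) ε, SysAt P W x) ∧
      (∀ x ∈ Ioo 0 ε, x * P x < 9 / 2 ∧ W x < 5 / 9 * P x)) :
    ∃ ε : ℝ, 0 < ε ∧ ∃ P W : ℝ → ℝ,
      ContDiffOn ℝ ∞ P (Ioi (-ε)) ∧ ContDiffOn ℝ ∞ W (Ioi (-ε)) ∧
      (∀ x ∈ Ioi (-ε), SysAt P W x) := by
  obtain ⟨ε, hε, P, W, hP, hW, hS, hR⟩ := hloc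
  have hWd : ∀ x ∈ Ioo (-ε) ε, DifferentiableAt ℝ W x := fun x hx =>
    (hW.contDiffAt (Ioo_mem_nhds hx.1 hx.2)).differentiableAt (by simp)
  obtain ⟨v, K, C, hv, hC, hvF⟩ := fld
  set x0 := ε / 2 with hx0
  have hx0p : 0 < x0 := by positivity
  have inG : ∀ x ∈ Ioo 0 ε, InG (x * P x, 1 + x * W x) := by
    intro x hx
    obtain ⟨h1, h2, h3, h4, h5⟩ := hS x ⟨by linarith [hx.1], hx.2⟩
    obtain ⟨r1, r2⟩ := hR x hx
    refine ⟨mul_pos hx.1 h1, h2, r1, ?_⟩
    show 1 + x * W x < 1 + 5 / 9 * (x * P x)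
    nlinarith [mul_lt_mul_of_pos_left r2 hx.1]
  obtain ⟨α, hα0, hα⟩ := glob v K C hv hC (x0 * P x0, 1 + x0 * W x0)
  have h0 : InG (α 0) := by rw [hα0]; exact inG x0 ⟨hx0p, by rw [hx0]; linarith⟩
  have hFv : ∀ z, InG z → v z = (F1 z.1 z.2, F2 z.1 z.2) := fun z hz => hvF z (box_of_InG hz)
  have htrap := trap v hFv α hα h0
  -- backward and local part
  set β : ℝ → ℝ × ℝ := fun s => (x0 * Real.exp (2 * s) * P (x0 * Real.exp (2 * s)),
      1 + x0 * Real.exp (2 * s) * W (x0 * Real.exp (2 * s))) with hβ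
  have hxs : ∀ s, s < Real.log 2 / 2 → x0 * Real.exp (2 * s) ∈ Ioo 0 ε := by
    intro s hs
    refine ⟨by positivity, ?_⟩
    have : Real.exp (2 * s) < 2 := by
      have : Real.exp (2 * s) < Real.exp (Real.log 2) := Real.exp_lt_exp.2 (by linarith)
      rwa [Real.exp_log (by norm_num)] at this
    rw [hx0]; nlinarith
  have hβd : ∀ s, s < Real.log 2 / 2 → HasDerivAt β (v (β s)) s := by
    intro s hs
    have hm := hxs s hs
    have := local_flow P W _ hm.1 (hS _ ⟨by linarith [hm.1], hm.2⟩) (hWd _ ⟨by linarith [hm.1], hm.2⟩) x0 s rfl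
    rw [hFv _ (inG _ hm)]
    exact this
  have heq : ∀ s, s < Real.log 2 / 2 → α s = β s := by
    intro s hs
    have hl2 : 0 < Real.log 2 / 2 := by have := Real.log_pos (show (1:ℝ) < 2 by norm_num); linarith
    have := ODE_solution_unique_of_mem_Ioo (v := fun _ => v) (s := fun _ => univ) (K := K)
      (f := α) (g := β) (a := min s 0 - 1) (b := Real.log 2 / 2)
      (t₀ := 0) (fun _ _ => hv.lipschitzOnWith) ⟨by linarith [min_le_right s 0], hl2⟩
      (fun t ht => ⟨hα t, trivial⟩)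
      (fun t ht => ⟨hβd t ht.2, trivial⟩) (by rw [hα0]; simp [hβ])
    exact this ⟨by linarith [min_le_left s 0], hs⟩
  have hGall : ∀ s, InG (α s) := by
    intro s
    rcases le_or_gt 0 s with h | h
    · exact htrap s h
    · have hl2 : 0 < Real.log 2 / 2 := by have := Real.log_pos (show (1:ℝ) < 2 by norm_num); linarith
      rw [heq s (by linarith)]
      exact inG _ (hxs s (by linarith))
  have hα' : ∀ t, HasDerivAt α (F1 (α t).1 (α t).2, F2 (α t).1 (α t).2) t := by
    intro t; rw [← hFv _ (hGall t)]; exact hα t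
  have hsm := boot α hα' hGall
  set Q : ℝ → ℝ := fun x => (α (Real.log (x / x0) / 2)).1 / x with hQ
  set V : ℝ → ℝ := fun x => ((α (Real.log (x / x0) / 2)).2 - 1) / x with hV
  have hagree : ∀ x ∈ Ioo 0 ε, Q x = P x ∧ V x = W x := by
    intro x hx
    have hlt : Real.log (x / x0) / 2 < Real.log 2 / 2 := by
      have : Real.log (x / x0) < Real.log 2 := Real.log_lt_log (by have := hx.1; positivity) (by
        rw [div_lt_iff₀ hx0p, hx0]; linarith [hx.2])
      linarith
    have hx2 : x0 * Real.exp (2 * (Real.log (x / x0) / 2)) = x := by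
      rw [show 2 * (Real.log (x / x0) / 2) = Real.log (x / x0) by ring,
        Real.exp_log (by have := hx.1; positivity)]
      field_simp
    have hxne := hx.1.ne'
    constructor
    · show (α (Real.log (x / x0) / 2)).1 / x = P x
      rw [heq _ hlt]; simp only [hβ, hx2]; field_simp
    · show ((α (Real.log (x / x0) / 2)).2 - 1) / x = W x
      rw [heq _ hlt]; simp only [hβ, hx2]; field_simp; ring
  have hlog : ∀ x : ℝ, 0 < x → ContDiffAt ℝ ∞ (fun x : ℝ => Real.log (x / x0) / 2) x := by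
    intro x hx
    have hne : x / x0 ≠ 0 := by positivity
    exact ((contDiffAt_id.div_const x0).log hne).div_const 2
  refine ⟨ε, hε, fun x => if x ≤ 0 then P x else Q x, fun x => if x ≤ 0 then W x else V x, ?_, ?_, ?_⟩
  all_goals intro x hx
  all_goals
    have evP : x < ε → (fun x => if x ≤ 0 then P x else Q x) =ᶠ[nhds x] P := by
      intro hxe
      filter_upwards [Iio_mem_nhds hxe] with y hy
      by_cases h : y ≤ 0
      · simp [h]
      · simp only [h, if_false]; exact (hagree y ⟨not_le.1 h, hy⟩).1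
    have evW : x < ε → (fun x => if x ≤ 0 then W x else V x) =ᶠ[nhds x] W := by
      intro hxe
      filter_upwards [Iio_mem_nhds hxe] with y hy
      by_cases h : y ≤ 0
      · simp [h]
      · simp only [h, if_false]; exact (hagree y ⟨not_le.1 h, hy⟩).2
    have evQ : 0 < x → (fun x => if x ≤ 0 then P x else Q x) =ᶠ[nhds x] Q := by
      intro hxe
      filter_upwards [Ioi_mem_nhds hxe] with y hy
      simp [not_le.2 (show (0:ℝ) < y from hy)]
    have evV : 0 < x → (fun x => if x ≤ 0 then W x else V x) =ᶠ[nhds x] V := by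
      intro hxe
      filter_upwards [Ioi_mem_nhds hxe] with y hy
      simp [not_le.2 (show (0:ℝ) < y from hy)]
  · apply ContDiffAt.contDiffWithinAt
    rcases lt_or_ge x ε with h | h
    · exact (hP.contDiffAt (Ioo_mem_nhds hx h)).congr_of_eventuallyEq (evP h)
    · have hx0 : 0 < x := lt_of_lt_of_le hε h
      refine ContDiffAt.congr_of_eventuallyEq ?_ (evQ hx0)
      exact (ContDiffAt.fst (hsm.contDiffAt.comp x (hlog x hx0))).div contDiffAt_id hx0.ne'
  · apply ContDiffAt.contDiffWithinAt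
    rcases lt_or_ge x ε with h | h
    · exact (hW.contDiffAt (Ioo_mem_nhds hx h)).congr_of_eventuallyEq (evW h)
    · have hx0 : 0 < x := lt_of_lt_of_le hε h
      refine ContDiffAt.congr_of_eventuallyEq ?_ (evV hx0)
      exact ((ContDiffAt.snd (hsm.contDiffAt.comp x (hlog x hx0))).sub contDiffAt_const).div contDiffAt_id hx0.ne'
  · rcases lt_or_ge x ε with h | h
    · obtain ⟨h1, h2, h3, h4, h5⟩ := hS x ⟨hx, h⟩
      have eP := (evP h).eq_of_nhds
      have eW := (evW h).eq_of_nhds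
      unfold SysAt
      rw [(evW h).deriv_eq]
      simp only at eP eW ⊢
      rw [eP, eW]
      exact ⟨h1, h2, h3, h4.congr_of_eventuallyEq (evP h), h5⟩
    · have hx0' : 0 < x := lt_of_lt_of_le hε h
      obtain ⟨h1, h2, h3, h4, h5⟩ := sys_of_flow α hα' hGall x0 hx0p x hx0'
      have eP := (evQ hx0').eq_of_nhds
      have eW := (evV hx0').eq_of_nhds
      unfold SysAt
      rw [(evV hx0').deriv_eq]
      simp only at eP eW ⊢
      rw [eP, eW]
      exact ⟨h1, h2, h3, h4.congr_of_eventuallyEq (evQ hx0'), h5⟩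

end Crest.Agent.R236.G76
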