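import Crest.Agent.R236.Skel

set_option autoImplicit false
open scoped ContDiff
open Set Crest.GeometryTopology.CoordMetric Crest.GeometryTopology.AffineMaximal

namespace Crest.Agent.R236

theorem hr_dfst (g : ℝ × ℝ → ℝ) (s t : ℝ) (hg : DifferentiableAt ℝ g (s, t)) :
    deriv (fun s => g (s, t)) s = fderiv ℝ g (s, t) (1, 0) := by
  have h1 : HasDerivAt (fun s : ℝ => (s, t)) ((1 : ℝ), (0 : ℝ)) s :=
    (hasDerivAt_id s).prodMk (hasDerivAt_const s t)
  exact (hg.hasFDerivAt.comp_hasDerivAt s h1).deriv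

theorem hr_dsnd (g : ℝ × ℝ → ℝ) (s t : ℝ) (hg : DifferentiableAt ℝ g (s, t)) :
    deriv (fun t => g (s, t)) t = fderiv ℝ g (s, t) (0, 1) := by
  have h1 : HasDerivAt (fun t : ℝ => (s, t)) ((0 : ℝ), (1 : ℝ)) t :=
    (hasDerivAt_const t s).prodMk (hasDerivAt_id t)
  exact (hg.hasFDerivAt.comp_hasDerivAt t h1).deriv

theorem hr_xx_nonneg (z : EuclideanSpace ℝ (Fin 10)) : 0 ≤ xx z :=
  Finset.sum_nonneg fun _ _ => sq_nonneg _

/-- coordinate projection as a continuous linear map -/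
noncomputable def hrPr (i : Fin 10) : EuclideanSpace ℝ (Fin 10) →L[ℝ] ℝ :=
  EuclideanSpace.proj i

theorem hrPr_apply (i : Fin 10) (z : EuclideanSpace ℝ (Fin 10)) : hrPr i z = z i := rfl

theorem hr_pr_fderiv (i : Fin 10) (z : EuclideanSpace ℝ (Fin 10)) :
    HasFDerivAt (fun w : EuclideanSpace ℝ (Fin 10) => w i) (hrPr i) z :=
  (hrPr i).hasFDerivAt

theorem hr_xx_fderiv (z : EuclideanSpace ℝ (Fin 10)) :
    HasFDerivAt xx (∑ i : Fin 9, (2 * z (Fin.castSucc i)) • hrPr (Fin.castSucc i)) z := by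
  have h : ∀ i ∈ (Finset.univ : Finset (Fin 9)),
      HasFDerivAt (fun w : EuclideanSpace ℝ (Fin 10) => w (Fin.castSucc i) ^ 2)
        ((2 * z (Fin.castSucc i)) • hrPr (Fin.castSucc i)) z := by
    intro i _
    have h2 := (hr_pr_fderiv (Fin.castSucc i) z).pow 2
    refine h2.congr_fderiv ?_
    ext v
    simp
  have h3 := HasFDerivAt.fun_sum h
  exact h3

theorem hr_single (i j : Fin 10) : (EuclideanSpace.single i (1:ℝ)) j = if j = i then 1 else 0 := by
  simp

theorem hr_pderiv (ε : ℝ) (hε : 0 < ε) (g : ℝ × ℝ → ℝ)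
    (hg : ∀ p ∈ (Ioi (-ε) ×ˢ univ : Set (ℝ × ℝ)), DifferentiableAt ℝ g p)
    (i : Fin 10) (z : EuclideanSpace ℝ (Fin 10)) :
    DifferentiableAt ℝ (fun w => g (xx w, w 9)) z ∧
    pderiv i (fun w => g (xx w, w 9)) z =
      if i = 9 then fderiv ℝ g (xx z, z 9) (0, 1) else 2 * z i * fderiv ℝ g (xx z, z 9) (1, 0) := by
  have hp : (xx z, z 9) ∈ (Ioi (-ε) ×ˢ univ : Set (ℝ × ℝ)) := by
    refine ⟨?_, mem_univ _⟩
    have := hr_xx_nonneg z
    simp only [mem_Ioi]
    linarith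
  have h1 : HasFDerivAt (fun w : EuclideanSpace ℝ (Fin 10) => (xx w, w 9))
      ((∑ i : Fin 9, (2 * z (Fin.castSucc i)) • hrPr (Fin.castSucc i)).prod (hrPr 9)) z :=
    (hr_xx_fderiv z).prodMk (hr_pr_fderiv 9 z)
  have h2 := (hg _ hp).hasFDerivAt.comp z h1
  have h3 : HasFDerivAt (fun w : EuclideanSpace ℝ (Fin 10) => g (xx w, w 9)) _ z := h2
  refine ⟨h3.differentiableAt, ?_⟩
  unfold pderiv
  rw [h3.fderiv]
  have h4 : (∑ k : Fin 9, (2 * z (Fin.castSucc k)) • hrPr (Fin.castSucc k))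
      (EuclideanSpace.single i (1:ℝ)) = if i = 9 then 0 else 2 * z i := by
    rw [ContinuousLinearMap.sum_apply]
    simp only [ContinuousLinearMap.smul_apply, hrPr_apply, hr_single, smul_eq_mul, mul_ite, mul_one,
      mul_zero]
    induction i using Fin.lastCases with
    | last =>
      rw [if_pos (show (Fin.last 9 : Fin 10) = 9 from rfl)]
      refine Finset.sum_eq_zero fun k _ => ?_
      rw [if_neg (Fin.castSucc_lt_last k).ne]
    | cast k =>
      have hk : (Fin.castSucc k : Fin 10) ≠ 9 := (Fin.castSucc_lt_last k).ne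
      rw [if_neg hk]
      rw [Finset.sum_eq_single k]
      · simp
      · intro b _ hb
        rw [if_neg]
        intro h
        exact hb (Fin.castSucc_injective _ h)
      · simp
  rw [ContinuousLinearMap.comp_apply, ContinuousLinearMap.prod_apply, h4, hrPr_apply, hr_single]
  by_cases h9 : i = 9
  · subst h9
    simp
  · have h9' : ¬ (9 : Fin 10) = i := fun h => h9 h.symm
    rw [if_neg h9, if_neg h9', if_neg h9]
    have : ((2 * z i, 0) : ℝ × ℝ) = (2 * z i) • ((1, 0) : ℝ × ℝ) := by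
      ext <;> simp
    rw [this, map_smul, smul_eq_mul]

theorem hess_rad' (ε : ℝ) (hε : 0 < ε) (g : ℝ × ℝ → ℝ) (hg : ContDiffOn ℝ ∞ g (Ioi (-ε) ×ˢ univ))
    (z : EuclideanSpace ℝ (Fin 10)) :
    hessianMat (fun w => g (xx w, w 9)) z = blk z
      (2 * deriv (fun s => g (s, z 9)) (xx z))
      (4 * deriv (deriv (fun s => g (s, z 9))) (xx z))
      (2 * deriv (fun s => deriv (fun t => g (s, t)) (z 9)) (xx z))
      (deriv (deriv (fun t => g (xx z, t))) (z 9)) := by
  have hopen : IsOpen (Ioi (-ε) ×ˢ univ : Set (ℝ × ℝ)) := isOpen_Ioi.prod isOpen_univ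
  have hcd : ∀ p ∈ (Ioi (-ε) ×ˢ univ : Set (ℝ × ℝ)), ContDiffAt ℝ ∞ g p := fun p hp =>
    hg.contDiffAt (hopen.mem_nhds hp)
  have hgd : ∀ p ∈ (Ioi (-ε) ×ˢ univ : Set (ℝ × ℝ)), DifferentiableAt ℝ g p := fun p hp =>
    (hcd p hp).differentiableAt (by simp)
  have hD : ∀ p ∈ (Ioi (-ε) ×ˢ univ : Set (ℝ × ℝ)), DifferentiableAt ℝ (fderiv ℝ g) p := by
    intro p hp
    have h1 : ContDiffAt ℝ ∞ (fderiv ℝ g) p :=
      (hcd p hp).fderiv_right (m := ∞) (by simp)
    exact h1.differentiableAt (by simp)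
  have hG : ∀ v : ℝ × ℝ, ∀ p ∈ (Ioi (-ε) ×ˢ univ : Set (ℝ × ℝ)),
      DifferentiableAt ℝ (fun q => fderiv ℝ g q v) p := fun v p hp =>
    (hD p hp).clm_apply (differentiableAt_const v)
  have hGf : ∀ v : ℝ × ℝ, ∀ p ∈ (Ioi (-ε) ×ˢ univ : Set (ℝ × ℝ)), ∀ u : ℝ × ℝ,
      fderiv ℝ (fun q => fderiv ℝ g q v) p u = fderiv ℝ (fderiv ℝ g) p u v := by
    intro v p hp u
    have h1 := ((hD p hp).hasFDerivAt.clm_apply (hasFDerivAt_const v p)).fderiv
    rw [h1]
    simp
  have hp : (xx z, z 9) ∈ (Ioi (-ε) ×ˢ univ : Set (ℝ × ℝ)) := by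
    refine ⟨?_, mem_univ _⟩
    have := hr_xx_nonneg z
    simp only [mem_Ioi]
    linarith
  have hsymm : fderiv ℝ (fderiv ℝ g) (xx z, z 9) (1, 0) (0, 1)
      = fderiv ℝ (fderiv ℝ g) (xx z, z 9) (0, 1) (1, 0) := by
    have h1 : IsSymmSndFDerivAt ℝ g (xx z, z 9) :=
      (hcd _ hp).isSymmSndFDerivAt (by
        rw [minSmoothness_of_isRCLikeNormedField]
        exact WithTop.coe_le_coe.2 le_top)
    exact h1 _ _
  -- scalar derivatives
  have e1 : deriv (fun s => g (s, z 9)) (xx z) = fderiv ℝ g (xx z, z 9) (1, 0) :=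
    hr_dfst g _ _ (hgd _ hp)
  have hpos : -ε < xx z := hp.1
  have e2 : deriv (deriv (fun s => g (s, z 9))) (xx z)
      = fderiv ℝ (fderiv ℝ g) (xx z, z 9) (1, 0) (1, 0) := by
    have h1 : deriv (fun s => g (s, z 9)) =ᶠ[nhds (xx z)]
        fun s => (fun q => fderiv ℝ g q (1, 0)) (s, z 9) := by
      filter_upwards [Ioi_mem_nhds hpos] with s hs
      exact hr_dfst g _ _ (hgd _ ⟨hs, mem_univ _⟩)
    rw [h1.deriv_eq, hr_dfst _ _ _ (hG (1, 0) _ hp), hGf _ _ hp]
  have e3 : deriv (fun s => deriv (fun t => g (s, t)) (z 9)) (xx z)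
      = fderiv ℝ (fderiv ℝ g) (xx z, z 9) (1, 0) (0, 1) := by
    have h1 : (fun s => deriv (fun t => g (s, t)) (z 9)) =ᶠ[nhds (xx z)]
        fun s => (fun q => fderiv ℝ g q (0, 1)) (s, z 9) := by
      filter_upwards [Ioi_mem_nhds hpos] with s hs
      exact hr_dsnd g _ _ (hgd _ ⟨hs, mem_univ _⟩)
    rw [h1.deriv_eq, hr_dfst _ _ _ (hG (0, 1) _ hp), hGf _ _ hp]
  have e4 : deriv (deriv (fun t => g (xx z, t))) (z 9)
      = fderiv ℝ (fderiv ℝ g) (xx z, z 9) (0, 1) (0, 1) := by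
    have h1 : deriv (fun t => g (xx z, t)) =
        fun t => (fun q => fderiv ℝ g q (0, 1)) (xx z, t) := by
      funext t
      exact hr_dsnd g _ _ (hgd _ ⟨hpos, mem_univ _⟩)
    rw [h1, hr_dsnd _ _ _ (hG (0, 1) _ hp), hGf _ _ hp]
  rw [e1, e2, e3, e4]
  ext i j
  have hfirst : (fun y => pderiv j (fun w => g (xx w, w 9)) y) = fun y =>
      if j = 9 then fderiv ℝ g (xx y, y 9) (0, 1) else 2 * y j * fderiv ℝ g (xx y, y 9) (1, 0) := by
    funext y
    exact (hr_pderiv ε hε g hgd j y).2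
  unfold hessianMat blk
  rw [hfirst]
  by_cases hj : j = 9
  · simp only [hj, if_true]
    have h2 := (hr_pderiv ε hε (fun q => fderiv ℝ g q (0, 1)) (hG (0, 1)) i z).2
    simp only at h2
    rw [h2, hGf _ _ hp, hGf _ _ hp]
    by_cases hi : i = 9
    · simp [hi]
    · simp only [hi, if_false, false_and]
      ring
  · simp only [hj, if_false, and_false]
    have h2 := hr_pderiv ε hε (fun q => fderiv ℝ g q (1, 0)) (hG (1, 0)) i z
    have h3 : HasFDerivAt (fun w : EuclideanSpace ℝ (Fin 10) => 2 * w j) ((2:ℝ) • hrPr j) z := by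
      have := (hr_pr_fderiv j z).const_mul (2:ℝ)
      exact this
    have h4 := h3.mul h2.1.hasFDerivAt
    have h5 : pderiv i (fun y : EuclideanSpace ℝ (Fin 10) => 2 * y j * fderiv ℝ g (xx y, y 9) (1, 0)) z
        = 2 * z j * pderiv i (fun w => (fun q => fderiv ℝ g q (1, 0)) (xx w, w 9)) z
          + fderiv ℝ g (xx z, z 9) (1, 0) * (2 * (if j = i then 1 else 0)) := by
      unfold pderiv
      have h6 : fderiv ℝ (fun y : EuclideanSpace ℝ (Fin 10) => 2 * y j * fderiv ℝ g (xx y, y 9) (1, 0)) z = _ :=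
        h4.fderiv
      rw [h6]
      simp only [ContinuousLinearMap.add_apply, ContinuousLinearMap.smul_apply, hrPr_apply,
        hr_single, smul_eq_mul]
    rw [h5, h2.2, hGf _ _ hp, hGf _ _ hp]
    by_cases hi : i = 9
    · subst hi
      have : ¬ (j = 9) := hj
      simp only [if_true, this, if_false, hsymm]
      ring
    · simp only [hi, if_false]
      by_cases hij : i = j
      · subst hij
        simp only [if_true]
        ring
      · have hji : ¬ j = i := fun h => hij h.symm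
        simp only [hij, hji, if_false]
        ring

end Crest.Agent.R236
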