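import Crest.Agent.R236.Skel

set_option autoImplicit false
open scoped ContDiff
open Set Crest.GeometryTopology.CoordMetric Crest.GeometryTopology.AffineMaximal

namespace Crest.Agent.R236

namespace H36

noncomputable def D1 (G : ℝ × ℝ → ℝ) (p : ℝ × ℝ) : ℝ := fderiv ℝ G p (1, 0)
noncomputable def D2 (G : ℝ × ℝ → ℝ) (p : ℝ × ℝ) : ℝ := fderiv ℝ G p (0, 1)

theorem xx_nonneg (z : EuclideanSpace ℝ (Fin 10)) : 0 ≤ xx z :=
  Finset.sum_nonneg (fun _ _ => sq_nonneg _)

theorem isOpenU (ε : ℝ) : IsOpen (Ioi (-ε) ×ˢ (univ : Set ℝ)) := isOpen_Ioi.prod isOpen_univ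

theorem memU {ε : ℝ} (hε : 0 < ε) (z : EuclideanSpace ℝ (Fin 10)) :
    (xx z, z 9) ∈ Ioi (-ε) ×ˢ (univ : Set ℝ) := by
  refine ⟨?_, trivial⟩
  have := xx_nonneg z
  simp only [mem_Ioi]
  linarith

noncomputable def L (z : EuclideanSpace ℝ (Fin 10)) : EuclideanSpace ℝ (Fin 10) →L[ℝ] ℝ × ℝ :=
  (∑ i : Fin 9, (2 * z (Fin.castSucc i)) •
    (EuclideanSpace.proj (Fin.castSucc i) : EuclideanSpace ℝ (Fin 10) →L[ℝ] ℝ)).prod
    (EuclideanSpace.proj (9 : Fin 10))

theorem hasFD_coord (j : Fin 10) (z : EuclideanSpace ℝ (Fin 10)) :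
    HasFDerivAt (fun w : EuclideanSpace ℝ (Fin 10) => w j)
      (EuclideanSpace.proj j : EuclideanSpace ℝ (Fin 10) →L[ℝ] ℝ) z :=
  (EuclideanSpace.proj j : EuclideanSpace ℝ (Fin 10) →L[ℝ] ℝ).hasFDerivAt

theorem hasFD_xx (z : EuclideanSpace ℝ (Fin 10)) :
    HasFDerivAt xx (∑ i : Fin 9, (2 * z (Fin.castSucc i)) •
      (EuclideanSpace.proj (Fin.castSucc i) : EuclideanSpace ℝ (Fin 10) →L[ℝ] ℝ)) z := by
  have : HasFDerivAt (fun w : EuclideanSpace ℝ (Fin 10) =>
      ∑ i ∈ (Finset.univ : Finset (Fin 9)), w (Fin.castSucc i) ^ 2)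
      (∑ i ∈ (Finset.univ : Finset (Fin 9)), (2 * z (Fin.castSucc i)) •
      (EuclideanSpace.proj (Fin.castSucc i) : EuclideanSpace ℝ (Fin 10) →L[ℝ] ℝ)) z := by
    apply HasFDerivAt.fun_sum
    intro i _
    have h := (hasFD_coord (Fin.castSucc i) z).pow 2
    refine h.congr_fderiv ?_
    ext v
    simp
  exact this

theorem hasFD (z : EuclideanSpace ℝ (Fin 10)) :
    HasFDerivAt (fun w : EuclideanSpace ℝ (Fin 10) => (xx w, w 9)) (L z) z :=
  (hasFD_xx z).prodMk (hasFD_coord 9 z)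

theorem L_single (z : EuclideanSpace ℝ (Fin 10)) (j : Fin 10) :
    L z (EuclideanSpace.single j (1:ℝ)) = if j = 9 then (0, 1) else (2 * z j, 0) := by
  by_cases hj : j = 9
  · subst hj
    rw [if_pos rfl]
    simp only [L, ContinuousLinearMap.prod_apply]
    refine Prod.ext ?_ ?_
    · simp only [_root_.sum_apply, _root_.smul_apply,
        PiLp.proj_apply, smul_eq_mul]
      apply Finset.sum_eq_zero
      intro i _
      have : (Fin.castSucc i : Fin 10) ≠ 9 := Fin.castSucc_ne_last i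
      simp [this]
    · simp
  · rw [if_neg hj]
    obtain ⟨i, rfl⟩ : ∃ i : Fin 9, j = Fin.castSucc i := by
      refine ⟨j.castPred (by exact hj), by simp⟩
    simp only [L, ContinuousLinearMap.prod_apply]
    refine Prod.ext ?_ ?_
    · simp only [_root_.sum_apply, _root_.smul_apply,
        PiLp.proj_apply, smul_eq_mul]
      rw [Finset.sum_eq_single i]
      · simp
      · intro b _ hb
        have : (Fin.castSucc b : Fin 10) ≠ Fin.castSucc i := fun h => hb (Fin.castSucc_injective _ h)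
        simp [this]
      · simp
    · have : (9 : Fin 10) ≠ Fin.castSucc i := fun h => hj h.symm
      simp [this]

theorem lin_pair (T : ℝ × ℝ →L[ℝ] ℝ) (a : ℝ) : T (a, 0) = a * T (1, 0) := by
  have : ((a, 0) : ℝ × ℝ) = a • ((1, 0) : ℝ × ℝ) := by simp
  rw [this, map_smul, smul_eq_mul]

theorem pderiv_comp {ε : ℝ} (hε : 0 < ε) (G : ℝ × ℝ → ℝ)
    (hG : ContDiffOn ℝ ∞ G (Ioi (-ε) ×ˢ univ)) (z : EuclideanSpace ℝ (Fin 10)) (j : Fin 10) :
    pderiv j (fun w => G (xx w, w 9)) z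
      = if j = 9 then D2 G (xx z, z 9) else 2 * z j * D1 G (xx z, z 9) := by
  have hd : HasFDerivAt G (fderiv ℝ G (xx z, z 9)) (xx z, z 9) := by
    have := (hG.contDiffAt ((isOpenU ε).mem_nhds (memU hε z))).differentiableAt (by simp)
    exact this.hasFDerivAt
  have h := hd.comp z (hasFD z)
  have h2 : fderiv ℝ (fun w : EuclideanSpace ℝ (Fin 10) => G (xx w, w 9)) z
      = (fderiv ℝ G (xx z, z 9)).comp (L z) := h.fderiv
  unfold pderiv
  rw [h2, ContinuousLinearMap.comp_apply, L_single]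
  split_ifs with hj
  · rfl
  · rw [lin_pair]; rfl

theorem cdD1 {ε : ℝ} (G : ℝ × ℝ → ℝ)
    (hG : ContDiffOn ℝ ∞ G (Ioi (-ε) ×ˢ univ)) : ContDiffOn ℝ ∞ (D1 G) (Ioi (-ε) ×ˢ univ) := by
  have := hG.fderiv_of_isOpen (isOpenU ε) (m := ∞) (by simp)
  exact this.clm_apply contDiffOn_const

theorem cdD2 {ε : ℝ} (G : ℝ × ℝ → ℝ)
    (hG : ContDiffOn ℝ ∞ G (Ioi (-ε) ×ˢ univ)) : ContDiffOn ℝ ∞ (D2 G) (Ioi (-ε) ×ˢ univ) := by
  have := hG.fderiv_of_isOpen (isOpenU ε) (m := ∞) (by simp)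
  exact this.clm_apply contDiffOn_const

theorem diffAt {ε : ℝ} (G : ℝ × ℝ → ℝ)
    (hG : ContDiffOn ℝ ∞ G (Ioi (-ε) ×ˢ univ)) {s t : ℝ} (hs : -ε < s) :
    DifferentiableAt ℝ G (s, t) :=
  (hG.contDiffAt ((isOpenU ε).mem_nhds
    (show (s, t) ∈ Ioi (-ε) ×ˢ (univ : Set ℝ) from ⟨hs, trivial⟩))).differentiableAt (by simp)

theorem deriv_fst {ε : ℝ} (G : ℝ × ℝ → ℝ)
    (hG : ContDiffOn ℝ ∞ G (Ioi (-ε) ×ˢ univ)) {s t : ℝ} (hs : -ε < s) :
    deriv (fun s => G (s, t)) s = D1 G (s, t) := by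
  have h1 := (diffAt G hG (t := t) hs).hasFDerivAt
  have h2 : HasDerivAt (fun s : ℝ => (s, t)) ((1, 0) : ℝ × ℝ) s :=
    (hasDerivAt_id s).prodMk (hasDerivAt_const s t)
  exact (h1.comp_hasDerivAt s h2).deriv

theorem deriv_snd {ε : ℝ} (G : ℝ × ℝ → ℝ)
    (hG : ContDiffOn ℝ ∞ G (Ioi (-ε) ×ˢ univ)) {s t : ℝ} (hs : -ε < s) :
    deriv (fun t => G (s, t)) t = D2 G (s, t) := by
  have h1 := (diffAt G hG (t := t) hs).hasFDerivAt
  have h2 : HasDerivAt (fun t : ℝ => (s, t)) ((0, 1) : ℝ × ℝ) t :=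
    (hasDerivAt_const t s).prodMk (hasDerivAt_id t)
  exact (h1.comp_hasDerivAt t h2).deriv

theorem symm12 {ε : ℝ} (G : ℝ × ℝ → ℝ)
    (hG : ContDiffOn ℝ ∞ G (Ioi (-ε) ×ˢ univ)) {s t : ℝ} (hs : -ε < s) :
    D2 (D1 G) (s, t) = D1 (D2 G) (s, t) := by
  have hc := hG.contDiffAt ((isOpenU ε).mem_nhds
    (show (s, t) ∈ Ioi (-ε) ×ˢ (univ : Set ℝ) from ⟨hs, trivial⟩))
  have hle : (2 : WithTop ℕ∞) ≤ ∞ := WithTop.coe_le_coe.2 (le_top : (2 : ℕ∞) ≤ ⊤)
  have hsym := hc.isSymmSndFDerivAt (by simpa using hle)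
  have hdd : DifferentiableAt ℝ (fderiv ℝ G) (s, t) :=
    (hc.fderiv_right (m := ∞) (by simp)).differentiableAt (by simp)
  have e1 : D2 (D1 G) (s, t) = fderiv ℝ (fderiv ℝ G) (s, t) (0, 1) (1, 0) := by
    unfold D2 D1
    rw [fderiv_clm_apply hdd (differentiableAt_const _)]
    simp
  have e2 : D1 (D2 G) (s, t) = fderiv ℝ (fderiv ℝ G) (s, t) (1, 0) (0, 1) := by
    unfold D2 D1
    rw [fderiv_clm_apply hdd (differentiableAt_const _)]
    simp
  rw [e1, e2]
  exact hsym _ _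

end H36

open H36 in
theorem hess_rad' (ε : ℝ) (hε : 0 < ε) (g : ℝ × ℝ → ℝ) (hg : ContDiffOn ℝ ∞ g (Ioi (-ε) ×ˢ univ))
    (z : EuclideanSpace ℝ (Fin 10)) :
    hessianMat (fun w => g (xx w, w 9)) z = blk z
      (2 * deriv (fun s => g (s, z 9)) (xx z))
      (4 * deriv (deriv (fun s => g (s, z 9))) (xx z))
      (2 * deriv (fun s => deriv (fun t => g (s, t)) (z 9)) (xx z))
      (deriv (deriv (fun t => g (xx z, t))) (z 9)) := by
  have hz : -ε < xx z := by have := xx_nonneg z; linarith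
  have a1 : deriv (fun s => g (s, z 9)) (xx z) = D1 g (xx z, z 9) := deriv_fst g hg hz
  have a2 : deriv (deriv (fun s => g (s, z 9))) (xx z) = D1 (D1 g) (xx z, z 9) := by
    rw [← deriv_fst (D1 g) (cdD1 g hg) hz]
    apply Filter.EventuallyEq.deriv_eq
    filter_upwards [isOpen_Ioi.mem_nhds hz] with s hs
    exact deriv_fst g hg hs
  have a3 : deriv (fun s => deriv (fun t => g (s, t)) (z 9)) (xx z) = D1 (D2 g) (xx z, z 9) := by
    rw [← deriv_fst (D2 g) (cdD2 g hg) hz]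
    apply Filter.EventuallyEq.deriv_eq
    filter_upwards [isOpen_Ioi.mem_nhds hz] with s hs
    exact deriv_snd g hg hs
  have a4 : deriv (deriv (fun t => g (xx z, t))) (z 9) = D2 (D2 g) (xx z, z 9) := by
    rw [← deriv_snd (D2 g) (cdD2 g hg) hz]
    apply Filter.EventuallyEq.deriv_eq
    filter_upwards with t
    exact deriv_snd g hg hz
  rw [a1, a2, a3, a4]
  ext i j
  unfold hessianMat
  by_cases hj : j = 9
  · subst hj
    have hfun : (fun y => pderiv (9 : Fin 10) (fun w => g (xx w, w 9)) y)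
        = fun y : EuclideanSpace ℝ (Fin 10) => D2 g (xx y, y 9) := by
      funext y
      rw [pderiv_comp hε g hg y 9, if_pos rfl]
    rw [hfun, pderiv_comp hε (D2 g) (cdD2 g hg) z i]
    unfold blk
    by_cases hi : i = 9
    · subst hi; simp
    · simp [hi]; ring
  · have hfun : (fun y => pderiv j (fun w => g (xx w, w 9)) y)
        = fun y : EuclideanSpace ℝ (Fin 10) => (2 * y j) * D1 g (xx y, y 9) := by
      funext y
      rw [pderiv_comp hε g hg y j, if_neg hj]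
    rw [hfun]
    have hprod : pderiv i (fun y : EuclideanSpace ℝ (Fin 10) => (2 * y j) * D1 g (xx y, y 9)) z
        = (2 * z j) * pderiv i (fun y : EuclideanSpace ℝ (Fin 10) => D1 g (xx y, y 9)) z
          + D1 g (xx z, z 9) * (2 * (if i = j then 1 else 0)) := by
      have hd1 : DifferentiableAt ℝ (fun y : EuclideanSpace ℝ (Fin 10) => D1 g (xx y, y 9)) z := by
        have h1 : HasFDerivAt (D1 g) (fderiv ℝ (D1 g) (xx z, z 9)) (xx z, z 9) :=
          (diffAt (D1 g) (cdD1 g hg) (t := z 9) hz).hasFDerivAt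
        have h2 := h1.comp z (hasFD z)
        exact h2.differentiableAt
      have hc : HasFDerivAt (fun y : EuclideanSpace ℝ (Fin 10) => 2 * y j)
          ((2:ℝ) • (EuclideanSpace.proj j : EuclideanSpace ℝ (Fin 10) →L[ℝ] ℝ)) z :=
        (hasFD_coord j z).const_mul 2
      have hm := (hc.mul hd1.hasFDerivAt).fderiv
      unfold pderiv
      have hm' : fderiv ℝ (fun y : EuclideanSpace ℝ (Fin 10) => (2 * y j) * D1 g (xx y, y 9)) z
        = _ := hm
      rw [hm']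
      simp only [_root_.add_apply, _root_.smul_apply, smul_eq_mul,
        PiLp.proj_apply]
      congr 2
      by_cases hij : i = j
      · subst hij; simp
      · have hji : j ≠ i := fun h => hij h.symm
        simp [hij, hji]
    rw [hprod, pderiv_comp hε (D1 g) (cdD1 g hg) z i]
    unfold blk
    by_cases hi : i = 9
    · subst hi
      have h9 : (9 : Fin 10) ≠ j := fun h => hj h.symm
      simp only [hj, h9, if_false, and_false, if_true]
      rw [symm12 g hg hz]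
      ring
    · simp only [hi, hj, if_false, and_false]
      by_cases hij : i = j
      · subst hij; simp; ring
      · simp [hij]; ring

end Crest.Agent.R236
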