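import Crest.Agent.R236.Skel

set_option autoImplicit false
set_option linter.all false
open scoped ContDiff
open Set Crest.GeometryTopology.CoordMetric Crest.GeometryTopology.AffineMaximal

namespace Crest.Agent.R236

/-- derivative of `w ↦ (|y|², t)` -/
noncomputable def LL (y : EuclideanSpace ℝ (Fin 10)) : EuclideanSpace ℝ (Fin 10) →L[ℝ] ℝ × ℝ :=
  (∑ i : Fin 9, (2 * y (Fin.castSucc i)) •
    (EuclideanSpace.proj (Fin.castSucc i) : EuclideanSpace ℝ (Fin 10) →L[ℝ] ℝ)).prod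
    (EuclideanSpace.proj (9 : Fin 10) : EuclideanSpace ℝ (Fin 10) →L[ℝ] ℝ)

theorem hasFDerivAt_Phi (y : EuclideanSpace ℝ (Fin 10)) :
    HasFDerivAt (fun w : EuclideanSpace ℝ (Fin 10) => (xx w, w 9)) (LL y) y := by
  unfold LL
  refine HasFDerivAt.prodMk ?_ ?_
  · unfold xx
    refine HasFDerivAt.fun_sum fun i _ => ?_
    have h := ((EuclideanSpace.proj (Fin.castSucc i) :
      EuclideanSpace ℝ (Fin 10) →L[ℝ] ℝ).hasFDerivAt (x := y)).pow 2
    simpa using h
  · exact (EuclideanSpace.proj (9 : Fin 10) : EuclideanSpace ℝ (Fin 10) →L[ℝ] ℝ).hasFDerivAt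

theorem hp (j : Fin 10) (v : EuclideanSpace ℝ (Fin 10)) :
    (EuclideanSpace.proj j : EuclideanSpace ℝ (Fin 10) →L[ℝ] ℝ) v = v j := rfl

theorem LL_apply (y v : EuclideanSpace ℝ (Fin 10)) :
    LL y v = (∑ i : Fin 9, (2 * y (Fin.castSucc i)) * v (Fin.castSucc i), v 9) := by
  unfold LL
  ext
  · simp [ContinuousLinearMap.sum_apply]
  · rfl

theorem LL_single (y : EuclideanSpace ℝ (Fin 10)) (i : Fin 10) :
    LL y (EuclideanSpace.single i 1) = if i = 9 then ((0 : ℝ), (1 : ℝ)) else (2 * y i, 0) := by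
  rw [LL_apply]
  refine Fin.lastCases ?_ (fun i => ?_) i
  · have h9 : (Fin.last 9 : Fin 10) = 9 := rfl
    rw [if_pos h9]
    ext
    · dsimp only
      refine Finset.sum_eq_zero fun j _ => ?_
      rw [EuclideanSpace.single_apply, if_neg (Fin.castSucc_lt_last j).ne]
      simp
    · show (EuclideanSpace.single (Fin.last 9) (1 : ℝ) : EuclideanSpace ℝ (Fin 10)) 9 = 1
      rw [EuclideanSpace.single_apply, if_pos h9.symm]
  · have h9 : (Fin.castSucc i : Fin 10) ≠ 9 := (Fin.castSucc_lt_last i).ne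
    rw [if_neg h9]
    ext
    · dsimp only
      rw [Finset.sum_eq_single i]
      · rw [EuclideanSpace.single_apply, if_pos rfl, mul_one]
      · intro j _ hj
        rw [EuclideanSpace.single_apply, if_neg]
        · simp
        · intro h
          exact hj (Fin.castSucc_injective _ h)
      · simp
    · show (EuclideanSpace.single (Fin.castSucc i) (1 : ℝ) : EuclideanSpace ℝ (Fin 10)) 9 = 0
      rw [EuclideanSpace.single_apply, if_neg h9.symm]

theorem xx_nonneg (y : EuclideanSpace ℝ (Fin 10)) : 0 ≤ xx y :=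
  Finset.sum_nonneg fun _ _ => sq_nonneg _

theorem hasFDerivAt_comp (G : ℝ × ℝ → ℝ) (y : EuclideanSpace ℝ (Fin 10))
    (hG : DifferentiableAt ℝ G (xx y, y 9)) :
    HasFDerivAt (fun w : EuclideanSpace ℝ (Fin 10) => G (xx w, w 9))
      ((fderiv ℝ G (xx y, y 9)).comp (LL y)) y :=
  HasFDerivAt.comp y (f := fun w : EuclideanSpace ℝ (Fin 10) => (xx w, w 9))
    hG.hasFDerivAt (hasFDerivAt_Phi y)

theorem comp_single (G : ℝ × ℝ → ℝ) (y : EuclideanSpace ℝ (Fin 10)) (i : Fin 10) :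
    ((fderiv ℝ G (xx y, y 9)).comp (LL y)) (EuclideanSpace.single i 1) =
      if i = 9 then fderiv ℝ G (xx y, y 9) (0, 1) else 2 * y i * fderiv ℝ G (xx y, y 9) (1, 0) := by
  rw [ContinuousLinearMap.comp_apply, LL_single]
  split_ifs
  · rfl
  · have : ((2 * y i, 0) : ℝ × ℝ) = (2 * y i) • ((1 : ℝ), (0 : ℝ)) := by ext <;> simp
    rw [this, map_smul, smul_eq_mul]

theorem pderiv_comp (G : ℝ × ℝ → ℝ) (y : EuclideanSpace ℝ (Fin 10))
    (hG : DifferentiableAt ℝ G (xx y, y 9)) (i : Fin 10) :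
    pderiv i (fun w => G (xx w, w 9)) y =
      if i = 9 then fderiv ℝ G (xx y, y 9) (0, 1) else 2 * y i * fderiv ℝ G (xx y, y 9) (1, 0) := by
  unfold pderiv
  rw [(hasFDerivAt_comp G y hG).fderiv, comp_single]

theorem pderiv_mul_comp (G : ℝ × ℝ → ℝ) (y : EuclideanSpace ℝ (Fin 10))
    (hG : DifferentiableAt ℝ G (xx y, y 9)) (i j : Fin 10) :
    pderiv i (fun w => 2 * w j * G (xx w, w 9)) y =
      2 * y j * (if i = 9 then fderiv ℝ G (xx y, y 9) (0, 1)
        else 2 * y i * fderiv ℝ G (xx y, y 9) (1, 0))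
      + G (xx y, y 9) * (2 * if j = i then 1 else 0) := by
  have h1 : HasFDerivAt (fun w : EuclideanSpace ℝ (Fin 10) => 2 * w j)
      ((2 : ℝ) • (EuclideanSpace.proj j : EuclideanSpace ℝ (Fin 10) →L[ℝ] ℝ)) y :=
    (EuclideanSpace.proj j : EuclideanSpace ℝ (Fin 10) →L[ℝ] ℝ).hasFDerivAt.const_mul 2
  have h2 := h1.mul (hasFDerivAt_comp G y hG)
  unfold pderiv
  have h3 : fderiv ℝ (fun w : EuclideanSpace ℝ (Fin 10) => 2 * w j * G (xx w, w 9)) y = _ :=
    h2.fderiv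
  rw [h3, ContinuousLinearMap.add_apply, ContinuousLinearMap.smul_apply,
    ContinuousLinearMap.smul_apply, comp_single, ContinuousLinearMap.smul_apply, hp,
    EuclideanSpace.single_apply]
  simp only [smul_eq_mul]

theorem hess_rad' (ε : ℝ) (hε : 0 < ε) (g : ℝ × ℝ → ℝ) (hg : ContDiffOn ℝ ∞ g (Ioi (-ε) ×ˢ univ))
    (z : EuclideanSpace ℝ (Fin 10)) :
    hessianMat (fun w => g (xx w, w 9)) z = blk z
      (2 * deriv (fun s => g (s, z 9)) (xx z))
      (4 * deriv (deriv (fun s => g (s, z 9))) (xx z))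
      (2 * deriv (fun s => deriv (fun t => g (s, t)) (z 9)) (xx z))
      (deriv (deriv (fun t => g (xx z, t))) (z 9)) := by
  have hU : IsOpen (Ioi (-ε) ×ˢ (univ : Set ℝ)) := isOpen_Ioi.prod isOpen_univ
  have hcd : ∀ s t : ℝ, -ε < s → ContDiffAt ℝ ∞ g (s, t) := fun s t hs =>
    hg.contDiffAt (hU.mem_nhds ⟨hs, mem_univ _⟩)
  have hd : ∀ s t : ℝ, -ε < s → DifferentiableAt ℝ g (s, t) := fun s t hs =>
    (hcd s t hs).differentiableAt (by simp)
  have hF : ∀ s t : ℝ, -ε < s → ContDiffAt ℝ ∞ (fderiv ℝ g) (s, t) := fun s t hs =>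
    (hcd s t hs).fderiv_right (by simp)
  have hFd : ∀ s t : ℝ, -ε < s → DifferentiableAt ℝ (fderiv ℝ g) (s, t) := fun s t hs =>
    (hF s t hs).differentiableAt (by simp)
  set G1 : ℝ × ℝ → ℝ := fun p => fderiv ℝ g p (1, 0) with hG1
  set G2 : ℝ × ℝ → ℝ := fun p => fderiv ℝ g p (0, 1) with hG2
  have hap : ∀ (s t : ℝ) (v w : ℝ × ℝ), -ε < s →
      HasFDerivAt (fun p => fderiv ℝ g p v) ((fderiv ℝ (fderiv ℝ g) (s, t)).flip v) (s, t) := by
    intro s t v w hs
    have := (hFd s t hs).hasFDerivAt.clm_apply (hasFDerivAt_const v (s, t))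
    simpa using this
  have hd1 : ∀ s t : ℝ, -ε < s → DifferentiableAt ℝ G1 (s, t) := fun s t hs =>
    (hap s t (1, 0) 0 hs).differentiableAt
  have hd2 : ∀ s t : ℝ, -ε < s → DifferentiableAt ℝ G2 (s, t) := fun s t hs =>
    (hap s t (0, 1) 0 hs).differentiableAt
  have hz : -ε < xx z := lt_of_lt_of_le (by linarith) (xx_nonneg z)
  have hy : ∀ y : EuclideanSpace ℝ (Fin 10), -ε < xx y := fun y =>
    lt_of_lt_of_le (by linarith) (xx_nonneg y)
  -- one variable derivatives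
  have e1 : ∀ (G : ℝ × ℝ → ℝ) (s t : ℝ), DifferentiableAt ℝ G (s, t) →
      deriv (fun s => G (s, t)) s = fderiv ℝ G (s, t) (1, 0) := by
    intro G s t h
    have h2 : HasDerivAt (fun s : ℝ => ((s, t) : ℝ × ℝ)) ((1 : ℝ), (0 : ℝ)) s :=
      (hasDerivAt_id s).prodMk (hasDerivAt_const s t)
    exact (h.hasFDerivAt.comp_hasDerivAt s h2).deriv
  have e2 : ∀ (G : ℝ × ℝ → ℝ) (s t : ℝ), DifferentiableAt ℝ G (s, t) →
      deriv (fun t => G (s, t)) t = fderiv ℝ G (s, t) (0, 1) := by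
    intro G s t h
    have h2 : HasDerivAt (fun t : ℝ => ((s, t) : ℝ × ℝ)) ((0 : ℝ), (1 : ℝ)) t :=
      (hasDerivAt_const t s).prodMk (hasDerivAt_id t)
    exact (h.hasFDerivAt.comp_hasDerivAt t h2).deriv
  have hev : ∀ᶠ s in nhds (xx z), -ε < s := isOpen_Ioi.mem_nhds hz
  have r1 : deriv (fun s => g (s, z 9)) (xx z) = G1 (xx z, z 9) := e1 g _ _ (hd _ _ hz)
  have r11 : deriv (deriv (fun s => g (s, z 9))) (xx z) = fderiv ℝ G1 (xx z, z 9) (1, 0) := by
    rw [← e1 G1 _ _ (hd1 _ _ hz)]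
    exact Filter.EventuallyEq.deriv_eq (hev.mono fun s hs => e1 g _ _ (hd _ _ hs))
  have r21 : deriv (fun s => deriv (fun t => g (s, t)) (z 9)) (xx z)
      = fderiv ℝ G2 (xx z, z 9) (1, 0) := by
    rw [← e1 G2 _ _ (hd2 _ _ hz)]
    exact Filter.EventuallyEq.deriv_eq (hev.mono fun s hs => e2 g _ _ (hd _ _ hs))
  have r22 : deriv (deriv (fun t => g (xx z, t))) (z 9) = fderiv ℝ G2 (xx z, z 9) (0, 1) := by
    rw [← e2 G2 _ _ (hd2 _ _ hz)]
    congr 1
    funext t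
    exact e2 g _ _ (hd _ _ hz)
  have hsym : fderiv ℝ G1 (xx z, z 9) (0, 1) = fderiv ℝ G2 (xx z, z 9) (1, 0) := by
    have hs := (hcd (xx z) (z 9) hz).isSymmSndFDerivAt (by
      rw [minSmoothness_of_isRCLikeNormedField]
      exact (WithTop.coe_le_coe.2 (le_top : (2 : ℕ∞) ≤ ⊤)))
    rw [(hap (xx z) (z 9) (1, 0) 0 hz).fderiv, (hap (xx z) (z 9) (0, 1) 0 hz).fderiv]
    exact hs (0, 1) (1, 0)
  rw [r1, r11, r21, r22]
  ext i j
  unfold hessianMat
  have hp1 : ∀ y : EuclideanSpace ℝ (Fin 10), pderiv j (fun w => g (xx w, w 9)) y =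
      if j = 9 then G2 (xx y, y 9) else 2 * y j * G1 (xx y, y 9) := fun y =>
    pderiv_comp g y (hd _ _ (hy y)) j
  simp only [hp1]
  unfold blk
  by_cases hj : j = 9
  · simp only [hj, if_true, and_true]
    rw [pderiv_comp G2 z (hd2 _ _ hz) i]
    by_cases hi : i = 9
    · simp [hi]
    · simp only [hi, if_false]
      ring
  · simp only [hj, if_false, and_false]
    rw [pderiv_mul_comp G1 z (hd1 _ _ hz) i j]
    by_cases hi : i = 9
    · have hji : ¬ j = i := fun h => hj (h.trans hi)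
      simp only [hi, if_true, hsym]
      rw [if_neg hj]
      ring
    · simp only [hi, if_false]
      by_cases hij : i = j
      · simp only [hij, if_true]; ring
      · rw [if_neg (Ne.symm hij), if_neg hij]; ring

end Crest.Agent.R236
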