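import Mathlib
set_option autoImplicit false
open scoped ContDiff
open Set

namespace Crest.Agent.R236

private theorem k2_alg (x f a a' D D' K K1 X g : ℝ) (hf : 0 < f) (ha : 0 < a) (hD : 0 < D)
    (hX : 0 < X) (hXe : X = 9 * f + 4 * x * a) (hDe : D = a + 2 * x * a') (hg : g = (a - 2 * D) / X)
    (hK1 : K1 = 11 * K * g)
    (hL : D' / D = a / f - 8 * a' / a - 12 * g) :
    f * (8 * K1 / a + (K1 + 2 * x * (11 * (K * ((a' - 2 * D') / X - (a - 2 * D) * (13 * a + 4 * x * a') / X ^ 2)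
      + K1 * g))) / D) + 11 * K = 0 := by
  have hD' : D' = D * (a / f - 8 * a' / a - 12 * g) := by
    rw [← hL]; field_simp
  have h2 : 2 * x * a' = D - a := by linarith
  have h3 : 2 * x * D' = D * (2 * x * a / f - 8 * (D - a) / a - 24 * x * g) := by
    rw [hD', ← h2]; ring
  have h4 : 2 * x * ((a' - 2 * D') / X - (a - 2 * D) * (13 * a + 4 * x * a') / X ^ 2)
      = ((D - a) - 2 * (D * (2 * x * a / f - 8 * (D - a) / a - 24 * x * g))) / X
        - 2 * x * (a - 2 * D) * (11 * a + 2 * D) / X ^ 2 := by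
    rw [← h3, ← h2]
    have : (13 * a + 4 * x * a') = 11 * a + 2 * D := by linarith
    rw [this]; ring
  have h5 : f * (8 * K1 / a + (K1 + 2 * x * (11 * (K * ((a' - 2 * D') / X - (a - 2 * D) * (13 * a + 4 * x * a') / X ^ 2)
      + K1 * g))) / D) + 11 * K
      = 11 * K * (f * (8 * g / a + (g + 2 * x * ((a' - 2 * D') / X - (a - 2 * D) * (13 * a + 4 * x * a') / X ^ 2)
        + 22 * x * g ^ 2) / D) + 1) := by
    rw [hK1]; ring
  rw [h5, h4, hg]
  have hXp : X ≠ 0 := hX.ne'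
  have : f * (8 * ((a - 2 * D) / X) / a + ((a - 2 * D) / X + (((D - a) - 2 * (D * (2 * x * a / f - 8 * (D - a) / a - 24 * x * ((a - 2 * D) / X)))) / X
        - 2 * x * (a - 2 * D) * (11 * a + 2 * D) / X ^ 2)
        + 22 * x * ((a - 2 * D) / X) ^ 2) / D) + 1 = 0 := by
    have hk : f * (8 * ((a - 2 * D) / X) / a + ((a - 2 * D) / X + (((D - a) - 2 * (D * (2 * x * a / f - 8 * (D - a) / a - 24 * x * ((a - 2 * D) / X)))) / X
        - 2 * x * (a - 2 * D) * (11 * a + 2 * D) / X ^ 2)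
        + 22 * x * ((a - 2 * D) / X) ^ 2) / D) + 1 = (X - 9 * f - 4 * x * a) / X := by
      field_simp
      ring
    rw [hk, hXe]; ring
  rw [this]; ring

private theorem k2_dv (A B X X' : ℝ) (hX : X ≠ 0) :
    (A * X - B * X') / X ^ 2 = A / X - B * X' / X ^ 2 := by
  field_simp

/-- K2 -/
theorem second_order' (ε : ℝ) (hε : 0 < ε) (f : ℝ → ℝ) (hf : ContDiffOn ℝ ∞ f (Ioi (-ε)))
    (h : ∀ x ∈ Ioi (-ε), 0 < f x ∧ 0 < deriv f x ∧ 0 < deriv f x + 2 * x * deriv (deriv f) x ∧
      0 < 9 * f x + 4 * x * deriv f x ∧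
      (9 * f x + 4 * x * deriv f x) *
        deriv (fun z => (f z / (deriv f z ^ 8 * (deriv f z + 2 * z * deriv (deriv f) z))) ^ ((11:ℝ)/12)) x
       = 11 * (f x / (deriv f x ^ 8 * (deriv f x + 2 * x * deriv (deriv f) x))) ^ ((11:ℝ)/12) *
          (deriv f x - 2 * (deriv f x + 2 * x * deriv (deriv f) x))) :
    ∃ K : ℝ → ℝ, ContDiffOn ℝ ∞ K (Ioi (-ε)) ∧ ∀ x ∈ Ioi (-ε),
      K x = (f x / (deriv f x ^ 8 * (deriv f x + 2 * x * deriv (deriv f) x))) ^ ((11:ℝ)/12) ∧
      f x * (8 * deriv K x / deriv f x + (deriv K x + 2 * x * deriv (deriv K) x) /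
        (deriv f x + 2 * x * deriv (deriv f) x)) + 11 * K x = 0 := by
  have ho : IsOpen (Ioi (-ε)) := isOpen_Ioi
  set a : ℝ → ℝ := deriv f with ha
  set D : ℝ → ℝ := fun z => a z + 2 * z * deriv a z with hD
  have hca : ContDiffOn ℝ ∞ a (Ioi (-ε)) := hf.deriv_of_isOpen ho (by simp)
  have hcb : ContDiffOn ℝ ∞ (deriv a) (Ioi (-ε)) := hca.deriv_of_isOpen ho (by simp)
  have hcD : ContDiffOn ℝ ∞ D (Ioi (-ε)) := by
    refine hca.add (ContDiffOn.mul ?_ hcb)
    exact (contDiff_const.mul contDiff_id).contDiffOn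
  set K : ℝ → ℝ := fun z => (f z / (a z ^ 8 * D z)) ^ ((11:ℝ)/12) with hK
  have hu : ∀ x ∈ Ioi (-ε), 0 < f x / (a x ^ 8 * D x) := by
    intro x hx
    obtain ⟨h1, h2, h3, -, -⟩ := h x hx
    have h3' : 0 < D x := h3
    positivity
  have hcu : ContDiffOn ℝ ∞ (fun z => f z / (a z ^ 8 * D z)) (Ioi (-ε)) := by
    refine hf.div ((hca.pow 8).mul hcD) ?_
    intro x hx
    obtain ⟨h1, h2, h3, -, -⟩ := h x hx
    have h3' : 0 < D x := h3
    have h2' : 0 < a x := h2
    positivity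
  have hcK : ContDiffOn ℝ ∞ K (Ioi (-ε)) :=
    hcu.rpow_const_of_ne (fun x hx => (hu x hx).ne')
  refine ⟨K, hcK, fun x hx => ⟨rfl, ?_⟩⟩
  have hd : ∀ {F : ℝ → ℝ}, ContDiffOn ℝ ∞ F (Ioi (-ε)) → ∀ y ∈ Ioi (-ε), HasDerivAt F (deriv F y) y := by
    intro F hF y hy
    exact ((hF.differentiableOn (by simp)).differentiableAt (ho.mem_nhds hy)).hasDerivAt
  -- K' formula on the whole set
  have hK1 : ∀ y ∈ Ioi (-ε), deriv K y = 11 * K y * ((a y - 2 * D y) / (9 * f y + 4 * y * a y)) := by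
    intro y hy
    obtain ⟨h1, h2, h3, h4, h5⟩ := h y hy
    have h5' : (9 * f y + 4 * y * a y) * deriv K y = 11 * K y * (a y - 2 * D y) := h5
    have h4' : 0 < 9 * f y + 4 * y * a y := h4
    rw [← mul_div_assoc, eq_div_iff h4'.ne']
    linarith
  obtain ⟨h1, h2, h3, h4, h5⟩ := h x hx
  have h2' : 0 < a x := h2
  have h3' : 0 < D x := h3
  have h4' : 0 < 9 * f x + 4 * x * a x := h4
  -- second derivative
  have hX : HasDerivAt (fun y => 9 * f y + 4 * y * a y) (13 * a x + 4 * x * deriv a x) x := by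
    have e1 := (hd hf x hx).const_mul 9
    have e2 := (((hasDerivAt_id x).const_mul (4:ℝ)).mul (hd hca x hx))
    have e3 := e1.add e2
    refine e3.congr_deriv ?_
    simp only [id]
    change 9 * a x + (4 * 1 * a x + 4 * x * deriv a x) = _
    ring
  have hg : HasDerivAt (fun y => (a y - 2 * D y) / (9 * f y + 4 * y * a y))
      ((deriv a x - 2 * deriv D x) / (9 * f x + 4 * x * a x) -
        (a x - 2 * D x) * (13 * a x + 4 * x * deriv a x) / (9 * f x + 4 * x * a x) ^ 2) x := by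
    have e1 := ((hd hca x hx).sub ((hd hcD x hx).const_mul 2)).div hX h4'.ne'
    refine e1.congr_deriv ?_
    exact k2_dv _ _ _ _ h4'.ne'
  have hK2 : deriv (deriv K) x = 11 * (K x * ((deriv a x - 2 * deriv D x) / (9 * f x + 4 * x * a x) -
        (a x - 2 * D x) * (13 * a x + 4 * x * deriv a x) / (9 * f x + 4 * x * a x) ^ 2)
        + deriv K x * ((a x - 2 * D x) / (9 * f x + 4 * x * a x))) := by
    have e1 : deriv K =ᶠ[nhds x] fun y => 11 * K y * ((a y - 2 * D y) / (9 * f y + 4 * y * a y)) := by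
      filter_upwards [ho.mem_nhds hx] with y hy using hK1 y hy
    rw [e1.deriv_eq]
    have e2 := ((hd hcK x hx).const_mul (11:ℝ)).mul hg
    have e3 : deriv (fun y => 11 * K y * ((a y - 2 * D y) / (9 * f y + 4 * y * a y))) x = _ := e2.deriv
    rw [e3]
    ring
  -- logarithmic derivative
  have hL : deriv D x / D x = a x / f x - 8 * deriv a x / a x
      - 12 * ((a x - 2 * D x) / (9 * f x + 4 * x * a x)) := by
    have hlog : ∀ y ∈ Ioi (-ε), Real.log (K y) = 11 / 12 * (Real.log (f y) - 8 * Real.log (a y) - Real.log (D y)) := by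
      intro y hy
      obtain ⟨g1, g2, g3, -, -⟩ := h y hy
      have g2' : 0 < a y := g2
      have g3' : 0 < D y := g3
      rw [hK]
      simp only
      rw [Real.log_rpow (hu y hy), Real.log_div g1.ne' (by positivity), Real.log_mul (by positivity) g3'.ne',
        Real.log_pow]
      push_cast
      ring
    have hKx : 0 < K x := Real.rpow_pos_of_pos (hu x hx) _
    have e1 : HasDerivAt (fun y => Real.log (K y)) (deriv K x / K x) x := (hd hcK x hx).log hKx.ne'
    have e2 : HasDerivAt (fun y => 11 / 12 * (Real.log (f y) - 8 * Real.log (a y) - Real.log (D y)))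
        (11 / 12 * (deriv f x / f x - 8 * (deriv a x / a x) - deriv D x / D x)) x :=
      ((((hd hf x hx).log h1.ne').sub (((hd hca x hx).log h2'.ne').const_mul 8)).sub
        ((hd hcD x hx).log h3'.ne')).const_mul _
    have e3 : (fun y => Real.log (K y)) =ᶠ[nhds x] fun y => 11 / 12 * (Real.log (f y) - 8 * Real.log (a y) - Real.log (D y)) := by
      filter_upwards [ho.mem_nhds hx] with y hy using hlog y hy
    have e4 := (e2.congr_of_eventuallyEq e3).unique e1
    have e5 : deriv K x / K x = 11 * ((a x - 2 * D x) / (9 * f x + 4 * x * a x)) := by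
      rw [hK1 x hx]; field_simp
    rw [e5] at e4
    have e6 : deriv f x = a x := rfl
    rw [e6] at e4
    have e7 : 8 * deriv a x / a x = 8 * (deriv a x / a x) := by ring
    rw [e7]
    linarith
  have := k2_alg x (f x) (a x) (deriv a x) (D x) (deriv D x) (K x) (deriv K x) (9 * f x + 4 * x * a x)
    ((a x - 2 * D x) / (9 * f x + 4 * x * a x)) h1 h2' h3' h4' rfl rfl rfl (hK1 x hx) hL
  rw [← hK2] at this
  exact this

end Crest.Agent.R236
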