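import Mathlib

set_option autoImplicit false
open scoped ContDiff
open Set

namespace Crest.Agent.R236

theorem k2_alg (x f a b D d K k1 k2 : ℝ) (hf : 0 < f) (ha : 0 < a) (hD : 0 < D) (hK : 0 < K)
    (hX : 0 < 9 * f + 4 * x * a) (hDb : D = a + 2 * x * b)
    (R0 : (9 * f + 4 * x * a) * k1 = 11 * K * (a - 2 * D))
    (R1 : (9 * a + (4 * a + 4 * x * b)) * k1 + (9 * f + 4 * x * a) * k2
      = 11 * k1 * (a - 2 * D) + 11 * K * (b - 2 * d))
    (KD : k1 = 11 / 12 * K * (a / f - 8 * b / a - d / D)) :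
    f * (8 * k1 / a + (k1 + 2 * x * k2) / D) + 11 * K = 0 := by
  have KD' : 12 * k1 * (f * a * D) = 11 * K * (a * a * D - 8 * b * f * D - d * f * a) := by
    rw [KD]; field_simp
  have key : (9 * f + 4 * x * a) * (f * (8 * D * k1 + a * (k1 + 2 * x * k2)) + 11 * K * a * D) = 0 := by
    subst hDb
    linear_combination (f * (8 * (a + 2 * x * b) + a)) * R0 + (2 * x * a * f) * R1
      - 4 * x * KD'
  have hX' := (mul_eq_zero.1 key).resolve_left hX.ne'
  have : f * (8 * k1 / a + (k1 + 2 * x * k2) / D) + 11 * K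
      = (f * (8 * D * k1 + a * (k1 + 2 * x * k2)) + 11 * K * a * D) / (a * D) := by
    field_simp
  rw [this, hX', zero_div]

theorem second_order' (ε : ℝ) (hε : 0 < ε) (f : ℝ → ℝ) (hf : ContDiffOn ℝ ∞ f (Ioi (-ε)))
    (h : ∀ x ∈ Ioi (-ε), 0 < f x ∧ 0 < deriv f x ∧ 0 < deriv f x + 2 * x * deriv (deriv f) x ∧
      0 < 9 * f x + 4 * x * deriv f x ∧
      (9 * f x + 4 * x * deriv f x) *
        deriv (fun z => (f z / (deriv f z ^ 8 * (deriv f z + 2 * z * deriv (deriv f) z))) ^ ((11:ℝ)/12)) x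
       = 11 * (f x / (deriv f x ^ 8 * (deriv f x + 2 * x * deriv (deriv f) x))) ^ ((11:ℝ)/12) *
          (deriv f x - 2 * (deriv f x + 2 * x * deriv (deriv f) x))) :
    ∃ K : ℝ → ℝ, ContDiffOn ℝ ∞ K (Ioi (-ε)) ∧ ∀ x ∈ Ioi (-ε),
      K x = (f x / (deriv f x ^ 8 * (deriv f x + 2 * x * deriv (deriv f) x))) ^ ((11:ℝ)/12) ∧
      f x * (8 * deriv K x / deriv f x + (deriv K x + 2 * x * deriv (deriv K) x) /
        (deriv f x + 2 * x * deriv (deriv f) x)) + 11 * K x = 0 := by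
  set U : Set ℝ := Ioi (-ε) with hU
  have hUo : IsOpen U := isOpen_Ioi
  have hcd : ∀ {g : ℝ → ℝ}, ContDiffOn ℝ ∞ g U → ContDiffOn ℝ ∞ (deriv g) U := by
    intro g hg
    exact hg.deriv_of_isOpen hUo (by simp)
  have hda : ∀ {g : ℝ → ℝ}, ContDiffOn ℝ ∞ g U → ∀ x ∈ U, HasDerivAt g (deriv g x) x := by
    intro g hg x hx
    exact ((hg.differentiableOn (by simp)).differentiableAt (hUo.mem_nhds hx)).hasDerivAt
  have ha := hcd hf
  have hb := hcd ha
  set a : ℝ → ℝ := deriv f with hadef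
  set b : ℝ → ℝ := deriv a with hbdef
  set D : ℝ → ℝ := fun z => a z + 2 * z * b z with hDdef
  have hDc : ContDiffOn ℝ ∞ D U := ha.add ((contDiffOn_const.mul contDiffOn_id).mul hb)
  have hDpos : ∀ x ∈ U, 0 < D x := fun x hx => (h x hx).2.2.1
  have hG : ContDiffOn ℝ ∞ (fun z => f z / (a z ^ 8 * D z)) U := by
    refine hf.div ((ha.pow 8).mul hDc) ?_
    intro x hx
    exact (mul_pos (pow_pos (h x hx).2.1 8) (hDpos x hx)).ne'
  have hGpos : ∀ x ∈ U, 0 < f x / (a x ^ 8 * D x) := fun x hx =>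
    div_pos (h x hx).1 (mul_pos (pow_pos (h x hx).2.1 8) (hDpos x hx))
  set K : ℝ → ℝ := fun z => (f z / (a z ^ 8 * D z)) ^ ((11:ℝ)/12) with hKdef
  have hK : ContDiffOn ℝ ∞ K U := hG.rpow_const_of_ne (fun x hx => (hGpos x hx).ne')
  have hKpos : ∀ x ∈ U, 0 < K x := fun x hx => Real.rpow_pos_of_pos (hGpos x hx) _
  have hK' := hcd hK
  refine ⟨K, hK, fun x hx => ⟨rfl, ?_⟩⟩
  obtain ⟨h1, h2, h3, h4, h5⟩ := h x hx
  have dF := hda hf x hx
  have dA := hda ha x hx
  have dB := hda hb x hx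
  have dD := hda hDc x hx
  have dK := hda hK x hx
  have dK' := hda hK' x hx
  -- relation as functions
  have hrel : (fun z => (9 * f z + 4 * z * a z) * deriv K z)
      =ᶠ[nhds x] (fun z => 11 * K z * (a z - 2 * D z)) := by
    filter_upwards [hUo.mem_nhds hx] with z hz
    exact (h z hz).2.2.2.2
  have dL : HasDerivAt (fun z => (9 * f z + 4 * z * a z) * deriv K z)
      ((9 * a x + (4 * a x + 4 * x * b x)) * deriv K x + (9 * f x + 4 * x * a x) * deriv (deriv K) x) x := by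
    have e1 : HasDerivAt (fun z => 9 * f z + 4 * z * a z) (9 * a x + (4 * a x + 4 * x * b x)) x := by
      refine HasDerivAt.congr_deriv ((dF.const_mul 9).add (((hasDerivAt_id' x).const_mul 4).mul dA)) ?_
      show 9 * a x + (4 * 1 * a x + 4 * x * b x) = _
      ring
    exact e1.mul dK'
  have dR : HasDerivAt (fun z => 11 * K z * (a z - 2 * D z))
      (11 * deriv K x * (a x - 2 * D x) + 11 * K x * (b x - 2 * deriv D x)) x :=
    (dK.const_mul 11).mul (dA.sub (dD.const_mul 2))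
  have R1 : (9 * a x + (4 * a x + 4 * x * b x)) * deriv K x + (9 * f x + 4 * x * a x) * deriv (deriv K) x
      = 11 * deriv K x * (a x - 2 * D x) + 11 * K x * (b x - 2 * deriv D x) := by
    rw [← dL.deriv, ← dR.deriv]
    exact hrel.deriv_eq
  have KD : deriv K x = 11 / 12 * K x * (a x / f x - 8 * b x / a x - deriv D x / D x) := by
    have e1 : HasDerivAt (fun z => f z / (a z ^ 8 * D z))
        ((a x * (a x ^ 8 * D x) - f x * ((8 * a x ^ 7 * b x) * D x + a x ^ 8 * deriv D x))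
          / (a x ^ 8 * D x) ^ 2) x := by
      have e2 : HasDerivAt (fun z => a z ^ 8 * D z)
          ((8 * a x ^ 7 * b x) * D x + a x ^ 8 * deriv D x) x := by
        refine HasDerivAt.congr_deriv ((dA.pow 8).mul dD) ?_
        show ((8:ℕ):ℝ) * a x ^ 7 * b x * D x + a x ^ 8 * deriv D x = _
        push_cast
        ring
      exact dF.div e2 (mul_pos (pow_pos h2 8) (hDpos x hx)).ne'
    have e3 := e1.rpow_const (p := (11:ℝ)/12) (Or.inl (hGpos x hx).ne')
    have e4 : deriv K x = _ := e3.deriv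
    rw [e4, Real.rpow_sub_one (hGpos x hx).ne']
    have hfx := h1.ne'
    have hax := h2.ne'
    have hDx := (hDpos x hx).ne'
    have : K x = (f x / (a x ^ 8 * D x)) ^ ((11:ℝ)/12) := rfl
    rw [← this]
    generalize K x = k
    field_simp
    ring
  exact k2_alg x (f x) (a x) (b x) (D x) (deriv D x) (K x) (deriv K x) (deriv (deriv K) x) h1 h2
    (hDpos x hx) (hKpos x hx) h4 rfl h5 R1 KD

end Crest.Agent.R236
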