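import Crest.Agent.R236.Skel

set_option autoImplicit false
open scoped ContDiff
open Set

namespace Crest.Agent.R236

theorem second_order' (ε : ℝ) (hε : 0 < ε) (f : ℝ → ℝ) (hf : ContDiffOn ℝ ∞ f (Ioi (-ε)))
    (h : ∀ x ∈ Ioi (-ε), 0 < f x ∧ 0 < deriv f x ∧ 0 < deriv f x + 2 * x * deriv (deriv f) x ∧
      0 < 9 * f x + 4 * x * deriv f x ∧
      (9 * f x + 4 * x * deriv f x) *
        deriv (fun z => (f z / (deriv f z ^ 8 * (deriv f z + 2 * z * deriv (deriv f) z))) ^ ((11:ℝ)/12)) x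
       = 11 * (f x / (deriv f x ^ 8 * (deriv f x + 2 * x * deriv (deriv f) x))) ^ ((11:ℝ)/12) *
          (deriv f x - 2 * (deriv f x + 2 * x * deriv (deriv f) x))) :
    ∃ K : ℝ → ℝ, ContDiffOn ℝ ∞ K (Ioi (-ε)) ∧ ∀ x ∈ Ioi (-ε),
      K x = (f x / (deriv f x ^ 8 * (deriv f x + 2 * x * deriv (deriv f) x))) ^ ((11:ℝ)/12) ∧
      f x * (8 * deriv K x / deriv f x + (deriv K x + 2 * x * deriv (deriv K) x) /
        (deriv f x + 2 * x * deriv (deriv f) x)) + 11 * K x = 0 := by
  have hS : IsOpen (Ioi (-ε)) := isOpen_Ioi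
  have ha : ContDiffOn ℝ ∞ (deriv f) (Ioi (-ε)) := hf.deriv_of_isOpen hS (by norm_num)
  have hb : ContDiffOn ℝ ∞ (deriv (deriv f)) (Ioi (-ε)) := ha.deriv_of_isOpen hS (by norm_num)
  have hD : ContDiffOn ℝ ∞ (fun z => deriv f z + 2 * z * deriv (deriv f) z) (Ioi (-ε)) :=
    ha.add ((contDiffOn_const.mul contDiffOn_id).mul hb)
  have hden : ContDiffOn ℝ ∞ (fun z => deriv f z ^ 8 * (deriv f z + 2 * z * deriv (deriv f) z))
      (Ioi (-ε)) := (ha.pow 8).mul hD
  have hdenpos : ∀ z ∈ Ioi (-ε),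
      0 < deriv f z ^ 8 * (deriv f z + 2 * z * deriv (deriv f) z) := fun z hz =>
    mul_pos (pow_pos (h z hz).2.1 8) (h z hz).2.2.1
  have hg : ContDiffOn ℝ ∞
      (fun z => f z / (deriv f z ^ 8 * (deriv f z + 2 * z * deriv (deriv f) z))) (Ioi (-ε)) :=
    hf.div hden (fun z hz => (hdenpos z hz).ne')
  have hgpos : ∀ z ∈ Ioi (-ε),
      0 < f z / (deriv f z ^ 8 * (deriv f z + 2 * z * deriv (deriv f) z)) := fun z hz =>
    div_pos (h z hz).1 (hdenpos z hz)
  set K : ℝ → ℝ := fun z =>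
    (f z / (deriv f z ^ 8 * (deriv f z + 2 * z * deriv (deriv f) z))) ^ ((11:ℝ)/12) with hKdef
  have hK : ContDiffOn ℝ ∞ K (Ioi (-ε)) :=
    hg.rpow_const_of_ne (fun z hz => (hgpos z hz).ne')
  have hK1 : ContDiffOn ℝ ∞ (deriv K) (Ioi (-ε)) := hK.deriv_of_isOpen hS (by norm_num)
  refine ⟨K, hK, fun x hx => ⟨rfl, ?_⟩⟩
  have hdiff : ∀ {g : ℝ → ℝ}, ContDiffOn ℝ ∞ g (Ioi (-ε)) → HasDerivAt g (deriv g x) x :=
    fun {g} hg' => ((hg'.differentiableOn (by simp)).differentiableAt (hS.mem_nhds hx)).hasDerivAt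
  obtain ⟨hf0, ha0, hD0, hX0, hrel⟩ := h x hx
  have df := hdiff hf
  have da := hdiff ha
  have db := hdiff hb
  have dK := hdiff hK
  have dK1 := hdiff hK1
  -- derivative of D
  have dD : HasDerivAt (fun z => deriv f z + 2 * z * deriv (deriv f) z)
      (deriv (deriv f) x + (2 * deriv (deriv f) x + 2 * x * deriv (deriv (deriv f)) x)) x :=
    HasDerivAt.congr_deriv (da.add (((hasDerivAt_id x).const_mul 2).mul db))
      (by simp only [id_eq]; ring)
  have dL : HasDerivAt (fun z => (9 * f z + 4 * z * deriv f z) * deriv K z)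
      ((9 * deriv f x + (4 * deriv f x + 4 * x * deriv (deriv f) x)) * deriv K x +
        (9 * f x + 4 * x * deriv f x) * deriv (deriv K) x) x :=
    HasDerivAt.congr_deriv
      (((df.const_mul 9).add (((hasDerivAt_id x).const_mul 4).mul da)).mul dK1)
      (by simp only [id_eq, Pi.add_apply, Pi.mul_apply]; ring)
  have dR : HasDerivAt
      (fun z => 11 * K z * (deriv f z - 2 * (deriv f z + 2 * z * deriv (deriv f) z)))
      (11 * deriv K x * (deriv f x - 2 * (deriv f x + 2 * x * deriv (deriv f) x)) +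
        11 * K x * (deriv (deriv f) x - 2 * (deriv (deriv f) x + (2 * deriv (deriv f) x +
          2 * x * deriv (deriv (deriv f)) x)))) x :=
    HasDerivAt.congr_deriv ((dK.const_mul 11).mul (da.sub (dD.const_mul 2)))
      (by simp only [Pi.sub_apply, Pi.mul_apply])
  have dg : HasDerivAt (fun z => f z / (deriv f z ^ 8 * (deriv f z + 2 * z * deriv (deriv f) z)))
      ((deriv f x * (deriv f x ^ 8 * (deriv f x + 2 * x * deriv (deriv f) x)) -
        f x * (8 * deriv f x ^ 7 * deriv (deriv f) x * (deriv f x + 2 * x * deriv (deriv f) x) +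
        deriv f x ^ 8 * (deriv (deriv f) x + (2 * deriv (deriv f) x +
          2 * x * deriv (deriv (deriv f)) x)))) /
        (deriv f x ^ 8 * (deriv f x + 2 * x * deriv (deriv f) x)) ^ 2) x :=
    HasDerivAt.congr_deriv (df.div ((da.pow 8).mul dD) (hdenpos x hx).ne')
      (by simp [Pi.mul_apply, Pi.pow_apply])
  have hev : (fun z => (9 * f z + 4 * z * deriv f z) * deriv K z) =ᶠ[nhds x]
      (fun z => 11 * K z * (deriv f z - 2 * (deriv f z + 2 * z * deriv (deriv f) z))) := by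
    filter_upwards [hS.mem_nhds hx] with z hz
    exact (h z hz).2.2.2.2
  set a := deriv f x with hadef
  set b := deriv (deriv f) x with hbdef
  set c := deriv (deriv (deriv f)) x with hcdef
  set K1 := deriv K x with hK1def
  set K2 := deriv (deriv K) x with hK2def
  have R3 : (9 * a + (4 * a + 4 * x * b)) * K1 + (9 * f x + 4 * x * a) * K2 =
      11 * K1 * (a - 2 * (a + 2 * x * b)) +
        11 * K x * (b - 2 * (b + (2 * b + 2 * x * c))) :=
    dL.unique (dR.congr_of_eventuallyEq hev)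
  -- R1
  have dKr := dg.rpow_const (p := (11:ℝ)/12) (Or.inl (hgpos x hx).ne')
  have eK1 : K1 = _ := dK.unique dKr
  have hpow : (f x / (a ^ 8 * (a + 2 * x * b))) ^ ((11:ℝ)/12 - 1) *
      (f x / (a ^ 8 * (a + 2 * x * b))) = K x := by
    have := hgpos x hx
    rw [← Real.rpow_add_one this.ne']
    norm_num [hKdef, hadef, hbdef]
  have R1 : 12 * K1 * f x * a * (a + 2 * x * b) = 11 * K x *
      (a ^ 2 * (a + 2 * x * b) - 8 * f x * b * (a + 2 * x * b) -
        f x * a * (b + (2 * b + 2 * x * c))) := by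
    set D := a + 2 * x * b with hDdef
    set G := f x / (a ^ 8 * D) with hG
    have hfG : f x = G * (a ^ 8 * D) := by
      rw [hG]; field_simp
    have e2 : K1 * G * (a ^ 8 * D) ^ 2 = 11 / 12 * K x * (a * (a ^ 8 * D) - f x * (8 * a ^ 7 * b * D +
        a ^ 8 * (b + (2 * b + 2 * x * c)))) := by
      rw [eK1, ← hpow]
      field_simp
    have ha7 : a ^ 7 ≠ 0 := (pow_pos ha0 7).ne'
    apply mul_left_cancel₀ ha7
    have e3 : K1 * f x * (a ^ 8 * D) = 11 / 12 * K x * (a * (a ^ 8 * D) - f x * (8 * a ^ 7 * b * D +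
        a ^ 8 * (b + (2 * b + 2 * x * c)))) := by
      rw [← e2]
      conv_lhs => rw [hfG]
      ring
    linear_combination 12 * e3
  have R2 : (9 * f x + 4 * x * a) * K1 = 11 * K x * (a - 2 * (a + 2 * x * b)) := hrel
  have G : (9 * f x + 4 * x * a) * (f x * (8 * K1 * (a + 2 * x * b) + a * (K1 + 2 * x * K2)) +
      11 * K x * a * (a + 2 * x * b)) = 0 := by
    linear_combination (8 * f x * (a + 2 * x * b) + f x * a) * R2 + 2 * x * f x * a * R3
      - 4 * x * R1
  have G2 : f x * (8 * K1 * (a + 2 * x * b) + a * (K1 + 2 * x * K2)) +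
      11 * K x * a * (a + 2 * x * b) = 0 := by
    rcases mul_eq_zero.1 G with h1 | h1
    · exact absurd h1 hX0.ne'
    · exact h1
  have hne : a ≠ 0 := ha0.ne'
  have hne2 : a + 2 * x * b ≠ 0 := hD0.ne'
  field_simp
  linear_combination G2

end Crest.Agent.R236
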