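import Crest.Agent.R236.Skel

set_option autoImplicit false
open scoped ContDiff
open Set

namespace Crest.Agent.R236

theorem second_order' (ε : ℝ) (hε : 0 < ε) (f : ℝ → ℝ) (hf : ContDiffOn ℝ ∞ f (Ioi (-ε)))
    (h : ∀ x ∈ Ioi (-ε), 0 < f x ∧ 0 < deriv f x ∧ 0 < deriv f x + 2 * x * deriv (deriv f) x ∧
      0 < 9 * f x + 4 * x * deriv f x ∧
      (9 * f x + 4 * x * deriv f x) *
        deriv (fun z => (f z / (deriv f z ^ 8 * (deriv f z + 2 * z * deriv (deriv f) z))) ^ ((11:ℝ)/12)) x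
       = 11 * (f x / (deriv f x ^ 8 * (deriv f x + 2 * x * deriv (deriv f) x))) ^ ((11:ℝ)/12) *
          (deriv f x - 2 * (deriv f x + 2 * x * deriv (deriv f) x))) :
    ∃ K : ℝ → ℝ, ContDiffOn ℝ ∞ K (Ioi (-ε)) ∧ ∀ x ∈ Ioi (-ε),
      K x = (f x / (deriv f x ^ 8 * (deriv f x + 2 * x * deriv (deriv f) x))) ^ ((11:ℝ)/12) ∧
      f x * (8 * deriv K x / deriv f x + (deriv K x + 2 * x * deriv (deriv K) x) /
        (deriv f x + 2 * x * deriv (deriv f) x)) + 11 * K x = 0 := by
  have hopen : IsOpen (Ioi (-ε)) := isOpen_Ioi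
  have dstep : ∀ g : ℝ → ℝ, ContDiffOn ℝ ∞ g (Ioi (-ε)) → ContDiffOn ℝ ∞ (deriv g) (Ioi (-ε)) := by
    intro g hg
    exact ((contDiffOn_infty_iff_deriv_of_isOpen hopen).1 hg).2
  have ddiff : ∀ g : ℝ → ℝ, ContDiffOn ℝ ∞ g (Ioi (-ε)) → ∀ x ∈ Ioi (-ε), DifferentiableAt ℝ g x := by
    intro g hg x hx
    exact (hg.differentiableOn (by simp)).differentiableAt (hopen.mem_nhds hx)
  have ha := dstep f hf
  have haa := dstep _ ha
  set a := deriv f with hadef
  set b := deriv a with hbdef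
  have hD : ContDiffOn ℝ ∞ (fun z => a z + 2 * z * b z) (Ioi (-ε)) := by
    apply ha.add
    apply ContDiffOn.mul _ haa
    exact (contDiff_const.mul contDiff_id).contDiffOn
  set D : ℝ → ℝ := fun z => a z + 2 * z * b z with hDdef
  have hQ : ContDiffOn ℝ ∞ (fun z => f z / (a z ^ 8 * D z)) (Ioi (-ε)) := by
    apply hf.div ((ha.pow 8).mul hD)
    intro x hx
    obtain ⟨h1, h2, h3, h4, h5⟩ := h x hx
    have : 0 < a x ^ 8 * D x := by
      have : 0 < D x := h3
      positivity
    exact this.ne'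
  set Q : ℝ → ℝ := fun z => f z / (a z ^ 8 * D z) with hQdef
  have hQpos : ∀ x ∈ Ioi (-ε), 0 < Q x := by
    intro x hx
    obtain ⟨h1, h2, h3, h4, h5⟩ := h x hx
    have h3' : 0 < D x := h3
    show 0 < f x / (a x ^ 8 * D x)
    positivity
  have hK : ContDiffOn ℝ ∞ (fun z => Q z ^ ((11:ℝ)/12)) (Ioi (-ε)) := by
    apply hQ.rpow_const_of_ne
    intro x hx
    exact (hQpos x hx).ne'
  refine ⟨fun z => Q z ^ ((11:ℝ)/12), hK, ?_⟩
  set K : ℝ → ℝ := fun z => Q z ^ ((11:ℝ)/12) with hKdef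
  intro x hx
  refine ⟨rfl, ?_⟩
  obtain ⟨h1, h2, h3, h4, h5⟩ := h x hx
  have hfd := (ddiff f hf x hx).hasDerivAt
  have had := (ddiff a ha x hx).hasDerivAt
  have hDd := (ddiff D hD x hx).hasDerivAt
  have hKd := (ddiff K hK x hx).hasDerivAt
  have hKd2 := (ddiff _ (dstep K hK) x hx).hasDerivAt
  have hDx : D x = a x + 2 * x * b x := rfl
  -- derivative of Q
  have hQd : HasDerivAt Q ((a x * (a x ^ 8 * D x) - f x * (8 * a x ^ 7 * b x * D x + a x ^ 8 * deriv D x)) /
      (a x ^ 8 * D x) ^ 2) x := by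
    have e1 : HasDerivAt (fun z => a z ^ 8 * D z) (8 * a x ^ 7 * b x * D x + a x ^ 8 * deriv D x) x := by
      have u := (had.pow 8).mul hDd
      refine u.congr_deriv ?_
      show ((8:ℕ):ℝ) * a x ^ (8 - 1) * b x * D x + a x ^ 8 * deriv D x = _
      norm_num
    have h3' : 0 < D x := h3
    have := hfd.div e1 (by positivity)
    exact this
  have hKQ : HasDerivAt K (((a x * (a x ^ 8 * D x) - f x * (8 * a x ^ 7 * b x * D x + a x ^ 8 * deriv D x)) /
      (a x ^ 8 * D x) ^ 2) * ((11:ℝ)/12) * Q x ^ ((11:ℝ)/12 - 1)) x :=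
    hQd.rpow_const (Or.inl (hQpos x hx).ne')
  have hDpos : 0 < D x := h3
  have hapos : 0 < a x := h2
  have hfpos : 0 < f x := h1
  have hQx : Q x = f x / (a x ^ 8 * D x) := rfl
  have r1 : 12 * deriv K x * (f x * a x * D x) = 11 * K x *
      (a x * a x * D x - 8 * b x * f x * D x - deriv D x * f x * a x) := by
    have e2 := hKQ.deriv
    have e3 : Q x ^ ((11:ℝ)/12 - 1) = K x / Q x := by
      rw [Real.rpow_sub_one (hQpos x hx).ne']
    rw [e2, e3, hQx]
    field_simp
    ring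
  -- differentiate the first order relation
  have rel : ∀ z ∈ Ioi (-ε), (9 * f z + 4 * z * a z) * deriv K z = 11 * K z * (a z - 2 * D z) := by
    intro z hz
    exact (h z hz).2.2.2.2
  have L : HasDerivAt (fun z => (9 * f z + 4 * z * a z) * deriv K z)
      ((9 * a x + (4 * a x + 4 * x * b x)) * deriv K x + (9 * f x + 4 * x * a x) * deriv (deriv K) x) x := by
    have e1 : HasDerivAt (fun z => 9 * f z + 4 * z * a z) (9 * a x + (4 * a x + 4 * x * b x)) x := by
      have u1 := hfd.const_mul 9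
      have u2 : HasDerivAt (fun z : ℝ => 4 * z) 4 x := by
        simpa using (hasDerivAt_id x).const_mul 4
      have u3 := u2.mul had
      exact u1.add u3
    exact e1.mul hKd2
  have R : HasDerivAt (fun z => 11 * K z * (a z - 2 * D z))
      (11 * deriv K x * (a x - 2 * D x) + 11 * K x * (b x - 2 * deriv D x)) x := by
    have e1 := hKd.const_mul 11
    have e2 := had.sub (hDd.const_mul 2)
    exact e1.mul e2
  have r2 : (9 * a x + (4 * a x + 4 * x * b x)) * deriv K x + (9 * f x + 4 * x * a x) * deriv (deriv K) x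
      = 11 * deriv K x * (a x - 2 * D x) + 11 * K x * (b x - 2 * deriv D x) := by
    have ee : (fun z => (9 * f z + 4 * z * a z) * deriv K z) =ᶠ[nhds x]
        (fun z => 11 * K z * (a z - 2 * D z)) := by
      filter_upwards [hopen.mem_nhds hx] with z hz using rel z hz
    have := ee.deriv_eq
    rw [L.deriv, R.deriv] at this
    exact this
  have r0 := rel x hx
  have hXpos : 0 < 9 * f x + 4 * x * a x := h4
  show f x * (8 * deriv K x / a x + (deriv K x + 2 * x * deriv (deriv K) x) / D x) + 11 * K x = 0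
  generalize deriv (deriv K) x = k2 at *
  generalize deriv K x = k1 at *
  generalize K x = k at *
  generalize deriv D x = d' at *
  generalize hB : D x = d at *
  have key : (9 * f x + 4 * x * a x) * (a x * d) *
      (f x * (8 * k1 / a x + (k1 + 2 * x * k2) / d) + 11 * k) = 0 := by
    have e : (9 * f x + 4 * x * a x) * (a x * d) *
      (f x * (8 * k1 / a x + (k1 + 2 * x * k2) / d) + 11 * k) =
      (9 * f x + 4 * x * a x) * (f x * (8 * k1 * d + (k1 + 2 * x * k2) * a x) + 11 * k * (a x * d)) := by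
      field_simp
    rw [e]
    linear_combination (f x*(8*d + a x)) * r0 + (2*x*a x*f x) * r2 + (-4*x) * r1 + (4*x*a x*f x*k1 - 11*f x*k*(a x + 16*d)) * hDx
  have hne : (9 * f x + 4 * x * a x) * (a x * d) ≠ 0 := by positivity
  exact (mul_eq_zero.1 key).resolve_left hne

end Crest.Agent.R236
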