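import Crest.Agent.R236.Skel

set_option autoImplicit false
open scoped ContDiff
open Set

namespace Crest.Agent.R236

/-- assembly of E1: shrink the interval. -/
theorem local_sol_of (h : ∃ ε : ℝ, 0 < ε ∧ ∃ P W : ℝ → ℝ,
    ContDiffOn ℝ ∞ P (Ioo (-ε) ε) ∧ ContDiffOn ℝ ∞ W (Ioo (-ε) ε) ∧ P 0 = 1 ∧ W 0 = 7 / 33 ∧
    (∀ x ∈ Ioo (-ε) ε, HasDerivAt P (P x * (W x - P x) / 2) x ∧
      2 * x * deriv W x = -2 * W x + (1 + x * W x) *
        (-9 * W x + P x + 12 * P x * (1 + 2 * x * W x) / (9 + 2 * x * P x)))) :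
    ∃ ε : ℝ, 0 < ε ∧ ∃ P W : ℝ → ℝ,
    ContDiffOn ℝ ∞ P (Ioo (-ε) ε) ∧ ContDiffOn ℝ ∞ W (Ioo (-ε) ε) ∧
    (∀ x ∈ Ioo (-ε) ε, SysAt P W x) ∧
    (∀ x ∈ Ioo 0 ε, x * P x < 9 / 2 ∧ W x < 5 / 9 * P x) := by
  obtain ⟨ε, hε, P, W, hP, hW, hP0, hW0, hsys⟩ := h
  have hmem : Ioo (-ε) ε ∈ nhds (0 : ℝ) := Ioo_mem_nhds (by linarith) hε
  have cP : ContinuousAt P 0 := hP.continuousOn.continuousAt hmem
  have cW : ContinuousAt W 0 := hW.continuousOn.continuousAt hmem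
  have e1 : ∀ᶠ x in nhds (0 : ℝ), 0 < P x :=
    cP.eventually (lt_mem_nhds (by rw [hP0]; norm_num))
  have e2 : ∀ᶠ x in nhds (0 : ℝ), 0 < 1 + x * W x := by
    have : ContinuousAt (fun x => 1 + x * W x) 0 := continuousAt_const.add (continuousAt_id.mul cW)
    exact this.eventually (lt_mem_nhds (by norm_num))
  have e3 : ∀ᶠ x in nhds (0 : ℝ), 0 < 9 + 2 * x * P x := by
    have : ContinuousAt (fun x => 9 + 2 * x * P x) 0 :=
      continuousAt_const.add ((continuousAt_const.mul continuousAt_id).mul cP)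
    exact this.eventually (lt_mem_nhds (by norm_num))
  have e4 : ∀ᶠ x in nhds (0 : ℝ), x * P x < 9 / 2 := by
    have : ContinuousAt (fun x => x * P x) 0 := continuousAt_id.mul cP
    exact this.eventually (gt_mem_nhds (by norm_num))
  have e5 : ∀ᶠ x in nhds (0 : ℝ), W x < 5 / 9 * P x := by
    have : ContinuousAt (fun x => 5 / 9 * P x - W x) 0 := (continuousAt_const.mul cP).sub cW
    have h := this.eventually (lt_mem_nhds (a := 0) (by show (0:ℝ) < 5 / 9 * P 0 - W 0; rw [hP0, hW0]; norm_num))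
    filter_upwards [h] with x hx
    linarith
  obtain ⟨δ, hδ, hb⟩ := Metric.eventually_nhds_iff.1
    (e1.and (e2.and (e3.and (e4.and (e5.and (Filter.eventually_of_mem hmem fun x hx => hx))))))
  refine ⟨δ, hδ, P, W, ?_, ?_, ?_, ?_⟩
  · refine hP.mono fun x hx => (hb (y := x) ?_).2.2.2.2.2
    rw [Real.dist_eq, sub_zero, abs_lt]; exact hx
  · refine hW.mono fun x hx => (hb (y := x) ?_).2.2.2.2.2
    rw [Real.dist_eq, sub_zero, abs_lt]; exact hx
  · intro x hx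
    have hb' := hb (y := x) (by rw [Real.dist_eq, sub_zero, abs_lt]; exact hx)
    obtain ⟨a1, a2, a3, a4, a5, a6⟩ := hb'
    exact ⟨a1, a2, a3, (hsys x a6).1, (hsys x a6).2⟩
  · intro x hx
    have hb' := hb (y := x) (by rw [Real.dist_eq, sub_zero, abs_lt]; exact ⟨by linarith [hx.1], hx.2⟩)
    exact ⟨hb'.2.2.2.1, hb'.2.2.2.2.1⟩

end Crest.Agent.R236
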