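import Crest.Agent.R236.Skel

set_option autoImplicit false
open scoped ContDiff Topology
open Set MeasureTheory

namespace Crest.Agent.R236.D45

/-- averaging operator: derivative and the differential equation -/
theorem avg (ε : ℝ) (g : ℝ → ℝ) (hg : ContDiffOn ℝ 1 g (Ioo (-ε) ε)) (x : ℝ)
    (hx : x ∈ Ioo (-ε) ε) :
    ∃ d : ℝ, HasDerivAt (fun x => ∫ θ in (0:ℝ)..1, θ ^ (9/2:ℝ) * g (θ * x)) d x ∧
      2 * x * d + 11 * (∫ θ in (0:ℝ)..1, θ ^ (9/2:ℝ) * g (θ * x)) = 2 * g x := by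
  obtain ⟨hx1, hx2⟩ := hx
  have habs : |x| < ε := abs_lt.2 ⟨hx1, hx2⟩
  set r := (|x| + ε) / 2 with hr
  have hr1 : |x| < r := by rw [hr]; linarith
  have hr2 : r < ε := by rw [hr]; linarith
  have hr0 : 0 ≤ r := (abs_nonneg x).trans hr1.le
  have hopen : IsOpen (Ioo (-ε) ε) := isOpen_Ioo
  have hdiff : ∀ y ∈ Ioo (-ε) ε, HasDerivAt g (deriv g y) y := fun y hy =>
    ((hg.differentiableOn one_ne_zero).differentiableAt (hopen.mem_nhds hy)).hasDerivAt
  have hcd : ContinuousOn (deriv g) (Ioo (-ε) ε) :=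
    hg.continuousOn_deriv_of_isOpen hopen le_rfl
  have hmem : ∀ θ ∈ Icc (0:ℝ) 1, ∀ y, |y| ≤ r → θ * y ∈ Icc (-r) r := by
    intro θ hθ y hy
    rw [mem_Icc, ← abs_le, abs_mul, abs_of_nonneg hθ.1]
    calc θ * |y| ≤ 1 * r := mul_le_mul hθ.2 hy (abs_nonneg _) zero_le_one
      _ = r := one_mul r
  have hsub : Icc (-r) r ⊆ Ioo (-ε) ε := fun y hy => ⟨by linarith [hy.1], by linarith [hy.2]⟩
  obtain ⟨C, hC⟩ := isCompact_Icc.exists_bound_of_continuousOn (hcd.mono hsub)
  have hpow : Continuous (fun θ : ℝ => θ ^ (9/2:ℝ)) :=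
    Real.continuous_rpow_const (by norm_num)
  have hcF : ∀ y, |y| ≤ r → ContinuousOn (fun θ => θ ^ (9/2:ℝ) * g (θ * y)) (Icc 0 1) := by
    intro y hy
    refine hpow.continuousOn.mul ((hg.continuousOn.mono hsub).comp (by fun_prop) ?_)
    intro θ hθ; exact hmem θ hθ y hy
  have hcF' : ∀ y, |y| ≤ r →
      ContinuousOn (fun θ => θ ^ (9/2:ℝ) * (θ * deriv g (θ * y))) (Icc 0 1) := by
    intro y hy
    refine hpow.continuousOn.mul (continuousOn_id.mul ((hcd.mono hsub).comp (by fun_prop) ?_))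
    intro θ hθ; exact hmem θ hθ y hy
  have hII : ∀ (f : ℝ → ℝ), ContinuousOn f (Icc 0 1) → IntervalIntegrable f volume 0 1 := by
    intro f hf
    apply ContinuousOn.intervalIntegrable
    rwa [uIcc_of_le zero_le_one]
  have hball : ∀ y ∈ Metric.ball x (r - |x|), |y| ≤ r := by
    intro y hy
    rw [Metric.mem_ball, Real.dist_eq] at hy
    have := abs_sub_abs_le_abs_sub y x
    linarith
  have key := intervalIntegral.hasDerivAt_integral_of_dominated_loc_of_deriv_le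
    (μ := volume) (a := (0:ℝ)) (b := 1) (bound := fun _ => C)
    (F := fun y θ => θ ^ (9/2:ℝ) * g (θ * y))
    (F' := fun y θ => θ ^ (9/2:ℝ) * (θ * deriv g (θ * y)))
    (x₀ := x) (s := Metric.ball x (r - |x|)) (Metric.ball_mem_nhds x (by linarith)) ?_ ?_ ?_ ?_
    ?_ ?_
  · refine ⟨_, key.2, ?_⟩
    have hI1 := hII _ (hcF x hr1.le)
    have hI2 := hII _ (hcF' x hr1.le)
    have hftc : ∫ θ in (0:ℝ)..1, ((11/2:ℝ) * (θ ^ (9/2:ℝ) * g (θ * x)) +
        x * (θ ^ (9/2:ℝ) * (θ * deriv g (θ * x)))) = g x := by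
      have h1 : ∀ θ ∈ uIcc (0:ℝ) 1, HasDerivAt (fun θ : ℝ => θ ^ (11/2:ℝ) * g (θ * x))
          ((11/2:ℝ) * (θ ^ (9/2:ℝ) * g (θ * x)) +
            x * (θ ^ (9/2:ℝ) * (θ * deriv g (θ * x)))) θ := by
        intro θ hθ
        rw [uIcc_of_le zero_le_one] at hθ
        have h2 := Real.hasDerivAt_rpow_const (x := θ) (p := (11/2:ℝ)) (Or.inr (by norm_num))
        have h3 : HasDerivAt (fun θ => g (θ * x)) (deriv g (θ * x) * x) θ := by
          have h4 := hdiff (θ * x) (hsub (hmem θ hθ x hr1.le))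
          have h5 : HasDerivAt (fun θ : ℝ => θ * x) x θ := by
            simpa using (hasDerivAt_id θ).mul_const x
          exact h4.comp θ h5
        have h6 := h2.mul h3
        have h7 : θ ^ (11/2:ℝ) = θ ^ (9/2:ℝ) * θ := by
          rw [show (11/2:ℝ) = 9/2 + 1 by norm_num, Real.rpow_add_one' hθ.1 (by norm_num)]
        have h8 : (11/2:ℝ) - 1 = 9/2 := by norm_num
        rw [h8] at h6
        refine h6.congr_deriv ?_
        rw [h7]; ring
      rw [intervalIntegral.integral_eq_sub_of_hasDerivAt h1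
        ((hI1.const_mul _).add (hI2.const_mul _))]
      simp
    rw [intervalIntegral.integral_add (hI1.const_mul _) (hI2.const_mul _),
      intervalIntegral.integral_const_mul, intervalIntegral.integral_const_mul] at hftc
    linarith
  · filter_upwards [Metric.ball_mem_nhds x (show (0:ℝ) < r - |x| by linarith)] with y hy
    exact (hII _ (hcF y (hball y hy))).aestronglyMeasurable.mono_measure
      (by rw [uIoc_of_le zero_le_one])
  · exact hII _ (hcF x hr1.le)
  · exact (hII _ (hcF' x hr1.le)).aestronglyMeasurable.mono_measure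
      (by rw [uIoc_of_le zero_le_one])
  · refine Filter.Eventually.of_forall ?_
    intro θ hθ y hy
    rw [uIoc_of_le zero_le_one] at hθ
    have h1 := hC _ (hmem θ ⟨hθ.1.le, hθ.2⟩ y (hball y hy))
    rw [norm_mul, norm_mul, Real.norm_of_nonneg (Real.rpow_nonneg hθ.1.le _),
      Real.norm_of_nonneg hθ.1.le]
    have h2 : θ ^ (9/2:ℝ) ≤ 1 := Real.rpow_le_one hθ.1.le hθ.2 (by norm_num)
    have h3 : θ * ‖deriv g (θ * y)‖ ≤ 1 * C := mul_le_mul hθ.2 h1 (norm_nonneg _) zero_le_one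
    have h4 : 0 ≤ θ * ‖deriv g (θ * y)‖ := mul_nonneg hθ.1.le (norm_nonneg _)
    calc θ ^ (9/2:ℝ) * (θ * ‖deriv g (θ * y)‖) ≤ 1 * (1 * C) := mul_le_mul h2 h3 h4 zero_le_one
      _ = C := by ring
  · exact intervalIntegrable_const
  · refine Filter.Eventually.of_forall ?_
    intro θ hθ y hy
    rw [uIoc_of_le zero_le_one] at hθ
    have h4 := hdiff (θ * y) (hsub (hmem θ ⟨hθ.1.le, hθ.2⟩ y (hball y hy)))
    have h5 : HasDerivAt (fun y : ℝ => θ * y) θ y := by
      simpa using (hasDerivAt_id y).const_mul θ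
    have h6 := (h4.comp y h5).const_mul (θ ^ (9/2:ℝ))
    refine h6.congr_deriv ?_
    ring

/-- right hand side of `2 x W' + 11 W = gg` -/
noncomputable def gg (P W : ℝ → ℝ) (x : ℝ) : ℝ :=
  9 * W x + (1 + x * W x) *
    (-9 * W x + P x + 12 * P x * (1 + 2 * x * W x) / (9 + 2 * x * P x))

/-- assembly: a smooth solution of the integral equations gives `local_sol` -/
theorem assemble (ε : ℝ) (hε : 0 < ε) (P W : ℝ → ℝ)
    (hP : ContDiffOn ℝ ∞ P (Ioo (-ε) ε)) (hW : ContDiffOn ℝ ∞ W (Ioo (-ε) ε))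
    (h1 : ∀ x ∈ Ioo (-ε) ε, P x = 1 + ∫ s in (0:ℝ)..x, P s * (W s - P s) / 2)
    (h2 : ∀ x ∈ Ioo (-ε) ε, W x = 1 / 2 * ∫ θ in (0:ℝ)..1, θ ^ (9/2:ℝ) * gg P W (θ * x)) :
    ∃ ε : ℝ, 0 < ε ∧ ∃ P W : ℝ → ℝ,
    ContDiffOn ℝ ∞ P (Ioo (-ε) ε) ∧ ContDiffOn ℝ ∞ W (Ioo (-ε) ε) ∧
    (∀ x ∈ Ioo (-ε) ε, SysAt P W x) ∧
    (∀ x ∈ Ioo 0 ε, x * P x < 9 / 2 ∧ W x < 5 / 9 * P x) := by
  have h0 : (0:ℝ) ∈ Ioo (-ε) ε := ⟨by linarith, hε⟩
  have hnh : Ioo (-ε) ε ∈ 𝓝 (0:ℝ) := isOpen_Ioo.mem_nhds h0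
  have hP0 : P 0 = 1 := by rw [h1 0 h0]; simp
  have hint : ∫ θ in (0:ℝ)..1, θ ^ (9/2:ℝ) = 2/11 := by
    rw [integral_rpow (Or.inl (by norm_num))]; norm_num
  have hW0 : W 0 = 7 / 33 := by
    have h := h2 0 h0
    simp only [mul_zero] at h
    rw [intervalIntegral.integral_mul_const, hint] at h
    unfold gg at h
    rw [hP0] at h
    norm_num at h
    linarith
  have cP : ContinuousAt P 0 := hP.continuousOn.continuousAt hnh
  have cW : ContinuousAt W 0 := hW.continuousOn.continuousAt hnh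
  have e1 : ∀ᶠ x in 𝓝 (0:ℝ), 0 < P x := by
    apply cP.eventually_const_lt; rw [hP0]; norm_num
  have e2 : ∀ᶠ x in 𝓝 (0:ℝ), 0 < 1 + x * W x := by
    have : ContinuousAt (fun x => 1 + x * W x) 0 := by fun_prop
    apply this.eventually_const_lt; norm_num
  have e3 : ∀ᶠ x in 𝓝 (0:ℝ), 0 < 9 + 2 * x * P x := by
    have : ContinuousAt (fun x => 9 + 2 * x * P x) 0 := by fun_prop
    apply this.eventually_const_lt; norm_num
  have e4 : ∀ᶠ x in 𝓝 (0:ℝ), 0 < 9 / 2 - x * P x := by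
    have : ContinuousAt (fun x => 9 / 2 - x * P x) 0 := by fun_prop
    apply this.eventually_const_lt; norm_num
  have e5 : ∀ᶠ x in 𝓝 (0:ℝ), 0 < 5 / 9 * P x - W x := by
    have : ContinuousAt (fun x => 5 / 9 * P x - W x) 0 := by fun_prop
    apply this.eventually_const_lt; show (0:ℝ) < 5 / 9 * P 0 - W 0; rw [hP0, hW0]; norm_num
  obtain ⟨δ, hδ, hall⟩ := Metric.eventually_nhds_iff.1 (e1.and (e2.and (e3.and (e4.and e5))))
  set η := min ε δ with hη
  have hη0 : 0 < η := lt_min hε hδ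
  have hsub : Ioo (-η) η ⊆ Ioo (-ε) ε := by
    intro x hx
    have := min_le_left ε δ
    exact ⟨by linarith [hx.1], by linarith [hx.2]⟩
  have hA : ∀ x ∈ Ioo (-η) η, 0 < P x ∧ 0 < 1 + x * W x ∧ 0 < 9 + 2 * x * P x ∧
      0 < 9 / 2 - x * P x ∧ 0 < 5 / 9 * P x - W x := by
    intro x hx
    apply hall
    rw [Real.dist_eq, sub_zero, abs_lt]
    have := min_le_right ε δ
    exact ⟨by linarith [hx.1], by linarith [hx.2]⟩
  have hg : ContDiffOn ℝ 1 (gg P W) (Ioo (-η) η) := by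
    have hP1 : ContDiffOn ℝ 1 P (Ioo (-η) η) := (hP.mono hsub).of_le (by exact_mod_cast le_top)
    have hW1 : ContDiffOn ℝ 1 W (Ioo (-η) η) := (hW.mono hsub).of_le (by exact_mod_cast le_top)
    unfold gg
    refine (contDiffOn_const.mul hW1).add ((contDiffOn_const.add (contDiffOn_id.mul hW1)).mul
      (((contDiffOn_const.mul hW1).add hP1).add (ContDiffOn.div ((contDiffOn_const.mul hP1).mul
        (contDiffOn_const.add ((contDiffOn_const.mul contDiffOn_id).mul hW1)))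
        (contDiffOn_const.add ((contDiffOn_const.mul contDiffOn_id).mul hP1)) ?_)))
    intro x hx
    exact (hA x hx).2.2.1.ne'
  refine ⟨η, hη0, P, W, hP.mono hsub, hW.mono hsub, ?_, ?_⟩
  · intro x hx
    obtain ⟨a1, a2, a3, -, -⟩ := hA x hx
    refine ⟨a1, a2, a3, ?_, ?_⟩
    · have hc : ContinuousOn (fun s => P s * (W s - P s) / 2) (Ioo (-ε) ε) :=
        (hP.continuousOn.mul (hW.continuousOn.sub hP.continuousOn)).div_const 2
      have hxs := hsub hx
      have hd : HasDerivAt (fun x => 1 + ∫ s in (0:ℝ)..x, P s * (W s - P s) / 2)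
          (P x * (W x - P x) / 2) x := by
        refine HasDerivAt.const_add 1 ?_
        refine intervalIntegral.integral_hasDerivAt_right ?_ ?_
          (hc.continuousAt (isOpen_Ioo.mem_nhds hxs))
        · apply ContinuousOn.intervalIntegrable
          exact hc.mono (ordConnected_Ioo.uIcc_subset h0 hxs)
        · exact hc.stronglyMeasurableAtFilter isOpen_Ioo x hxs
      refine hd.congr_of_eventuallyEq ?_
      filter_upwards [isOpen_Ioo.mem_nhds hxs] with y hy using h1 y hy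
    · obtain ⟨d, hd1, hd2⟩ := avg η (gg P W) hg x hx
      have hWd : HasDerivAt W (1 / 2 * d) x := by
        refine (hd1.const_mul (1/2)).congr_of_eventuallyEq ?_
        filter_upwards [isOpen_Ioo.mem_nhds (hsub hx)] with y hy using h2 y hy
      rw [hWd.deriv]
      have h3 := h2 x (hsub hx)
      have h4 : 2 * x * (1 / 2 * d) + 11 * W x = gg P W x := by
        rw [h3]; linarith
      unfold gg at h4
      linarith
  · intro x hx
    have := hA x ⟨by linarith [hx.1], hx.2⟩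
    exact ⟨by linarith [this.2.2.2.1], by linarith [this.2.2.2.2]⟩

end Crest.Agent.R236.D45
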