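import Crest.Agent.R236.Skel

set_option autoImplicit false
set_option maxHeartbeats 1600000
open scoped ContDiff
open Set Crest.GeometryTopology.CoordMetric Crest.GeometryTopology.AffineMaximal

namespace Crest.Agent.R236

theorem blk_quad98 (z : EuclideanSpace ℝ (Fin 10)) (α β γ δ : ℝ) (v : Fin 10 → ℝ) :
    v ⬝ᵥ (blk z α β γ δ).mulVec v
      = α * (∑ i : Fin 9, v (Fin.castSucc i) ^ 2)
        + β * (∑ i : Fin 9, z (Fin.castSucc i) * v (Fin.castSucc i)) ^ 2
        + 2 * γ * v 9 * (∑ i : Fin 9, z (Fin.castSucc i) * v (Fin.castSucc i))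
        + δ * v 9 ^ 2 := by
  have e9 : (9 : Fin 10) = Fin.last 9 := rfl
  have hne : ∀ i : Fin 9, Fin.castSucc i ≠ Fin.last 9 := fun i => (Fin.castSucc_lt_last i).ne
  have h1 : ∀ i : Fin 9, (blk z α β γ δ).mulVec v (Fin.castSucc i)
      = α * v (Fin.castSucc i) + β * z (Fin.castSucc i) *
        (∑ j : Fin 9, z (Fin.castSucc j) * v (Fin.castSucc j)) + γ * z (Fin.castSucc i) * v 9 := by
    intro i
    rw [Matrix.mulVec, dotProduct, Fin.sum_univ_castSucc, e9]
    have : ∀ j : Fin 9, blk z α β γ δ (Fin.castSucc i) (Fin.castSucc j)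
        = (if i = j then α else 0) + β * z (Fin.castSucc i) * z (Fin.castSucc j) := by
      intro j
      simp only [blk, e9, hne i, hne j, if_false, false_and, Fin.castSucc_inj]
    simp_rw [this]
    have h9 : blk z α β γ δ (Fin.castSucc i) (Fin.last 9) = γ * z (Fin.castSucc i) := by
      simp only [blk, e9, hne i, if_false, false_and, if_true]
    rw [h9]
    simp only [add_mul, Finset.sum_add_distrib, ite_mul, zero_mul, Finset.sum_ite_eq,
      Finset.mem_univ, if_true]
    rw [Finset.mul_sum]
    congr 2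
    exact Finset.sum_congr rfl fun j _ => by ring
  have h2 : (blk z α β γ δ).mulVec v (Fin.last 9)
      = γ * (∑ j : Fin 9, z (Fin.castSucc j) * v (Fin.castSucc j)) + δ * v 9 := by
    rw [Matrix.mulVec, dotProduct, Fin.sum_univ_castSucc, e9]
    have : ∀ j : Fin 9, blk z α β γ δ (Fin.last 9) (Fin.castSucc j)
        = γ * z (Fin.castSucc j) := by
      intro j
      simp only [blk, e9, hne j, if_false, and_false, if_true]
    simp_rw [this]
    have h9 : blk z α β γ δ (Fin.last 9) (Fin.last 9) = δ := by
      simp only [blk, e9, and_self, if_true]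
    rw [h9, Finset.mul_sum]
    congr 1
    exact Finset.sum_congr rfl fun j _ => by ring
  rw [dotProduct, Fin.sum_univ_castSucc, h2]
  simp_rw [h1]
  rw [e9]
  set S := ∑ j : Fin 9, z (Fin.castSucc j) * v (Fin.castSucc j) with hS
  have : ∑ i : Fin 9, v (Fin.castSucc i) * (α * v (Fin.castSucc i) + β * z (Fin.castSucc i) * S
      + γ * z (Fin.castSucc i) * v (Fin.last 9))
      = α * (∑ i : Fin 9, v (Fin.castSucc i) ^ 2) + β * S * S + γ * v (Fin.last 9) * S := by
    conv_rhs => rw [Finset.mul_sum]
    conv_rhs => enter [1, 2]; rw [hS, Finset.mul_sum]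
    conv_rhs => enter [2]; rw [hS, Finset.mul_sum]
    rw [← Finset.sum_add_distrib, ← Finset.sum_add_distrib]
    exact Finset.sum_congr rfl fun j _ => by ring
  rw [this]
  ring

theorem blk_posDef' (z : EuclideanSpace ℝ (Fin 10)) (α β γ δ : ℝ) (hα : 0 < α) (hδ : 0 < δ)
    (h : 0 < (α + β * xx z) * δ - γ ^ 2 * xx z) : (blk z α β γ δ).PosDef := by
  refine Matrix.PosDef.of_dotProduct_mulVec_pos ?_ ?_
  · ext i j
    simp only [Matrix.conjTranspose_apply, blk, star_trivial]
    by_cases hi : i = 9 <;> by_cases hj : j = 9 <;> simp [hi, hj, eq_comm, mul_comm, mul_left_comm]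
    try ring
  · intro v hv
    have hq := blk_quad98 z α β γ δ v
    have : star v = v := by ext i; simp
    rw [this, hq]
    set q := ∑ i : Fin 9, v (Fin.castSucc i) ^ 2 with hqd
    set S := ∑ i : Fin 9, z (Fin.castSucc i) * v (Fin.castSucc i) with hSd
    have hq0 : 0 ≤ q := Finset.sum_nonneg fun i _ => sq_nonneg _
    have hx0 : 0 ≤ xx z := Finset.sum_nonneg fun i _ => sq_nonneg _
    have hCS : S ^ 2 ≤ xx z * q := by
      have := Finset.sum_mul_sq_le_sq_mul_sq Finset.univ (fun i : Fin 9 => z (Fin.castSucc i))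
        (fun i : Fin 9 => v (Fin.castSucc i))
      simpa [xx, hSd, hqd] using this
    have hpos : 0 < q ∨ v 9 ≠ 0 := by
      by_contra hcon
      push Not at hcon
      obtain ⟨h1, h2⟩ := hcon
      apply hv
      have hq00 : q = 0 := le_antisymm h1 hq0
      have hall := (Finset.sum_eq_zero_iff_of_nonneg (fun i _ => sq_nonneg (v (Fin.castSucc i)))).1 hq00
      ext i
      refine Fin.lastCases ?_ ?_ i
      · exact h2
      · intro j
        have := hall j (Finset.mem_univ _)
        simpa using this
    -- reduce: multiply by δ > 0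
    have key : 0 < δ * (α * q + β * S ^ 2 + 2 * γ * v 9 * S + δ * v 9 ^ 2) := by
      have e : δ * (α * q + β * S ^ 2 + 2 * γ * v 9 * S + δ * v 9 ^ 2)
          = α * δ * q + (β * δ - γ ^ 2) * S ^ 2 + (δ * v 9 + γ * S) ^ 2 := by ring
      rw [e]
      rcases le_or_gt 0 (β * δ - γ ^ 2) with hb | hb
      · rcases hpos with h1 | h1
        · have : 0 < α * δ * q := by positivity
          have h3 : 0 ≤ (β * δ - γ ^ 2) * S ^ 2 := by positivity
          nlinarith [sq_nonneg (δ * v 9 + γ * S)]
        · rcases hq0.lt_or_eq with h4 | h4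
          · have : 0 < α * δ * q := by positivity
            have h3 : 0 ≤ (β * δ - γ ^ 2) * S ^ 2 := by positivity
            nlinarith [sq_nonneg (δ * v 9 + γ * S)]
          · have hS0 : S = 0 := by
              rw [← h4, mul_zero] at hCS
              exact pow_eq_zero_iff (two_ne_zero) |>.1 (le_antisymm hCS (sq_nonneg _))
            rw [hS0, ← h4]
            have : 0 < (δ * v 9) ^ 2 := by positivity
            simpa using this
      · have h5 : (β * δ - γ ^ 2) * (xx z * q) ≤ (β * δ - γ ^ 2) * S ^ 2 :=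
          mul_le_mul_of_nonpos_left hCS hb.le
        have h6 : α * δ * q + (β * δ - γ ^ 2) * (xx z * q)
            = ((α + β * xx z) * δ - γ ^ 2 * xx z) * q := by ring
        rcases hq0.lt_or_eq with h4 | h4
        · have : 0 < ((α + β * xx z) * δ - γ ^ 2 * xx z) * q := by positivity
          nlinarith [sq_nonneg (δ * v 9 + γ * S)]
        · have hS0 : S = 0 := by
            rw [← h4, mul_zero] at hCS
            exact pow_eq_zero_iff (two_ne_zero) |>.1 (le_antisymm hCS (sq_nonneg _))
          have hv9 : v 9 ≠ 0 := by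
            rcases hpos with h7 | h7
            · exact absurd h4 h7.ne
            · exact h7
          rw [hS0, ← h4]
          have : 0 < (δ * v 9) ^ 2 := by positivity
          simpa using this
    exact (mul_pos_iff_of_pos_left hδ).1 key

end Crest.Agent.R236
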