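import Crest.Agent.R236.Skel

set_option autoImplicit false
open scoped ContDiff
open Set

namespace Crest.Agent.R236

theorem second_order' (ε : ℝ) (hε : 0 < ε) (f : ℝ → ℝ) (hf : ContDiffOn ℝ ∞ f (Ioi (-ε)))
    (h : ∀ x ∈ Ioi (-ε), 0 < f x ∧ 0 < deriv f x ∧ 0 < deriv f x + 2 * x * deriv (deriv f) x ∧
      0 < 9 * f x + 4 * x * deriv f x ∧
      (9 * f x + 4 * x * deriv f x) *
        deriv (fun z => (f z / (deriv f z ^ 8 * (deriv f z + 2 * z * deriv (deriv f) z))) ^ ((11:ℝ)/12)) x
       = 11 * (f x / (deriv f x ^ 8 * (deriv f x + 2 * x * deriv (deriv f) x))) ^ ((11:ℝ)/12) *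
          (deriv f x - 2 * (deriv f x + 2 * x * deriv (deriv f) x))) :
    ∃ K : ℝ → ℝ, ContDiffOn ℝ ∞ K (Ioi (-ε)) ∧ ∀ x ∈ Ioi (-ε),
      K x = (f x / (deriv f x ^ 8 * (deriv f x + 2 * x * deriv (deriv f) x))) ^ ((11:ℝ)/12) ∧
      f x * (8 * deriv K x / deriv f x + (deriv K x + 2 * x * deriv (deriv K) x) /
        (deriv f x + 2 * x * deriv (deriv f) x)) + 11 * K x = 0 := by
  have hU : IsOpen (Ioi (-ε)) := isOpen_Ioi
  have ha : ContDiffOn ℝ ∞ (deriv f) (Ioi (-ε)) := hf.deriv_of_isOpen hU (by simp)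
  have hb : ContDiffOn ℝ ∞ (deriv (deriv f)) (Ioi (-ε)) := ha.deriv_of_isOpen hU (by simp)
  have hD : ContDiffOn ℝ ∞ (fun z => deriv f z + 2 * z * deriv (deriv f) z) (Ioi (-ε)) :=
    ha.add (((contDiff_const.mul contDiff_id).contDiffOn).mul hb)
  have hden : ContDiffOn ℝ ∞ (fun z => deriv f z ^ 8 * (deriv f z + 2 * z * deriv (deriv f) z))
      (Ioi (-ε)) := (ha.pow 8).mul hD
  have hden0 : ∀ z ∈ Ioi (-ε), deriv f z ^ 8 * (deriv f z + 2 * z * deriv (deriv f) z) ≠ 0 := by
    intro z hz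
    obtain ⟨-, h2, h3, -, -⟩ := h z hz
    positivity
  have hG : ContDiffOn ℝ ∞ (fun z => f z / (deriv f z ^ 8 * (deriv f z + 2 * z * deriv (deriv f) z)))
      (Ioi (-ε)) := hf.div hden hden0
  have hGpos : ∀ z ∈ Ioi (-ε),
      0 < f z / (deriv f z ^ 8 * (deriv f z + 2 * z * deriv (deriv f) z)) := by
    intro z hz
    obtain ⟨h1, h2, h3, -, -⟩ := h z hz
    positivity
  set K : ℝ → ℝ := fun z =>
    (f z / (deriv f z ^ 8 * (deriv f z + 2 * z * deriv (deriv f) z))) ^ ((11:ℝ)/12) with hKdef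
  have hK : ContDiffOn ℝ ∞ K (Ioi (-ε)) := hG.rpow_const_of_ne (fun z hz => (hGpos z hz).ne')
  have hK1 : ContDiffOn ℝ ∞ (deriv K) (Ioi (-ε)) := hK.deriv_of_isOpen hU (by simp)
  have dAt : ∀ (g : ℝ → ℝ), ContDiffOn ℝ ∞ g (Ioi (-ε)) → ∀ z ∈ Ioi (-ε),
      HasDerivAt g (deriv g z) z := by
    intro g hg z hz
    exact ((hg.differentiableOn (by simp)).differentiableAt (hU.mem_nhds hz)).hasDerivAt
  refine ⟨K, hK, fun x hx => ⟨rfl, ?_⟩⟩
  obtain ⟨h1, h2, h3, h4, h5⟩ := h x hx
  have df := dAt f hf x hx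
  have da := dAt _ ha x hx
  have db := dAt _ hb x hx
  have dK := dAt _ hK x hx
  have dK1 := dAt _ hK1 x hx
  have dD : HasDerivAt (fun z => deriv f z + 2 * z * deriv (deriv f) z)
      (3 * deriv (deriv f) x + 2 * x * deriv (deriv (deriv f)) x) x := by
    have e := da.add ((((hasDerivAt_id x).const_mul 2)).mul db)
    refine e.congr_deriv ?_
    simp only [id]
    ring
  have dX : HasDerivAt (fun z => 9 * f z + 4 * z * deriv f z)
      (13 * deriv f x + 4 * x * deriv (deriv f) x) x := by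
    have e := (df.const_mul 9).add ((((hasDerivAt_id x).const_mul 4)).mul da)
    refine e.congr_deriv ?_
    simp only [id]
    ring
  -- R2
  have R2 : (9 * f x + 4 * x * deriv f x) * deriv K x
      = 11 * K x * (deriv f x - 2 * (deriv f x + 2 * x * deriv (deriv f) x)) := h5
  -- R3
  have R3 : (13 * deriv f x + 4 * x * deriv (deriv f) x) * deriv K x
      + (9 * f x + 4 * x * deriv f x) * deriv (deriv K) x
      = 11 * deriv K x * (deriv f x - 2 * (deriv f x + 2 * x * deriv (deriv f) x))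
        + 11 * K x * (deriv (deriv f) x - 2 * (3 * deriv (deriv f) x
          + 2 * x * deriv (deriv (deriv f)) x)) := by
    have hL := dX.mul dK1
    have hR := (dK.const_mul 11).mul (da.sub (dD.const_mul 2))
    have hev : (fun z => (9 * f z + 4 * z * deriv f z) * deriv K z) =ᶠ[nhds x]
        (fun z => 11 * K z * (deriv f z - 2 * (deriv f z + 2 * z * deriv (deriv f) z))) := by
      filter_upwards [hU.mem_nhds hx] with z hz
      exact (h z hz).2.2.2.2
    have := (hR.congr_of_eventuallyEq hev).unique hL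
    simp only [Pi.sub_apply] at this
    linarith
  -- R1
  have R1 : 12 * deriv K x * f x * deriv f x * (deriv f x + 2 * x * deriv (deriv f) x)
      = 11 * K x * (deriv f x ^ 2 * (deriv f x + 2 * x * deriv (deriv f) x)
        - 8 * deriv (deriv f) x * f x * (deriv f x + 2 * x * deriv (deriv f) x)
        - (3 * deriv (deriv f) x + 2 * x * deriv (deriv (deriv f)) x) * f x * deriv f x) := by
    have dden := (da.pow 8).mul dD
    have dG := df.div dden (hden0 x hx)
    have dG' := dG.rpow_const (p := (11:ℝ)/12) (Or.inl (hGpos x hx).ne')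
    have e1 := dK.unique dG'
    have e2 : K x = (f x / (deriv f x ^ 8 * (deriv f x + 2 * x * deriv (deriv f) x)))
        ^ ((11:ℝ)/12 - 1) * (f x / (deriv f x ^ 8 * (deriv f x + 2 * x * deriv (deriv f) x))) := by
      rw [← Real.rpow_add_one (hGpos x hx).ne']
      simp only [hKdef]
      congr 1
      ring
    generalize hq : (f x / (deriv f x ^ 8 * (deriv f x + 2 * x * deriv (deriv f) x)))
        ^ ((11:ℝ)/12 - 1) = q at e2
    have e1' : deriv K x = (deriv f x * (deriv f x ^ 8 * (deriv f x + 2 * x * deriv (deriv f) x))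
       - f x * (8 * deriv f x ^ 7 * deriv (deriv f) x * (deriv f x + 2 * x * deriv (deriv f) x)
        + deriv f x ^ 8 * (3 * deriv (deriv f) x + 2 * x * deriv (deriv (deriv f)) x)))
        / (deriv f x ^ 8 * (deriv f x + 2 * x * deriv (deriv f) x)) ^ 2 * (11/12) * q := by
      rw [e1, ← hq]
      norm_num
    rw [e1', e2]
    generalize deriv f x + 2 * x * deriv (deriv f) x = D at *
    field_simp
    ring
  have hE : f x * (8 * deriv K x * (deriv f x + 2 * x * deriv (deriv f) x) * (9 * f x + 4 * x * deriv f x)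
      + deriv f x * (9 * f x + 4 * x * deriv f x) * (deriv K x + 2 * x * deriv (deriv K) x))
      + 11 * K x * deriv f x * (deriv f x + 2 * x * deriv (deriv f) x)
        * (9 * f x + 4 * x * deriv f x) = 0 := by
    linear_combination (8 * f x * (deriv f x + 2 * x * deriv (deriv f) x) + f x * deriv f x) * R2
      + 2 * x * f x * deriv f x * R3 - 4 * x * R1
  have hne : deriv f x * (deriv f x + 2 * x * deriv (deriv f) x) * (9 * f x + 4 * x * deriv f x) ≠ 0 := by
    positivity
  apply mul_right_cancel₀ hne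
  rw [zero_mul, ← hE]
  have h2' := h2.ne'
  have h3' := h3.ne'
  clear_value K
  generalize deriv f x + 2 * x * deriv (deriv f) x = D at *
  field_simp

end Crest.Agent.R236
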