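import Crest.Statements.S0366

set_option autoImplicit false
open scoped ContDiff
open Set Crest.GeometryTopology.CoordMetric Crest.GeometryTopology.AffineMaximal

namespace Crest.Agent.R236

/-- the planar system at x: P = 2 f'/f, 1 + x W = D / f' with D = f' + 2 x f''. -/
def SysAt (P W : ℝ → ℝ) (x : ℝ) : Prop :=
  0 < P x ∧ 0 < 1 + x * W x ∧ 0 < 9 + 2 * x * P x ∧
  HasDerivAt P (P x * (W x - P x) / 2) x ∧
  2 * x * deriv W x = -2 * W x + (1 + x * W x) *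
    (-9 * W x + P x + 12 * P x * (1 + 2 * x * W x) / (9 + 2 * x * P x))

/-- E1: local solution (contraction for x^{11/2} W = ½ ∫ s^{9/2}(...)), continuous version. -/
theorem local_sol : ∃ ε : ℝ, 0 < ε ∧ ∃ P W : ℝ → ℝ,
    ContDiffOn ℝ ∞ P (Ioo (-ε) ε) ∧ ContDiffOn ℝ ∞ W (Ioo (-ε) ε) ∧
    (∀ x ∈ Ioo (-ε) ε, SysAt P W x) ∧
    (∀ x ∈ Ioo 0 ε, x * P x < 9 / 2 ∧ W x < 5 / 9 * P x) := by
  sorry

/-- E2: continuation to (-ε, ∞) (regular ODE for x > 0, trapping region 0<xP<9/2, 0<1+xW<1+5xP/9). -/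
theorem global_sol : ∃ ε : ℝ, 0 < ε ∧ ∃ P W : ℝ → ℝ,
    ContDiffOn ℝ ∞ P (Ioi (-ε)) ∧ ContDiffOn ℝ ∞ W (Ioi (-ε)) ∧
    (∀ x ∈ Ioi (-ε), SysAt P W x) := by
  sorry

/-- F: from (P, W) to f. -/
theorem exists_f : ∃ ε : ℝ, 0 < ε ∧ ∃ f : ℝ → ℝ, ContDiffOn ℝ ∞ f (Ioi (-ε)) ∧
    ∀ x ∈ Ioi (-ε), 0 < f x ∧ 0 < deriv f x ∧ 0 < deriv f x + 2 * x * deriv (deriv f) x ∧
      0 < 9 * f x + 4 * x * deriv f x ∧
      (9 * f x + 4 * x * deriv f x) *
        deriv (fun z => (f z / (deriv f z ^ 8 * (deriv f z + 2 * z * deriv (deriv f) z))) ^ ((11:ℝ)/12)) x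
       = 11 * (f x / (deriv f x ^ 8 * (deriv f x + 2 * x * deriv (deriv f) x))) ^ ((11:ℝ)/12) *
          (deriv f x - 2 * (deriv f x + 2 * x * deriv (deriv f) x)) := by
  sorry

/-- K2: first order relation on the half line implies the second order equation. -/
theorem second_order (ε : ℝ) (hε : 0 < ε) (f : ℝ → ℝ) (hf : ContDiffOn ℝ ∞ f (Ioi (-ε)))
    (h : ∀ x ∈ Ioi (-ε), 0 < f x ∧ 0 < deriv f x ∧ 0 < deriv f x + 2 * x * deriv (deriv f) x ∧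
      0 < 9 * f x + 4 * x * deriv f x ∧
      (9 * f x + 4 * x * deriv f x) *
        deriv (fun z => (f z / (deriv f z ^ 8 * (deriv f z + 2 * z * deriv (deriv f) z))) ^ ((11:ℝ)/12)) x
       = 11 * (f x / (deriv f x ^ 8 * (deriv f x + 2 * x * deriv (deriv f) x))) ^ ((11:ℝ)/12) *
          (deriv f x - 2 * (deriv f x + 2 * x * deriv (deriv f) x))) :
    ∃ K : ℝ → ℝ, ContDiffOn ℝ ∞ K (Ioi (-ε)) ∧ ∀ x ∈ Ioi (-ε),
      K x = (f x / (deriv f x ^ 8 * (deriv f x + 2 * x * deriv (deriv f) x))) ^ ((11:ℝ)/12) ∧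
      f x * (8 * deriv K x / deriv f x + (deriv K x + 2 * x * deriv (deriv K) x) /
        (deriv f x + 2 * x * deriv (deriv f) x)) + 11 * K x = 0 := by
  sorry

/-- the block matrix [α I + β y yᵀ, γ y ; γ yᵀ, δ] with y = first nine coordinates of z. -/
def blk (z : EuclideanSpace ℝ (Fin 10)) (α β γ δ : ℝ) : Matrix (Fin 10) (Fin 10) ℝ :=
  fun i j => if i = 9 ∧ j = 9 then δ else if i = 9 then γ * z j else if j = 9 then γ * z i
    else (if i = j then α else 0) + β * z i * z j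

/-- |y|² -/
def xx (z : EuclideanSpace ℝ (Fin 10)) : ℝ := ∑ i : Fin 9, z (Fin.castSucc i) ^ 2

theorem det_blk (z : EuclideanSpace ℝ (Fin 10)) (α β γ δ : ℝ) :
    (blk z α β γ δ).det = α ^ 8 * ((α + β * xx z) * δ - γ ^ 2 * xx z) := by
  sorry

theorem trace_blk (z : EuclideanSpace ℝ (Fin 10)) (α β γ δ α' β' γ' δ' : ℝ)
    (h : (blk z α β γ δ).det ≠ 0) :
    ∑ i, ∑ j, (blk z α β γ δ).det * (blk z α β γ δ)⁻¹ i j * blk z α' β' γ' δ' i j
      = α ^ 7 * (8 * α' * ((α + β * xx z) * δ - γ ^ 2 * xx z)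
          + α * ((α' + β' * xx z) * δ + (α + β * xx z) * δ' - 2 * γ * γ' * xx z)) := by
  sorry

theorem blk_posDef (z : EuclideanSpace ℝ (Fin 10)) (α β γ δ : ℝ) (hα : 0 < α) (hδ : 0 < δ)
    (h : 0 < (α + β * xx z) * δ - γ ^ 2 * xx z) : (blk z α β γ δ).PosDef := by
  sorry

/-- Hessian of z ↦ g (|y|²) (t), g smooth on a neighbourhood of [0,∞) × ℝ. -/
theorem hess_rad (ε : ℝ) (hε : 0 < ε) (g : ℝ × ℝ → ℝ) (hg : ContDiffOn ℝ ∞ g (Ioi (-ε) ×ˢ univ))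
    (z : EuclideanSpace ℝ (Fin 10)) :
    hessianMat (fun w => g (xx w, w 9)) z = blk z
      (2 * deriv (fun s => g (s, z 9)) (xx z))
      (4 * deriv (deriv (fun s => g (s, z 9))) (xx z))
      (2 * deriv (fun s => deriv (fun t => g (s, t)) (z 9)) (xx z))
      (deriv (deriv (fun t => g (xx z, t))) (z 9)) := by
  sorry

end Crest.Agent.R236
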