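import Crest.Agent.R236.Det82

set_option autoImplicit false
open Set

namespace Crest.Agent.R236

private theorem blk_add79 (z : EuclideanSpace ℝ (Fin 10)) (α β γ δ α' β' γ' δ' t : ℝ) :
    blk z α β γ δ + t • blk z α' β' γ' δ' =
      blk z (α + t * α') (β + t * β') (γ + t * γ') (δ + t * δ') := by
  ext i j
  simp only [blk, Matrix.add_apply, Matrix.smul_apply, smul_eq_mul]
  split_ifs <;> ring

private theorem blk_symm79 (z : EuclideanSpace ℝ (Fin 10)) (α β γ δ : ℝ) (i j : Fin 10) :
    blk z α β γ δ i j = blk z α β γ δ j i := by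
  simp only [blk]
  by_cases hi : i = 9 <;> by_cases hj : j = 9 <;> by_cases hij : i = j
  · subst hij; rfl
  · exact absurd (hi.trans hj.symm) hij
  · subst hij; rfl
  · simp [hi, hj]
  · subst hij; rfl
  · simp [hi, hj]
  · subst hij; rfl
  · have hji : ¬ j = i := fun h => hij h.symm
    simp [hi, hj, hij, hji]; ring

theorem trace_blk' (z : EuclideanSpace ℝ (Fin 10)) (α β γ δ α' β' γ' δ' : ℝ)
    (h : (blk z α β γ δ).det ≠ 0) :
    ∑ i, ∑ j, (blk z α β γ δ).det * (blk z α β γ δ)⁻¹ i j * blk z α' β' γ' δ' i j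
      = α ^ 7 * (8 * α' * ((α + β * xx z) * δ - γ ^ 2 * xx z)
          + α * ((α' + β' * xx z) * δ + (α + β * xx z) * δ' - 2 * γ * γ' * xx z)) := by
  set B := blk z α β γ δ with hB
  set B' := blk z α' β' γ' δ' with hB'
  have hu : IsUnit B.det := isUnit_iff_ne_zero.mpr h
  have hsum : ∑ i, ∑ j, B.det * B⁻¹ i j * B' i j = B.det * (B⁻¹ * B').trace := by
    rw [Matrix.trace, Finset.mul_sum]
    refine Finset.sum_congr rfl fun i _ => ?_
    rw [Matrix.diag_apply, Matrix.mul_apply, Finset.mul_sum]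
    refine Finset.sum_congr rfl fun j _ => ?_
    rw [hB', blk_symm79 z α' β' γ' δ' i j]; ring
  rw [hsum]
  have hkey : ∀ t : ℝ, (B + t • B').det = B.det * (1 + t • (B⁻¹ * B')).det := by
    intro t
    rw [← Matrix.det_mul, Matrix.mul_add, Matrix.mul_one, Matrix.mul_smul,
      Matrix.mul_nonsing_inv_cancel_left _ _ hu]
  have hder1 : HasDerivAt (fun t : ℝ => (B + t • B').det) (B.det * (B⁻¹ * B').trace) 0 := by
    have hf : (fun t : ℝ => (B + t • B').det) = fun t : ℝ => B.det *
        (1 + (B⁻¹ * B').trace * t + (Matrix.det (1 + (Polynomial.X : Polynomial ℝ) • (B⁻¹ * B').map Polynomial.C)).divX.divX.eval t * t ^ 2) := by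
      funext t
      rw [hkey t, Matrix.det_one_add_smul]
    rw [hf]
    have hp : HasDerivAt (fun t : ℝ => (Matrix.det (1 + (Polynomial.X : Polynomial ℝ) • (B⁻¹ * B').map Polynomial.C)).divX.divX.eval t) _ 0 :=
      Polynomial.hasDerivAt _ 0
    have h1 := (((hasDerivAt_const (0:ℝ) (1:ℝ)).add ((hasDerivAt_id (0:ℝ)).const_mul (B⁻¹ * B').trace)).add
      (hp.mul ((hasDerivAt_id (0:ℝ)).pow 2))).const_mul B.det
    refine HasDerivAt.congr_deriv (h1 : HasDerivAt (fun t : ℝ => _) _ 0) ?_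
    simp
  have hder2 : HasDerivAt (fun t : ℝ => (B + t • B').det)
      (α ^ 7 * (8 * α' * ((α + β * xx z) * δ - γ ^ 2 * xx z)
          + α * ((α' + β' * xx z) * δ + (α + β * xx z) * δ' - 2 * γ * γ' * xx z))) 0 := by
    have hf : (fun t : ℝ => (B + t • B').det) = fun t : ℝ =>
        (α + t * α') ^ 8 * (((α + t * α') + (β + t * β') * xx z) * (δ + t * δ')
          - (γ + t * γ') ^ 2 * xx z) := by
      funext t
      rw [hB, hB', blk_add79, det_blk']
    rw [hf]
    have ha : ∀ a a' : ℝ, HasDerivAt (fun t : ℝ => a + t * a') a' 0 := by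
      intro a a'
      simpa using ((hasDerivAt_id (0:ℝ)).mul_const a').const_add a
    have h1 := ((ha α α').pow 8).mul (((((ha α α').add ((ha β β').mul_const (xx z))).mul (ha δ δ'))).sub
      (((ha γ γ').pow 2).mul_const (xx z)))
    refine HasDerivAt.congr_deriv (h1 : HasDerivAt (fun t : ℝ => _) _ 0) ?_
    simp
    ring
  exact hder1.unique hder2

end Crest.Agent.R236
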